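import Mathlib

/-!
Basic definitions for the multi-scale Kac construction (P171).
Everything is written with full double sums over ordered pairs (diagonal included).
-/

namespace Vale.Agent.P171

open MeasureTheory Set Filter Topology
open scoped ENNReal NNReal BigOperators

/-- three-dimensional Euclidean space -/
abbrev E := EuclideanSpace ℝ (Fin 3)

/-- full double sum of a pair function over a finite family of points -/
noncomputable def dsum {X : Type*} (v : X → X → ℝ) {ι : Type*} [Fintype ι] (x : ι → X) : ℝ :=
  ∑ i, ∑ j, v (x i) (x j)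

/-- the Boltzmann weight exp(m * number + dsum v) -/
noncomputable def wt {X : Type*} (v : X → X → ℝ) (m : ℝ) {ι : Type*} [Fintype ι]
    (x : ι → X) : ℝ≥0∞ :=
  ENNReal.ofReal (Real.exp (m * (Fintype.card ι : ℝ) + dsum v x))

/-- canonical integral with N particles and one-particle measure ν -/
noncomputable def cint {X : Type*} [MeasurableSpace X] (ν : Measure X) (v : X → X → ℝ) (m : ℝ)
    (N : ℕ) : ℝ≥0∞ :=
  ∫⁻ x : Fin N → X, wt v m x ∂(Measure.pi fun _ => ν)

/-- grand canonical partition function -/
noncomputable def Xi {X : Type*} [MeasurableSpace X] (ν : Measure X) (v : X → X → ℝ) (m : ℝ) :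
    ℝ≥0∞ :=
  ∑' N : ℕ, ((N.factorial : ℝ≥0∞))⁻¹ * cint ν v m N

/-- the closed box [0,L]^3 -/
def box (L : ℝ) : Set E := {x | ∀ i, x i ∈ Set.Icc (0 : ℝ) L}

/-- indicator of distance < 1 -/
noncomputable def near (x y : E) : ℝ := if dist x y < 1 then 1 else 0

/-- normalised overlap of two balls of radius L -/
noncomputable def J (L : ℝ) (x y : E) : ℝ :=
  (volume (Metric.ball x L ∩ Metric.ball y L)).toReal / (volume (Metric.ball (0 : E) L)).toReal ^ 2

/-- index of the cell of side l (grid shifted by s) which contains x -/
noncomputable def cell (s : Fin 3 → ℝ) (l : ℝ) (x : E) : Fin 3 → ℤ := fun i => ⌊(x i - s i) / l⌋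

open Classical in
/-- indicator of being in the same cell -/
noncomputable def same (s : Fin 3 → ℝ) (l : ℝ) (x y : E) : ℝ :=
  if cell s l x = cell s l y then 1 else 0

/-- the pair function of the gas: soft core of strength A, attractive part K -/
noncomputable def vpot (A : ℝ) (K : E → E → ℝ) (x y : E) : ℝ := -(A / 2) * near x y + K x y / 2

/-- admissible attractive kernels, of range R and relative strength C -/
structure Good (R C : ℝ) (K : E → E → ℝ) : Prop where
  meas : Measurable (Function.uncurry K)
  nonneg : ∀ x y, 0 ≤ K x y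
  symm : ∀ x y, K x y = K y x
  trans : ∀ a x y, K (x + a) (y + a) = K x y
  range : ∀ x y, R ≤ dist x y → K x y = 0
  bound : ∀ (N : ℕ) (x : Fin N → E), dsum K x ≤ C * dsum near x

end Vale.Agent.P171
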