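import Vale.Agent.P171.Upper

/-!
Decoupling of the big box into blocks.
-/

namespace Vale.Agent.P171

open MeasureTheory Set Filter Topology
open scoped ENNReal NNReal BigOperators

theorem same_nonneg (s : Fin 3 → ℝ) (l : ℝ) (x y : E) : 0 ≤ same s l x y := by
  unfold same; split_ifs <;> norm_num

theorem same_le_one (s : Fin 3 → ℝ) (l : ℝ) (x y : E) : same s l x y ≤ 1 := by
  unfold same; split_ifs <;> norm_num

/-- the block diagonal pair function -/
noncomputable def wblock (A : ℝ) (K : E → E → ℝ) (θ b : ℝ) (s : Fin 3 → ℝ) (l : ℝ) (x y : E) :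
    ℝ := same s l x y * ublock A K θ b x y

theorem measurable_ublock {A : ℝ} {K : E → E → ℝ} (hK : Measurable (Function.uncurry K))
    (θ b : ℝ) : Measurable (Function.uncurry (ublock A K θ b)) := by
  have : Function.uncurry (ublock A K θ b) = fun p : E × E =>
      -(A / 2) * Function.uncurry near p + (1 + θ) / 2 * Function.uncurry K p + b := by
    funext p; rfl
  rw [this]
  exact ((measurable_near.const_mul _).add (hK.const_mul _)).add_const _

theorem measurable_wblock {A : ℝ} {K : E → E → ℝ} (hK : Measurable (Function.uncurry K))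
    (θ b : ℝ) (s : Fin 3 → ℝ) (l : ℝ) :
    Measurable (Function.uncurry (wblock A K θ b s l)) := by
  have : Function.uncurry (wblock A K θ b s l) = fun p : E × E =>
      Function.uncurry (same s l) p * Function.uncurry (ublock A K θ b) p := by
    funext p; rfl
  rw [this]
  exact (measurable_same s l).mul (measurable_ublock hK θ b)

section gas

variable {A C : ℝ} {K : E → E → ℝ}

/-- pointwise comparison with the block diagonal pair function for a good shift -/
theorem exists_shift_le {R : ℝ} (hR : 0 < R) (hK : Good R C K) (hA : 0 ≤ A) {ε L : ℝ}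
    (hε : 0 < ε) (hL : 0 < L) (M : ℕ) (hM : 3 < M) {θ b : ℝ}
    (hθ : (1 - 3 / (M : ℝ)) * (1 + θ) = 1)
    (hb : ε / 2 * ((1 + Real.sqrt 3 * (M * R) / L) ^ 6 * ((M * R) ^ 3)⁻¹) ≤ b)
    (N : ℕ) (x : Fin N → E) :
    ∃ σ : Fin 3 → Fin M,
      dsum (vpot A (fun x y => K x y + ε * J L x y)) x ≤
        dsum (wblock A K θ b (fun i => (σ i : ℝ) * R) (M * R)) x := by
  have hM0 : (0 : ℝ) < M := by
    have : 0 < M := by omega
    exact_mod_cast this
  have hl : 0 < M * R := by positivity
  obtain ⟨σ, hσ⟩ := exists_shift R hR K hK.nonneg hK.range M hM N x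
  refine ⟨σ, ?_⟩
  have h3M : 3 / (M : ℝ) < 1 := by
    rw [div_lt_one hM0]
    exact_mod_cast hM
  have hθ1 : 0 < 1 + θ := by
    by_contra hcon
    push Not at hcon
    have : (1 - 3 / (M : ℝ)) * (1 + θ) ≤ 0 := mul_nonpos_of_nonneg_of_nonpos (by linarith) hcon
    linarith
  have h1 : dsum K x ≤ (1 + θ) *
      dsum (fun a b => K a b * same (fun i => (σ i : ℝ) * R) (M * R) a b) x := by
    have := mul_le_mul_of_nonneg_left hσ hθ1.le
    have e : (1 + θ) * ((1 - 3 / (M : ℝ)) * dsum K x) = dsum K x := by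
      rw [← mul_assoc, mul_comm (1 + θ), hθ, one_mul]
    linarith
  have h2 := J_upper L hL (fun i => (σ i : ℝ) * R) (M * R) hl N x
  have h3 : dsum (fun a b => near a b * same (fun i => (σ i : ℝ) * R) (M * R) a b) x ≤
      dsum near x := dsum_mono (fun a b => by
        have := near_nonneg a b
        have h4 := same_le_one (fun i => (σ i : ℝ) * R) (M * R) a b
        nlinarith) x
  have h5 : 0 ≤ dsum (same (fun i => (σ i : ℝ) * R) (M * R)) x :=
    Finset.sum_nonneg fun i _ => Finset.sum_nonneg fun j _ => same_nonneg _ _ _ _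
  have hw : dsum (wblock A K θ b (fun i => (σ i : ℝ) * R) (M * R)) x =
      -(A / 2) * dsum (fun a b => near a b * same (fun i => (σ i : ℝ) * R) (M * R) a b) x
      + (1 + θ) / 2 * dsum (fun a b => K a b * same (fun i => (σ i : ℝ) * R) (M * R) a b) x
      + b * dsum (same (fun i => (σ i : ℝ) * R) (M * R)) x := by
    rw [← dsum_const_mul, ← dsum_const_mul, ← dsum_const_mul, ← dsum_add, ← dsum_add]
    congr 1
    funext p q
    unfold wblock ublock
    ring
  rw [hw, dsum_vpot, dsum_add, dsum_const_mul]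
  have h6 : ε / 2 * dsum (J L) x ≤ b * dsum (same (fun i => (σ i : ℝ) * R) (M * R)) x := by
    calc ε / 2 * dsum (J L) x ≤ ε / 2 * ((1 + Real.sqrt 3 * (M * R) / L) ^ 6 * ((M * R) ^ 3)⁻¹ *
          dsum (same (fun i => (σ i : ℝ) * R) (M * R)) x) :=
          mul_le_mul_of_nonneg_left h2 (by positivity)
      _ = (ε / 2 * ((1 + Real.sqrt 3 * (M * R) / L) ^ 6 * ((M * R) ^ 3)⁻¹)) *
          dsum (same (fun i => (σ i : ℝ) * R) (M * R)) x := by ring
      _ ≤ _ := mul_le_mul_of_nonneg_right hb h5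
  have h7 : -(A / 2) * dsum near x ≤
      -(A / 2) * dsum (fun a b => near a b * same (fun i => (σ i : ℝ) * R) (M * R) a b) x :=
    mul_le_mul_of_nonpos_left h3 (by linarith)
  linarith

/-- one cell -/
theorem Xi_cell_le (hK : Pre C K) (θ b : ℝ) (s : Fin 3 → ℝ) {l : ℝ} (hl : 0 < l) (m : ℝ)
    (k : Fin 3 → ℤ) :
    Xi (volume.restrict {x : E | cell s l x = k}) (wblock A K θ b s l) m ≤
      Xi (volume.restrict (box l)) (ublock A K θ b) m := by
  have hcube : MeasurableSet {x : E | ∀ i, x i ∈ Set.Ico (0 : ℝ) l} := by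
    have : {x : E | ∀ i, x i ∈ Set.Ico (0 : ℝ) l} = ⋂ i, (fun x : E => x i) ⁻¹' Set.Ico 0 l := by
      ext x; simp
    rw [this]
    refine MeasurableSet.iInter fun i => ?_
    have hm : Measurable (fun x : E => x i) := by fun_prop
    exact hm measurableSet_Ico
  have himg := cell_eq_translate s l hl k
  rw [himg]
  rw [Xi_translate (wblock A K θ b s l) (ublock A K θ b) (measurable_wblock hK.meas θ b s l)
    (measurable_ublock hK.meas θ b) _ _ hcube m (fun x hx y hy => by
      have hx' : cell s l (x + (WithLp.toLp 2 (fun i => s i + l * (k i : ℝ)) : E)) = k := by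
        have : x + (WithLp.toLp 2 (fun i => s i + l * (k i : ℝ)) : E) ∈
          {x : E | cell s l x = k} := by
          rw [himg]
          exact ⟨x, hx, rfl⟩
        exact this
      have hy' : cell s l (y + (WithLp.toLp 2 (fun i => s i + l * (k i : ℝ)) : E)) = k := by
        have : y + (WithLp.toLp 2 (fun i => s i + l * (k i : ℝ)) : E) ∈
          {x : E | cell s l x = k} := by
          rw [himg]
          exact ⟨y, hy, rfl⟩
        exact this
      unfold wblock same
      rw [hx', hy', if_pos rfl, one_mul]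
      unfold ublock near
      rw [dist_add_right, hK.trans])]
  refine Xi_mono_set _ _ _ fun x hx i => ?_
  have := hx i
  exact ⟨this.1, this.2.le⟩

/-- all cells -/
theorem Xi_box_wblock_le (hK : Pre C K) {θ b : ℝ} (s : Fin 3 → ℝ) {l : ℝ} (hl : 0 < l)
    (hs : ∀ i, 0 ≤ s i ∧ s i < l) (m : ℝ) {y : ℝ} (hy0 : 0 ≤ y)
    (hy : Xi (volume.restrict (box l)) (ublock A K θ b) m ≤ ENNReal.ofReal (Real.exp y))
    {ℓ : ℝ} (hℓ : 0 ≤ ℓ) :
    Xi (volume.restrict (box ℓ)) (wblock A K θ b s l) m ≤
      ENNReal.ofReal (Real.exp ((ℓ / l + 2) ^ 3 * y)) := by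
  obtain ⟨T, hT, hcov⟩ := exists_cell_cover s l hl hs ℓ hℓ
  have hsub : box ℓ ⊆ ⋃ k ∈ T, {x : E | cell s l x = k} := by
    intro x hx
    simp only [mem_iUnion, mem_ofPred_eq, exists_prop]
    exact ⟨cell s l x, hcov x hx, rfl⟩
  have hfin : ∀ k : Fin 3 → ℤ, volume {x : E | cell s l x = k} ≠ ∞ := by
    intro k
    rw [cell_eq_translate s l hl k, Set.image_add_right, measure_preimage_add_right]
    have hsub2 : {x : E | ∀ i, x i ∈ Set.Ico (0 : ℝ) l} ⊆ box l := by
      intro x hx i
      have := hx i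
      exact ⟨this.1, this.2.le⟩
    refine ne_top_of_le_ne_top ?_ (measure_mono hsub2)
    rw [volume_box l hl.le]
    exact ENNReal.ofReal_ne_top
  calc Xi (volume.restrict (box ℓ)) (wblock A K θ b s l) m
      ≤ Xi (volume.restrict (⋃ k ∈ T, {x : E | cell s l x = k})) (wblock A K θ b s l) m :=
        Xi_mono_set _ _ _ hsub
    _ ≤ ∏ k ∈ T, Xi (volume.restrict {x : E | cell s l x = k}) (wblock A K θ b s l) m := by
        refine Xi_biUnion_le_prod_Xi volume _ (measurable_wblock hK.meas θ b s l) m T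
          (fun k => {x : E | cell s l x = k}) (fun k _ => measurableSet_cell s l k)
          (fun k _ => hfin k) ?_ ?_
        · intro k _ k' _ hkk
          rw [Function.onFun, Set.disjoint_left]
          intro x hx hx'
          exact hkk (hx.symm.trans hx')
        · intro k _ k' _ hkk x hx x' hx'
          have hne : cell s l x ≠ cell s l x' := by
            rw [show cell s l x = k from hx, show cell s l x' = k' from hx']
            exact hkk
          unfold wblock same
          rw [if_neg hne, zero_mul]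
    _ ≤ ∏ _k ∈ T, ENNReal.ofReal (Real.exp y) :=
        Finset.prod_le_prod' fun k _ => (Xi_cell_le hK θ b s hl m k).trans hy
    _ = ENNReal.ofReal (Real.exp (T.card * y)) := by
        rw [Finset.prod_const, ← ENNReal.ofReal_pow (Real.exp_pos _).le, ← Real.exp_nat_mul]
    _ ≤ _ := by
        refine ENNReal.ofReal_le_ofReal (Real.exp_le_exp.2 ?_)
        exact mul_le_mul_of_nonneg_right hT hy0

/-- U3 -/
theorem pr_add_J_le {R : ℝ} (hR : 0 < R) (hK : Good R C K) (hA : 0 ≤ A) {ε L : ℝ}
    (hε : 0 < ε) (hL : 0 < L) {C' : ℝ} (hK' : Pre C' (fun x y => K x y + ε * J L x y))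
    (hAC' : C' ≤ A) (M : ℕ) (hM : 3 < M) {θ b : ℝ}
    (hθ : (1 - 3 / (M : ℝ)) * (1 + θ) = 1)
    (hb : ε / 2 * ((1 + Real.sqrt 3 * (M * R) / L) ^ 6 * ((M * R) ^ 3)⁻¹) ≤ b)
    {m y : ℝ} (hy0 : 0 ≤ y)
    (hy : Xi (volume.restrict (box (M * R))) (ublock A K θ b) m ≤ ENNReal.ofReal (Real.exp y)) :
    pr A (fun x y => K x y + ε * J L x y) m ≤ y / (M * R) ^ 3 := by
  have hM0 : (0 : ℝ) < M := by
    have : 0 < M := by omega
    exact_mod_cast this
  have hl : 0 < M * R := by positivity
  set l : ℝ := M * R with hldef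
  have hlim : Tendsto (fun ℓ : ℝ => Real.log (M ^ 3) * (ℓ ^ 3)⁻¹ + (l⁻¹ + 2 * ℓ⁻¹) ^ 3 * y)
      atTop (𝓝 (y / l ^ 3)) := by
    have h0 : Tendsto (fun ℓ : ℝ => (ℓ ^ 3)⁻¹) atTop (𝓝 0) :=
      (tendsto_pow_atTop (by norm_num)).inv_tendsto_atTop
    have h1 : Tendsto (fun ℓ : ℝ => Real.log (M ^ 3) * (ℓ ^ 3)⁻¹ + (l⁻¹ + 2 * ℓ⁻¹) ^ 3 * y)
        atTop (𝓝 (Real.log (M ^ 3) * 0 + (l⁻¹ + 2 * 0) ^ 3 * y)) :=
      (h0.const_mul _).add
        (((tendsto_const_nhds.add (tendsto_inv_atTop_zero.const_mul 2)).pow 3).mul_const y)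
    have e : Real.log (M ^ 3) * 0 + (l⁻¹ + 2 * 0) ^ 3 * y = y / l ^ 3 := by
      field_simp; ring
    rwa [e] at h1
  refine pr_le_of_eventually hK' hAC' m hlim ?_
  filter_upwards [eventually_gt_atTop (0 : ℝ)] with ℓ hℓ
  have hmain : lpf A (fun x y => K x y + ε * J L x y) m ℓ ≤
      Real.log (M ^ 3) + (ℓ / l + 2) ^ 3 * y := by
    refine lpf_le_of_le hK' hAC' m hℓ.le ?_
    refine (Xi_restrict_le_sum (volume : Measure E) (Finset.univ : Finset (Fin 3 → Fin M))
      (vpot A (fun x y => K x y + ε * J L x y))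
      (fun σ => wblock A K θ b (fun i => (σ i : ℝ) * R) l)
      (fun σ _ => measurable_wblock hK.meas θ b _ _) m (box ℓ) (measurableSet_box ℓ)
      (fun N x _ => by
        obtain ⟨σ, hσ⟩ := exists_shift_le hR hK hA hε hL M hM hθ hb N x
        exact ⟨σ, Finset.mem_univ _, hσ⟩)).trans ?_
    calc ∑ σ : Fin 3 → Fin M, Xi (volume.restrict (box ℓ))
          (wblock A K θ b (fun i => (σ i : ℝ) * R) l) m
        ≤ ∑ _σ : Fin 3 → Fin M, ENNReal.ofReal (Real.exp ((ℓ / l + 2) ^ 3 * y)) := by
          refine Finset.sum_le_sum fun σ _ => ?_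
          refine Xi_box_wblock_le hK.pre _ hl (fun i => ⟨by positivity, ?_⟩) m hy0 hy hℓ.le
          rw [hldef]
          have : ((σ i : ℕ) : ℝ) < M := by exact_mod_cast (σ i).2
          exact mul_lt_mul_of_pos_right this hR
      _ = ENNReal.ofReal (Real.exp (Real.log (M ^ 3) + (ℓ / l + 2) ^ 3 * y)) := by
          rw [Finset.sum_const, Finset.card_univ, Fintype.card_fun, Fintype.card_fin,
            Fintype.card_fin, nsmul_eq_mul, Real.exp_add, Real.exp_log (by positivity),
            ENNReal.ofReal_mul (by positivity)]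
          congr 1
          rw [← ENNReal.ofReal_natCast]
          push_cast
          rfl
  rw [div_le_iff₀ (by positivity)]
  refine hmain.trans (le_of_eq ?_)
  have e1 : ℓ / l + 2 = (l⁻¹ + 2 * ℓ⁻¹) * ℓ := by field_simp
  rw [e1]
  field_simp

end gas

end Vale.Agent.P171
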