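import Mathlib

/-!
Definitions of Problem P171, in the notation of the problem file.
-/

namespace Vale.Agent.P171

open MeasureTheory Filter Topology

/-- The space `ℝ³` with its Euclidean norm. -/
abbrev Space := EuclideanSpace ℝ (Fin 3)

/-- `U_N(x_1,…,x_N)`: the sum of `φ(|x_i - x_j|)` over the pairs `i < j`. -/
noncomputable def energy (φ : ℝ → ℝ) {N : ℕ} (x : Fin N → Space) : ℝ :=
  ∑ i, ∑ j ∈ Finset.Ioi i, φ (dist (x i) (x j))

/-- Local boundedness on `(0,∞)`. -/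
def LocBdd (φ : ℝ → ℝ) : Prop :=
  ∀ a b : ℝ, 0 < a → ∃ M, ∀ r, a ≤ r → r ≤ b → |φ r| ≤ M

/-- Stability: `U_N ≥ -B N` for all `N` and all configurations of distinct points. -/
def Stable (φ : ℝ → ℝ) : Prop :=
  ∃ B : ℝ, ∀ (N : ℕ) (x : Fin N → Space), Function.Injective x → -(B * N) ≤ energy φ x

/-- Temperedness: `φ(r) ≤ C r^(-3-ε)` for all `r ≥ R₀`. -/
def Tempered (φ : ℝ → ℝ) : Prop :=
  ∃ C ε R₀ : ℝ, 0 < C ∧ 0 < ε ∧ 0 < R₀ ∧ ∀ r, R₀ ≤ r → φ r ≤ C * r ^ (-3 - ε)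

/-- The configurations of `N` points in the cube `Λ_L = [0,L]³`. -/
def conf (L : ℝ) (N : ℕ) : Set (Fin N → Space) :=
  {x | ∀ i k, 0 ≤ x i k ∧ x i k ≤ L}

/-- The canonical partition function `Z_{L,N}(β)`. -/
noncomputable def canonical (φ : ℝ → ℝ) (β L : ℝ) (N : ℕ) : ℝ :=
  1 / (N.factorial : ℝ) * ∫ x in conf L N, Real.exp (-(β * energy φ x))

/-- The grand canonical partition function: the sum over `N ≥ 0` of `z^N Z_{L,N}(β)`. -/
noncomputable def grand (φ : ℝ → ℝ) (β z L : ℝ) : ℝ :=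
  ∑' N : ℕ, z ^ N * canonical φ β L N

/-- `P` is the function `z ↦ Π(β,z)`: for every `z > 0` the integrals and the sum defining the
partition functions converge, and `L⁻³ log (grand φ β z L) → P z` as `L → ∞` (real `L`). -/
def IsPressure (φ : ℝ → ℝ) (β : ℝ) (P : ℝ → ℝ) : Prop :=
  ∀ z : ℝ, 0 < z →
    (∀ L : ℝ, 0 < L →
      (∀ N, IntegrableOn (fun x => Real.exp (-(β * energy φ x))) (conf L N)) ∧
      Summable fun N : ℕ => z ^ N * canonical φ β L N) ∧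
    Tendsto (fun L : ℝ => (L ^ 3)⁻¹ * Real.log (grand φ β z L)) atTop (𝓝 (P z))

/-- Condition (a) of the problem file: for some `β > 0` the function `z ↦ Π(β,z)` exists for all
`z > 0` and is not differentiable at some point. -/
def HasPhaseTransition (φ : ℝ → ℝ) : Prop :=
  ∃ β : ℝ, 0 < β ∧ ∃ P : ℝ → ℝ, IsPressure φ β P ∧ ∃ z₀ : ℝ, 0 < z₀ ∧ ¬ DifferentiableAt ℝ P z₀

end Vale.Agent.P171
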