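import Vale.Agent.P171.Basic

/-!
Task B: geometry of the kernels J L and of the grid cells.
-/

namespace Vale.Agent.P171

open MeasureTheory Set Filter Topology
open scoped ENNReal NNReal BigOperators

theorem measurableSet_prodset (S : Fin 3 → Set ℝ) (hS : ∀ i, MeasurableSet (S i)) :
    MeasurableSet {x : E | ∀ i, x i ∈ S i} := by
  have : {x : E | ∀ i, x i ∈ S i} = ⋂ i, (fun x : E => x i) ⁻¹' (S i) := by
    ext x; simp
  rw [this]
  refine MeasurableSet.iInter fun i => (hS i).preimage ?_
  fun_prop

theorem volume_prodset (S : Fin 3 → Set ℝ) (hS : ∀ i, MeasurableSet (S i)) :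
    volume {x : E | ∀ i, x i ∈ S i} = ∏ i, volume (S i) := by
  have h1 : {x : E | ∀ i, x i ∈ S i} = (@WithLp.ofLp 2 (Fin 3 → ℝ)) ⁻¹' (Set.univ.pi S) := by
    ext x; simp
  rw [h1, (PiLp.volume_preserving_ofLp (Fin 3)).measure_preimage
    (MeasurableSet.univ_pi hS).nullMeasurableSet, volume_pi_pi]

theorem measurableSet_box (L : ℝ) : MeasurableSet (box L) :=
  measurableSet_prodset (fun _ => Set.Icc 0 L) fun _ => measurableSet_Icc

theorem volume_box (L : ℝ) (hL : 0 ≤ L) : volume (box L) = ENNReal.ofReal (L ^ 3) := by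
  have := volume_prodset (fun _ => Set.Icc 0 L) fun _ => measurableSet_Icc
  unfold box
  rw [this]
  simp [ENNReal.ofReal_pow hL]

theorem measurable_near : Measurable (Function.uncurry near) := by
  have h : Function.uncurry near = ({p : E × E | dist p.1 p.2 < 1}).indicator 1 := by
    ext p
    simp only [Function.uncurry, near, Set.indicator_apply, Set.mem_ofPred_eq, Pi.one_apply]
  rw [h]
  refine Measurable.indicator measurable_one ?_
  exact measurableSet_lt (by fun_prop) measurable_const

/-- (B1) J depends only on the distance -/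
theorem J_eq_of_dist (L : ℝ) (x y x' y' : E) (h : dist x y = dist x' y') :
    J L x y = J L x' y' := by
  -- translate both to the origin
  have htr : ∀ a b : E, volume (Metric.ball a L ∩ Metric.ball b L) =
      volume (Metric.ball (0 : E) L ∩ Metric.ball (b - a) L) := by
    intro a b
    have h1 : (fun z : E => a + z) ⁻¹' (Metric.ball a L ∩ Metric.ball b L) =
        Metric.ball (0 : E) L ∩ Metric.ball (b - a) L := by
      ext z
      simp only [Set.mem_preimage, Set.mem_inter_iff, Metric.mem_ball, dist_eq_norm]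
      have e1 : a + z - a = z - 0 := by abel
      have e2 : a + z - b = z - (b - a) := by abel
      rw [e1, e2]
    rw [← h1, measure_preimage_add]
  have hnorm : ‖y - x‖ = ‖y' - x'‖ := by
    rw [← dist_eq_norm, ← dist_eq_norm, dist_comm, h, dist_comm]
  unfold J
  rw [htr x y, htr x' y']
  congr 2
  -- the reflection exchanging y - x and y' - x'
  let R := (Submodule.span ℝ {(y - x) - (y' - x')})ᗮ.reflection
  have hR : R (y - x) = y' - x' := Submodule.reflection_sub hnorm
  have h2 : R ⁻¹' (Metric.ball (0 : E) L ∩ Metric.ball (y' - x') L) =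
      Metric.ball (0 : E) L ∩ Metric.ball (y - x) L := by
    ext z
    simp only [Set.mem_preimage, Set.mem_inter_iff, Metric.mem_ball]
    rw [← hR, R.dist_map]
    have h3 : dist (R z) 0 = dist z 0 := by
      have h4 := R.dist_map z 0
      rwa [R.map_zero] at h4
    rw [h3]
  rw [← h2]
  exact R.measurePreserving.measure_preimage
    (Metric.isOpen_ball.measurableSet.inter Metric.isOpen_ball.measurableSet).nullMeasurableSet

theorem measurable_J (L : ℝ) : Measurable (Function.uncurry (J L)) := by
  have h1 : Measurable fun p : E × E =>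
      volume (Metric.ball p.1 L ∩ Metric.ball p.2 L) := by
    have h2 : MeasurableSet {q : (E × E) × E | dist q.2 q.1.1 < L ∧ dist q.2 q.1.2 < L} := by
      have ha : MeasurableSet {q : (E × E) × E | dist q.2 q.1.1 < L} :=
        measurableSet_lt (by fun_prop) measurable_const
      have hb : MeasurableSet {q : (E × E) × E | dist q.2 q.1.2 < L} :=
        measurableSet_lt (by fun_prop) measurable_const
      exact ha.inter hb
    have h3 := measurable_measure_prodMk_left (ν := (volume : Measure E)) h2
    have h4 : (fun p : E × E => volume (Metric.ball p.1 L ∩ Metric.ball p.2 L)) =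
        fun p : E × E => volume (Prod.mk p ⁻¹'
          {q : (E × E) × E | dist q.2 q.1.1 < L ∧ dist q.2 q.1.2 < L}) := by
      funext p
      congr 1
    rw [h4]
    exact h3
  have h5 : Function.uncurry (J L) = fun p : E × E =>
      (volume (Metric.ball p.1 L ∩ Metric.ball p.2 L)).toReal /
        (volume (Metric.ball (0 : E) L)).toReal ^ 2 := by
    funext p; rfl
  rw [h5]
  exact h1.ennreal_toReal.div_const _

theorem J_nonneg (L : ℝ) (x y : E) : 0 ≤ J L x y := by
  unfold J
  positivity

/-- (B1') J is bounded by its value on the diagonal -/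
theorem J_le_diag (L : ℝ) (x y : E) : J L x y ≤ J L 0 0 := by
  unfold J
  apply div_le_div_of_nonneg_right _ (by positivity)
  rw [Set.inter_self]
  apply ENNReal.toReal_mono measure_ball_lt_top.ne
  calc volume (Metric.ball x L ∩ Metric.ball y L) ≤ volume (Metric.ball x L) :=
        measure_mono Set.inter_subset_left
    _ = volume (Metric.ball 0 L) := Measure.addHaar_ball_center _ _ _

theorem J_range (L : ℝ) (x y : E) (h : 2 * L ≤ dist x y) : J L x y = 0 := by
  unfold J
  have : Metric.ball x L ∩ Metric.ball y L = ∅ := by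
    have := Metric.ball_disjoint_ball (x := x) (y := y) (δ := L) (ε := L) (by linarith)
    exact this.inter_eq
  rw [this]
  simp

theorem ball_volume_real (x : E) (L : ℝ) :
    (volume (Metric.ball x L)).toReal = (volume (Metric.ball (0 : E) L)).toReal := by
  rw [Measure.addHaar_ball_center]

theorem ball_volume_pos {L : ℝ} (hL : 0 < L) : 0 < (volume (Metric.ball (0 : E) L)).toReal :=
  ENNReal.toReal_pos (Metric.measure_ball_pos volume _ hL).ne' measure_ball_lt_top.ne

/-- (B2) positive definiteness in the form used for the lower bound -/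
theorem J_lower (L : ℝ) (hL : 0 < L) (ℓ : ℝ) (hℓ : 0 ≤ ℓ) (m : ℝ) (N : ℕ) (x : Fin N → E)
    (hx : ∀ i, x i ∈ box ℓ) :
    2 * m * N - m ^ 2 * (ℓ + 2 * L) ^ 3 ≤ dsum (J L) x := by
  classical
  set b := (volume (Metric.ball (0 : E) L)).toReal with hb
  have hb0 : 0 < b := ball_volume_pos hL
  let D : Set E := {z | ∀ i, z i ∈ Set.Icc (-L) (ℓ + L)}
  have hDm : MeasurableSet D := measurableSet_prodset (fun _ => Set.Icc (-L) (ℓ + L))
    fun _ => measurableSet_Icc
  have hDv : volume D = ENNReal.ofReal ((ℓ + 2 * L) ^ 3) := by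
    have := volume_prodset (fun _ => Set.Icc (-L) (ℓ + L)) fun _ => measurableSet_Icc
    rw [this]
    simp only [Real.volume_Icc, Finset.prod_const, Finset.card_univ, Fintype.card_fin]
    rw [← ENNReal.ofReal_pow (by linarith)]
    congr 2
    ring
  have hDr : (volume D).toReal = (ℓ + 2 * L) ^ 3 := by
    rw [hDv, ENNReal.toReal_ofReal (by positivity)]
  have hsub : ∀ i, Metric.ball (x i) L ⊆ D := by
    intro i z hz k
    have h1 : |z k - x i k| ≤ dist z (x i) := by
      rw [EuclideanSpace.dist_eq]
      rw [← Real.sqrt_sq_eq_abs]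
      apply Real.sqrt_le_sqrt
      have := Finset.single_le_sum (f := fun k => dist (z k) (x i k) ^ 2)
        (fun _ _ => sq_nonneg _) (Finset.mem_univ k)
      simpa [Real.dist_eq, sq_abs] using this
    have h2 : dist z (x i) < L := hz
    have h3 := hx i k
    have h4 := abs_le.1 (h1.trans h2.le)
    exact ⟨by linarith [h3.1, h4.1], by linarith [h3.2, h4.2]⟩
  let μ : Measure E := volume.restrict D
  have : IsFiniteMeasure μ := ⟨by
    rw [Measure.restrict_apply_univ, hDv]; exact ENNReal.ofReal_lt_top⟩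
  let f : Fin N → E → ℝ := fun i => (Metric.ball (x i) L).indicator (fun _ => 1)
  have hfint : ∀ i, Integrable (f i) μ := fun i =>
    (integrable_const (1 : ℝ)).indicator Metric.isOpen_ball.measurableSet
  have hff : ∀ i j, (fun z => f i z * f j z) =
      (Metric.ball (x i) L ∩ Metric.ball (x j) L).indicator (fun _ => (1 : ℝ)) := by
    intro i j
    funext z
    simp only [f, Set.indicator_apply, Set.mem_inter_iff]
    split_ifs <;> simp_all
  have hffint : ∀ i j, Integrable (fun z => f i z * f j z) μ := fun i j => by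
    rw [hff]
    exact (integrable_const (1 : ℝ)).indicator
      (Metric.isOpen_ball.measurableSet.inter Metric.isOpen_ball.measurableSet)
  have hfI : ∀ i, ∫ z, f i z ∂μ = b := by
    intro i
    rw [integral_indicator Metric.isOpen_ball.measurableSet, setIntegral_const, smul_eq_mul,
      mul_one]
    rw [Measure.real, Measure.restrict_apply Metric.isOpen_ball.measurableSet,
      Set.inter_eq_left.2 (hsub i), ball_volume_real]
  have hffI : ∀ i j, ∫ z, f i z * f j z ∂μ = b ^ 2 * J L (x i) (x j) := by
    intro i j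
    have hm : MeasurableSet (Metric.ball (x i) L ∩ Metric.ball (x j) L) :=
      Metric.isOpen_ball.measurableSet.inter Metric.isOpen_ball.measurableSet
    rw [hff i j, integral_indicator hm, setIntegral_const, smul_eq_mul, mul_one]
    rw [Measure.real, Measure.restrict_apply hm,
      Set.inter_eq_left.2 (Set.inter_subset_left.trans (hsub i))]
    unfold J
    rw [← hb]
    field_simp
  have hint1 : Integrable (fun z => ∑ i, ∑ j, f i z * f j z) μ :=
    integrable_finsetSum _ fun i _ => integrable_finsetSum _ fun j _ => hffint i j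
  have hint2 : Integrable (fun z => ∑ i, f i z) μ :=
    integrable_finsetSum _ fun i _ => hfint i
  have hpos : 0 ≤ ∫ z, (∑ i, f i z - m * b) ^ 2 ∂μ := integral_nonneg fun z => sq_nonneg _
  have hexp : ∀ z, (∑ i, f i z - m * b) ^ 2 =
      (∑ i, ∑ j, f i z * f j z) - (2 * m * b) * (∑ i, f i z) + (m * b) ^ 2 := by
    intro z
    have : (∑ i, f i z) * (∑ i, f i z) = ∑ i, ∑ j, f i z * f j z := Finset.sum_mul_sum _ _ _ _
    rw [← this]
    ring
  simp only [hexp] at hpos
  have e1 : ∫ z, ((∑ i, ∑ j, f i z * f j z) - (2 * m * b) * (∑ i, f i z) + (m * b) ^ 2) ∂μ =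
      (∫ z, (∑ i, ∑ j, f i z * f j z) ∂μ) - (2 * m * b) * (∫ z, ∑ i, f i z ∂μ)
        + (m * b) ^ 2 * μ.real univ := by
    have h1 : Integrable (fun z => (∑ i, ∑ j, f i z * f j z) - (2 * m * b) * (∑ i, f i z)) μ :=
      hint1.sub (hint2.const_mul _)
    rw [integral_add h1 (integrable_const _), integral_sub hint1 (hint2.const_mul _),
      integral_const_mul, integral_const, smul_eq_mul, mul_comm (μ.real univ)]
  rw [e1, integral_finsetSum _ (fun i _ => integrable_finsetSum _ fun j _ => hffint i j),
    integral_finsetSum _ (fun i _ => hfint i)] at hpos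
  have h1 : ∀ i, ∫ z, ∑ j, f i z * f j z ∂μ = ∑ j, b ^ 2 * J L (x i) (x j) := by
    intro i
    rw [integral_finsetSum _ (fun j _ => hffint i j)]
    exact Finset.sum_congr rfl fun j _ => hffI i j
  simp only [h1, hfI, Finset.sum_const, Finset.card_univ, Fintype.card_fin,
    nsmul_eq_mul] at hpos
  have h2 : μ.real univ = (ℓ + 2 * L) ^ 3 := by
    rw [Measure.real, Measure.restrict_apply_univ, hDr]
  rw [h2] at hpos
  have h3 : ∑ i, ∑ j, b ^ 2 * J L (x i) (x j) = b ^ 2 * dsum (J L) x := by
    unfold dsum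
    rw [Finset.mul_sum]
    exact Finset.sum_congr rfl fun i _ => by rw [Finset.mul_sum]
  rw [h3] at hpos
  have h4 : 0 ≤ b ^ 2 * (dsum (J L) x - (2 * m * N - m ^ 2 * (ℓ + 2 * L) ^ 3)) := by
    nlinarith [hpos]
  have h5 : 0 < b ^ 2 := by positivity
  have h6 := nonneg_of_mul_nonneg_right h4 h5
  linarith

theorem measurable_cell (s : Fin 3 → ℝ) (l : ℝ) : Measurable (cell s l) := by
  unfold cell
  refine measurable_pi_iff.2 fun i => ?_
  exact Int.measurable_floor.comp (by fun_prop)

theorem measurableSet_cell (s : Fin 3 → ℝ) (l : ℝ) (k : Fin 3 → ℤ) :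
    MeasurableSet {x : E | cell s l x = k} :=
  measurable_cell s l (measurableSet_singleton k)

theorem measurable_same (s : Fin 3 → ℝ) (l : ℝ) : Measurable (Function.uncurry (same s l)) := by
  classical
  have h1 : MeasurableSet {p : E × E | cell s l p.1 = cell s l p.2} := by
    have : {p : E × E | cell s l p.1 = cell s l p.2} =
        ⋃ k : Fin 3 → ℤ, ({x : E | cell s l x = k} ×ˢ {x : E | cell s l x = k}) := by
      ext p
      simp [eq_comm]
    rw [this]
    exact MeasurableSet.iUnion fun k => (measurableSet_cell s l k).prod (measurableSet_cell s l k)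
  have h : Function.uncurry (same s l) =
      ({p : E × E | cell s l p.1 = cell s l p.2}).indicator 1 := by
    ext p
    simp only [Function.uncurry, same, Set.indicator_apply, Set.mem_ofPred_eq, Pi.one_apply]
  rw [h]
  exact Measurable.indicator measurable_one h1

theorem dist_lt_of_cell (s : Fin 3 → ℝ) {l : ℝ} (hl : 0 < l) {x y : E}
    (h : cell s l x = cell s l y) : dist x y < Real.sqrt 3 * l := by
  have h1 : ∀ i, |x i - y i| < l := by
    intro i
    have h2 := Int.abs_sub_lt_one_of_floor_eq_floor (congrFun h i)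
    have h3 : (x i - s i) / l - (y i - s i) / l = (x i - y i) / l := by ring
    rw [h3, abs_div, abs_of_pos hl, div_lt_one hl] at h2
    exact h2
  rw [EuclideanSpace.dist_eq]
  have h4 : ∑ i, dist (x i) (y i) ^ 2 < 3 * l ^ 2 := by
    rw [Fin.sum_univ_three]
    have h5 : ∀ i, dist (x i) (y i) ^ 2 < l ^ 2 := by
      intro i
      rw [Real.dist_eq]
      exact pow_lt_pow_left₀ (h1 i) (abs_nonneg _) (by norm_num)
    linarith [h5 0, h5 1, h5 2]
  calc Real.sqrt (∑ i, dist (x i) (y i) ^ 2) < Real.sqrt (3 * l ^ 2) :=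
        Real.sqrt_lt_sqrt (Finset.sum_nonneg fun _ _ => sq_nonneg _) h4
    _ = Real.sqrt 3 * l := by
        rw [Real.sqrt_mul (by norm_num), Real.sqrt_sq hl.le]

theorem volume_cell (s : Fin 3 → ℝ) {l : ℝ} (hl : 0 < l) (k : Fin 3 → ℤ) :
    volume {x : E | cell s l x = k} = ENNReal.ofReal (l ^ 3) := by
  have h1 : {x : E | cell s l x = k} =
      {x : E | ∀ i, x i ∈ Set.Ico (s i + l * k i) (s i + l * (k i + 1))} := by
    ext x
    simp only [Set.mem_ofPred_eq, cell, funext_iff, Int.floor_eq_iff, Set.mem_Ico]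
    refine forall_congr' fun i => ?_
    rw [le_div_iff₀ hl, div_lt_iff₀ hl]
    constructor
    · rintro ⟨h2, h3⟩
      exact ⟨by linarith, by linarith⟩
    · rintro ⟨h2, h3⟩
      exact ⟨by linarith, by linarith⟩
  rw [h1, volume_prodset _ fun _ => measurableSet_Ico]
  simp only [Real.volume_Ico]
  have h2 : ∀ i, s i + l * ((k i : ℝ) + 1) - (s i + l * k i) = l := fun i => by ring
  simp only [h2, Finset.prod_const, Finset.card_univ, Fintype.card_fin]
  rw [ENNReal.ofReal_pow hl.le]

/-- (B4) same small cell implies near -/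
theorem same_half_le_near (s : Fin 3 → ℝ) (x y : E) : same s (1 / 2) x y ≤ near x y := by
  unfold same near
  split_ifs with h1 h2 h2
  · exact le_rfl
  · exfalso
    apply h2
    have h3 := dist_lt_of_cell s (by norm_num : (0 : ℝ) < 1 / 2) h1
    have h4 : Real.sqrt 3 < 2 := by
      rw [Real.sqrt_lt' (by norm_num)]; norm_num
    linarith
  · exact zero_le_one
  · exact le_rfl

theorem volume_ball_ratio {L L' : ℝ} (hL : 0 < L) (hL' : 0 ≤ L') (z : E) :
    (volume (Metric.ball z L')).toReal =
      (L' / L) ^ 3 * (volume (Metric.ball (0 : E) L)).toReal := by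
  have h3 : Module.finrank ℝ E = 3 := by simp
  rw [Measure.addHaar_ball volume z hL', Measure.addHaar_ball volume 0 hL.le, h3]
  rw [ENNReal.toReal_mul, ENNReal.toReal_mul, ENNReal.toReal_ofReal (by positivity),
    ENNReal.toReal_ofReal (by positivity)]
  field_simp

/-- the number of occupied cells seen from z is bounded -/
theorem card_cells_le (L : ℝ) (s : Fin 3 → ℝ) (l : ℝ) (hl : 0 < l) (z : E)
    (T : Finset (Fin 3 → ℤ)) (hT : ∀ c ∈ T, ∃ y : E, cell s l y = c ∧ dist y z < L) :
    (T.card : ℝ) * l ^ 3 ≤ (volume (Metric.ball z (L + Real.sqrt 3 * l))).toReal := by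
  have hsub : (⋃ c ∈ T, {x : E | cell s l x = c}) ⊆ Metric.ball z (L + Real.sqrt 3 * l) := by
    intro w hw
    simp only [Set.mem_iUnion, exists_prop] at hw
    obtain ⟨c, hc, hwc⟩ := hw
    obtain ⟨y, hy, hyz⟩ := hT c hc
    have h1 : dist w y < Real.sqrt 3 * l := dist_lt_of_cell s hl (by
      have : cell s l w = c := hwc
      rw [this, hy])
    have h2 := dist_triangle w y z
    rw [Metric.mem_ball]
    linarith
  have hdisj : (T : Set (Fin 3 → ℤ)).PairwiseDisjoint fun c => {x : E | cell s l x = c} := by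
    intro c _ c' _ hcc'
    rw [Function.onFun, Set.disjoint_left]
    intro w hw hw'
    exact hcc' ((show cell s l w = c from hw).symm.trans hw')
  have h1 := measure_biUnion_finset (μ := (volume : Measure E)) hdisj
    (fun c _ => measurableSet_cell s l c)
  have h2 : volume (⋃ c ∈ T, {x : E | cell s l x = c}) = ENNReal.ofReal (T.card * l ^ 3) := by
    rw [h1, Finset.sum_congr rfl fun c _ => volume_cell s hl c, Finset.sum_const, nsmul_eq_mul,
      ENNReal.ofReal_mul (by positivity), ENNReal.ofReal_natCast]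
  have h3 := measure_mono (μ := (volume : Measure E)) hsub
  rw [h2] at h3
  have h4 := ENNReal.toReal_mono measure_ball_lt_top.ne h3
  rwa [ENNReal.toReal_ofReal (by positivity)] at h4

/-- pointwise Cauchy-Schwarz over cells -/
theorem sq_sum_le_same (L : ℝ) (s : Fin 3 → ℝ) (l : ℝ) (hl : 0 < l) (N : ℕ)
    (x : Fin N → E) (z : E) (f : Fin N → ℝ)
    (hf : ∀ i, f i = (Metric.ball (x i) L).indicator (fun _ => (1 : ℝ)) z) :
    (∑ i, f i) ^ 2 ≤ (volume (Metric.ball z (L + Real.sqrt 3 * l))).toReal / l ^ 3 *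
      ∑ i, ∑ j, same s l (x i) (x j) * (f i * f j) := by
  classical
  have hf0 : ∀ i, 0 ≤ f i := fun i => by
    rw [hf]; exact Set.indicator_nonneg (fun _ _ => zero_le_one) _
  let T : Finset (Fin 3 → ℤ) :=
    (Finset.univ.filter fun i => f i ≠ 0).image fun i => cell s l (x i)
  have hTmem : ∀ i, f i ≠ 0 → cell s l (x i) ∈ T := fun i hi =>
    Finset.mem_image.2 ⟨i, by simp [hi], rfl⟩
  have hcard : (T.card : ℝ) ≤ (volume (Metric.ball z (L + Real.sqrt 3 * l))).toReal / l ^ 3 := by
    rw [le_div_iff₀ (by positivity)]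
    apply card_cells_le L s l hl z T
    intro c hc
    obtain ⟨i, hi, rfl⟩ := Finset.mem_image.1 hc
    refine ⟨x i, rfl, ?_⟩
    rw [Finset.mem_filter] at hi
    have h1 := hi.2
    rw [hf i, ne_eq, Set.indicator_apply_eq_zero] at h1
    push Not at h1
    have h2 := h1.1
    rw [Metric.mem_ball, dist_comm] at h2
    exact h2
  let Nc : (Fin 3 → ℤ) → ℝ := fun c => ∑ i, if cell s l (x i) = c then f i else 0
  have hS : ∑ i, f i = ∑ c ∈ T, Nc c := by
    simp only [Nc]
    rw [Finset.sum_comm]
    refine Finset.sum_congr rfl fun i _ => ?_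
    rw [Finset.sum_ite_eq]
    by_cases hi : f i = 0
    · simp [hi]
    · rw [if_pos (hTmem i hi)]
  have hCS : (∑ c ∈ T, Nc c) ^ 2 ≤ T.card * ∑ c ∈ T, Nc c ^ 2 := sq_sum_le_card_mul_sum_sq
  have hsum : ∑ c ∈ T, Nc c ^ 2 ≤ ∑ i, ∑ j, same s l (x i) (x j) * (f i * f j) := by
    have h1 : ∀ c, Nc c ^ 2 = ∑ i, ∑ j, (if cell s l (x i) = c then f i else 0) *
        (if cell s l (x j) = c then f j else 0) := by
      intro c
      rw [sq]
      exact Finset.sum_mul_sum _ _ _ _
    simp only [h1]
    rw [Finset.sum_comm]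
    refine Finset.sum_le_sum fun i _ => ?_
    rw [Finset.sum_comm]
    refine Finset.sum_le_sum fun j _ => ?_
    have h2 : ∀ c, (if cell s l (x i) = c then f i else 0) *
        (if cell s l (x j) = c then f j else 0) =
        if cell s l (x i) = c then same s l (x i) (x j) * (f i * f j) else 0 := by
      intro c
      unfold same
      by_cases h3 : cell s l (x i) = c
      · by_cases h4 : cell s l (x j) = c
        · simp [h3, h4]
        · have h5 : ¬ cell s l (x i) = cell s l (x j) := fun h6 => h4 (h6 ▸ h3)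
          simp [h3, h4]
          intro h6
          exact absurd h6.symm h4
      · simp [h3]
    simp only [h2]
    rw [Finset.sum_ite_eq]
    have h3 : 0 ≤ same s l (x i) (x j) * (f i * f j) := by
      apply mul_nonneg _ (mul_nonneg (hf0 i) (hf0 j))
      unfold same
      split_ifs <;> norm_num
    split_ifs
    · exact le_rfl
    · exact h3
  rw [hS]
  have hnn : 0 ≤ ∑ i, ∑ j, same s l (x i) (x j) * (f i * f j) := by
    refine Finset.sum_nonneg fun i _ => Finset.sum_nonneg fun j _ => ?_
    apply mul_nonneg _ (mul_nonneg (hf0 i) (hf0 j))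
    unfold same
    split_ifs <;> norm_num
  calc (∑ c ∈ T, Nc c) ^ 2 ≤ T.card * ∑ c ∈ T, Nc c ^ 2 := hCS
    _ ≤ T.card * ∑ i, ∑ j, same s l (x i) (x j) * (f i * f j) :=
        mul_le_mul_of_nonneg_left hsum (Nat.cast_nonneg _)
    _ ≤ _ := mul_le_mul_of_nonneg_right hcard hnn

theorem same_nonneg_g (s : Fin 3 → ℝ) (l : ℝ) (x y : E) : 0 ≤ same s l x y := by
  unfold same
  split_ifs <;> norm_num

/-- (B3') comparison with block occupation numbers, better exponent -/
theorem J_upper' (L : ℝ) (hL : 0 < L) (s : Fin 3 → ℝ) (l : ℝ) (hl : 0 < l) (N : ℕ)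
    (x : Fin N → E) :
    dsum (J L) x ≤ (1 + Real.sqrt 3 * l / L) ^ 3 * (l ^ 3)⁻¹ * dsum (same s l) x := by
  classical
  set b := (volume (Metric.ball (0 : E) L)).toReal with hb
  have hb0 : 0 < b := ball_volume_pos hL
  let f : Fin N → E → ℝ := fun i => (Metric.ball (x i) L).indicator (fun _ => 1)
  have hm : ∀ i j, MeasurableSet (Metric.ball (x i) L ∩ Metric.ball (x j) L) := fun i j =>
    Metric.isOpen_ball.measurableSet.inter Metric.isOpen_ball.measurableSet
  have hfin : ∀ i j, volume (Metric.ball (x i) L ∩ Metric.ball (x j) L) ≠ ∞ := fun i j =>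
    (lt_of_le_of_lt (measure_mono Set.inter_subset_left) measure_ball_lt_top).ne
  have hff : ∀ i j, (fun z => f i z * f j z) =
      (Metric.ball (x i) L ∩ Metric.ball (x j) L).indicator (fun _ => (1 : ℝ)) := by
    intro i j
    funext z
    simp only [f, Set.indicator_apply, Set.mem_inter_iff]
    split_ifs <;> simp_all
  have hffint : ∀ i j, Integrable (fun z => f i z * f j z) volume := fun i j => by
    rw [hff]
    exact (integrable_indicator_iff (hm i j)).2 (integrableOn_const (hfin i j))
  have hffI : ∀ i j, ∫ z, f i z * f j z = b ^ 2 * J L (x i) (x j) := by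
    intro i j
    rw [hff i j, integral_indicator (hm i j), setIntegral_const, smul_eq_mul, mul_one]
    unfold J
    rw [← hb, Measure.real]
    field_simp
  have hJb : ∀ i j, b ^ 2 * J L (x i) (x j) ≤ b := by
    intro i j
    unfold J
    rw [← hb]
    have h1 : (volume (Metric.ball (x i) L ∩ Metric.ball (x j) L)).toReal ≤ b := by
      rw [hb, ← ball_volume_real (x i) L]
      exact ENNReal.toReal_mono measure_ball_lt_top.ne (measure_mono Set.inter_subset_left)
    have h2 : b ^ 2 * ((volume (Metric.ball (x i) L ∩ Metric.ball (x j) L)).toReal / b ^ 2) =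
        (volume (Metric.ball (x i) L ∩ Metric.ball (x j) L)).toReal := by
      field_simp
    rw [h2]
    exact h1
  set r := 1 + Real.sqrt 3 * l / L with hr
  have hr0 : 0 ≤ r := by positivity
  have hvol : ∀ z : E, (volume (Metric.ball z (L + Real.sqrt 3 * l))).toReal = r ^ 3 * b := by
    intro z
    rw [volume_ball_ratio hL (by positivity) z]
    have : (L + Real.sqrt 3 * l) / L = r := by
      rw [hr]; field_simp
    rw [this]
  have hpt : ∀ z, ∑ i, ∑ j, f i z * f j z ≤
      (r ^ 3 * b / l ^ 3) * ∑ i, ∑ j, same s l (x i) (x j) * (f i z * f j z) := by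
    intro z
    have h1 := sq_sum_le_same L s l hl N x z (fun i => f i z) (fun i => rfl)
    rw [hvol] at h1
    have h2 : (∑ i, f i z) ^ 2 = ∑ i, ∑ j, f i z * f j z := by
      rw [sq]
      exact Finset.sum_mul_sum _ _ _ _
    rw [← h2]
    exact h1
  have hI1 : Integrable (fun z => ∑ i, ∑ j, f i z * f j z) volume :=
    integrable_finsetSum _ fun i _ => integrable_finsetSum _ fun j _ => hffint i j
  have hI2 : Integrable (fun z => ∑ i, ∑ j, same s l (x i) (x j) * (f i z * f j z)) volume :=
    integrable_finsetSum _ fun i _ => integrable_finsetSum _ fun j _ => (hffint i j).const_mul _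
  have hint := integral_mono hI1 (hI2.const_mul (r ^ 3 * b / l ^ 3)) hpt
  rw [integral_const_mul] at hint
  have e1 : ∫ z, ∑ i, ∑ j, f i z * f j z = b ^ 2 * dsum (J L) x := by
    rw [integral_finsetSum _ (fun i _ => integrable_finsetSum _ fun j _ => hffint i j)]
    unfold dsum
    rw [Finset.mul_sum]
    refine Finset.sum_congr rfl fun i _ => ?_
    rw [integral_finsetSum _ (fun j _ => hffint i j), Finset.mul_sum]
    exact Finset.sum_congr rfl fun j _ => hffI i j
  have e2 : ∫ z, ∑ i, ∑ j, same s l (x i) (x j) * (f i z * f j z) ≤ b * dsum (same s l) x := by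
    rw [integral_finsetSum _ (fun i _ => integrable_finsetSum _ fun j _ =>
      (hffint i j).const_mul _)]
    unfold dsum
    rw [Finset.mul_sum]
    refine Finset.sum_le_sum fun i _ => ?_
    rw [integral_finsetSum _ (fun j _ => (hffint i j).const_mul _), Finset.mul_sum]
    refine Finset.sum_le_sum fun j _ => ?_
    rw [integral_const_mul, hffI, mul_comm b]
    exact mul_le_mul_of_nonneg_left (hJb i j) (same_nonneg_g _ _ _ _)
  rw [e1] at hint
  have h3 : b ^ 2 * dsum (J L) x ≤ (r ^ 3 * b / l ^ 3) * (b * dsum (same s l) x) :=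
    hint.trans (mul_le_mul_of_nonneg_left e2 (by positivity))
  have h4 : (r ^ 3 * b / l ^ 3) * (b * dsum (same s l) x) =
      b ^ 2 * (r ^ 3 * (l ^ 3)⁻¹ * dsum (same s l) x) := by
    field_simp
  rw [h4] at h3
  exact le_of_mul_le_mul_left h3 (by positivity)

theorem dsum_nonneg_g {X : Type*} {v : X → X → ℝ} (hv : ∀ x y, 0 ≤ v x y) {ι : Type*} [Fintype ι]
    (x : ι → X) : 0 ≤ dsum v x :=
  Finset.sum_nonneg fun _ _ => Finset.sum_nonneg fun _ _ => hv _ _

theorem dsum_mono_g {X : Type*} {v w : X → X → ℝ} (hv : ∀ x y, v x y ≤ w x y) {ι : Type*}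
    [Fintype ι] (x : ι → X) : dsum v x ≤ dsum w x :=
  Finset.sum_le_sum fun _ _ => Finset.sum_le_sum fun _ _ => hv _ _

/-- (B3) comparison with block occupation numbers -/
theorem J_upper (L : ℝ) (hL : 0 < L) (s : Fin 3 → ℝ) (l : ℝ) (hl : 0 < l) (N : ℕ)
    (x : Fin N → E) :
    dsum (J L) x ≤ (1 + Real.sqrt 3 * l / L) ^ 6 * (l ^ 3)⁻¹ * dsum (same s l) x := by
  refine (J_upper' L hL s l hl N x).trans ?_
  apply mul_le_mul_of_nonneg_right _ (dsum_nonneg_g (same_nonneg_g s l) x)
  apply mul_le_mul_of_nonneg_right _ (by positivity)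
  have : 1 ≤ 1 + Real.sqrt 3 * l / L := by
    have : 0 ≤ Real.sqrt 3 * l / L := by positivity
    linarith
  exact pow_le_pow_right₀ this (by norm_num)

/-- (B5) for L ≥ 1 the kernel J L is admissible with C = 512 -/
theorem J_good (L : ℝ) (hL : 1 ≤ L) : Good (2 * L) 512 (J L) where
  meas := measurable_J L
  nonneg := J_nonneg L
  symm x y := by
    unfold J
    rw [Set.inter_comm]
  trans a x y := J_eq_of_dist L _ _ _ _ (by rw [dist_add_right])
  range := J_range L
  bound N x := by
    have hL0 : 0 < L := by linarith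
    have h1 := J_upper' L hL0 0 (1 / 2) (by norm_num) N x
    have h2 : dsum (same 0 (1 / 2)) x ≤ dsum near x := dsum_mono_g (same_half_le_near 0) x
    have h3 : (1 + Real.sqrt 3 * (1 / 2) / L) ^ 3 * ((1 / 2 : ℝ) ^ 3)⁻¹ ≤ 512 := by
      have h4 : Real.sqrt 3 ≤ 2 := by
        rw [Real.sqrt_le_left (by norm_num)]; norm_num
      have h5 : Real.sqrt 3 * (1 / 2) / L ≤ 1 := by
        rw [div_le_one hL0]; linarith
      have h6 : 1 + Real.sqrt 3 * (1 / 2) / L ≤ 2 := by linarith
      have h7 : (1 + Real.sqrt 3 * (1 / 2) / L) ^ 3 ≤ 2 ^ 3 :=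
        pow_le_pow_left₀ (by positivity) h6 3
      norm_num at h7 ⊢
      linarith
    have h8 : 0 ≤ dsum near x := dsum_nonneg_g (fun a c => by unfold near; split_ifs <;> norm_num) x
    calc dsum (J L) x ≤ _ := h1
      _ ≤ ((1 + Real.sqrt 3 * (1 / 2) / L) ^ 3 * ((1 / 2 : ℝ) ^ 3)⁻¹) * dsum near x :=
          mul_le_mul_of_nonneg_left h2 (by positivity)
      _ ≤ 512 * dsum near x := mul_le_mul_of_nonneg_right h3 h8

end Vale.Agent.P171
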