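import Vale.Agent.P171.Geom

/-!
Geometry of the grid cells, second file.
-/

namespace Vale.Agent.P171

open MeasureTheory Set Filter Topology
open scoped ENNReal NNReal BigOperators

private theorem same_nn (s : Fin 3 → ℝ) (l : ℝ) (x y : E) : 0 ≤ same s l x y := by
  unfold same
  split_ifs <;> norm_num

private theorem card_sq_le {N : ℕ} (s : Fin 3 → ℝ) (l : ℝ) (x : Fin N → E)
    (T : Finset (Fin 3 → ℤ)) (hT : ∀ i, cell s l (x i) ∈ T) :
    (N : ℝ) ^ 2 ≤ T.card * dsum (same s l) x := by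
  classical
  let Nc : (Fin 3 → ℤ) → ℝ := fun c => ∑ i, if cell s l (x i) = c then (1 : ℝ) else 0
  have hS : (N : ℝ) = ∑ c ∈ T, Nc c := by
    simp only [Nc]
    rw [Finset.sum_comm]
    have : ∀ i ∈ (Finset.univ : Finset (Fin N)),
        (∑ c ∈ T, if cell s l (x i) = c then (1 : ℝ) else 0) = 1 := by
      intro i _
      rw [Finset.sum_ite_eq, if_pos (hT i)]
    rw [Finset.sum_congr rfl this]
    simp
  have hCS : (∑ c ∈ T, Nc c) ^ 2 ≤ T.card * ∑ c ∈ T, Nc c ^ 2 := sq_sum_le_card_mul_sum_sq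
  have hsum : ∑ c ∈ T, Nc c ^ 2 ≤ dsum (same s l) x := by
    have h1 : ∀ c, Nc c ^ 2 = ∑ i, ∑ j, (if cell s l (x i) = c then (1 : ℝ) else 0) *
        (if cell s l (x j) = c then (1 : ℝ) else 0) := by
      intro c
      rw [sq]
      exact Finset.sum_mul_sum _ _ _ _
    simp only [h1]
    rw [Finset.sum_comm]
    refine Finset.sum_le_sum fun i _ => ?_
    rw [Finset.sum_comm]
    refine Finset.sum_le_sum fun j _ => ?_
    have h2 : ∀ c, (if cell s l (x i) = c then (1 : ℝ) else 0) *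
        (if cell s l (x j) = c then (1 : ℝ) else 0) =
        if cell s l (x i) = c then same s l (x i) (x j) else 0 := by
      intro c
      unfold same
      by_cases h3 : cell s l (x i) = c
      · by_cases h4 : cell s l (x j) = c
        · simp [h3, h4]
        · simp [h3, h4]
          intro h6
          exact absurd h6.symm h4
      · simp [h3]
    simp only [h2]
    rw [Finset.sum_ite_eq, if_pos (hT i)]
  rw [hS]
  exact hCS.trans (mul_le_mul_of_nonneg_left hsum (Nat.cast_nonneg _))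

/-- (B6) superstability of the near kernel in a box: Cauchy-Schwarz on half cells -/
theorem near_super (ℓ : ℝ) (hℓ : 1 ≤ ℓ) (N : ℕ) (x : Fin N → E) (hx : ∀ i, x i ∈ box ℓ) :
    (N : ℝ) ^ 2 / (27 * ℓ ^ 3) ≤ dsum near x := by
  classical
  let n : ℕ := ⌊2 * ℓ⌋₊ + 1
  let T : Finset (Fin 3 → ℤ) := Fintype.piFinset fun _ => (Finset.range n).image (fun k : ℕ => (k : ℤ))
  have hT : ∀ i, cell 0 (1 / 2) (x i) ∈ T := by
    intro i
    rw [Fintype.mem_piFinset]
    intro k
    rw [Finset.mem_image]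
    have h1 := hx i k
    have h2 : cell 0 (1 / 2) (x i) k = ⌊2 * x i k⌋ := by
      unfold cell
      congr 1
      simp
      ring
    refine ⟨⌊2 * x i k⌋₊, ?_, ?_⟩
    · rw [Finset.mem_range]
      have h3 : ⌊2 * x i k⌋₊ ≤ ⌊2 * ℓ⌋₊ := Nat.floor_mono (by linarith [h1.2])
      omega
    · rw [h2]
      exact Int.natCast_floor_eq_floor (by linarith [h1.1])
  have hcard : (T.card : ℝ) ≤ 27 * ℓ ^ 3 := by
    have h1 : T.card = n ^ 3 := by
      rw [Fintype.card_piFinset]
      simp [Finset.card_image_of_injective _ Nat.cast_injective]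
    rw [h1]
    have h2 : (n : ℝ) ≤ 3 * ℓ := by
      have h3 : ((⌊2 * ℓ⌋₊ : ℕ) : ℝ) ≤ 2 * ℓ := Nat.floor_le (by linarith)
      push_cast [n]
      linarith
    push_cast
    calc (n : ℝ) ^ 3 ≤ (3 * ℓ) ^ 3 := pow_le_pow_left₀ (Nat.cast_nonneg _) h2 3
      _ = 27 * ℓ ^ 3 := by ring
  have h1 := card_sq_le 0 (1 / 2) x T hT
  have h2 : dsum (same 0 (1 / 2)) x ≤ dsum near x :=
    Finset.sum_le_sum fun _ _ => Finset.sum_le_sum fun _ _ => same_half_le_near 0 _ _
  have h0 : 0 ≤ dsum near x := Finset.sum_nonneg fun _ _ => Finset.sum_nonneg fun _ _ => by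
    unfold near; split_ifs <;> norm_num
  rw [div_le_iff₀ (by positivity)]
  calc (N : ℝ) ^ 2 ≤ T.card * dsum (same 0 (1 / 2)) x := h1
    _ ≤ T.card * dsum near x := mul_le_mul_of_nonneg_left h2 (Nat.cast_nonneg _)
    _ ≤ (27 * ℓ ^ 3) * dsum near x := mul_le_mul_of_nonneg_right hcard h0
    _ = dsum near x * (27 * ℓ ^ 3) := mul_comm _ _

/-- (B6') trivial bound from the diagonal -/
theorem near_diag (N : ℕ) (x : Fin N → E) : (N : ℝ) ≤ dsum near x := by
  unfold dsum
  have h1 : ∀ i : Fin N, (1 : ℝ) ≤ ∑ j, near (x i) (x j) := by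
    intro i
    have h2 : near (x i) (x i) ≤ ∑ j, near (x i) (x j) :=
      Finset.single_le_sum (f := fun j => near (x i) (x j))
        (fun j _ => by unfold near; split_ifs <;> norm_num) (Finset.mem_univ i)
    have h3 : near (x i) (x i) = 1 := by
      unfold near; simp
    linarith
  calc (N : ℝ) = ∑ _i : Fin N, (1 : ℝ) := by simp
    _ ≤ _ := Finset.sum_le_sum fun i _ => h1 i

/-- one coordinate: at most one shift separates two points at distance less than R -/
private theorem shift_unique {R : ℝ} (hR : 0 < R) {M : ℕ} (hM : 0 < M) {a b : ℝ}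
    (hab : |a - b| < R) (σ τ : Fin M)
    (hσ : ⌊(a - σ * R) / (M * R)⌋ ≠ ⌊(b - σ * R) / (M * R)⌋)
    (hτ : ⌊(a - τ * R) / (M * R)⌋ ≠ ⌊(b - τ * R) / (M * R)⌋) : σ = τ := by
  have key : ∀ (c : ℝ) (k : Fin M), ⌊(c - k * R) / (M * R)⌋ = (⌊c / R⌋ - (k : ℕ)) / (M : ℤ) := by
    intro c k
    have h1 : (c - k * R) / (M * R) = (c / R - ((k : ℕ) : ℤ)) / (M : ℕ) := by
      push_cast
      field_simp
    rw [h1, Int.floor_div_natCast, Int.floor_sub_intCast]
  rw [key, key] at hσ hτ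
  have hab' : |a / R - b / R| < 1 := by
    rw [← sub_div, abs_div, abs_of_pos hR, div_lt_one hR]
    exact hab
  have hfl : |⌊a / R⌋ - ⌊b / R⌋| ≤ 1 := by
    have h1 := abs_lt.1 hab'
    have h2 := Int.floor_le (a / R)
    have h3 := Int.lt_floor_add_one (a / R)
    have h4 := Int.floor_le (b / R)
    have h5 := Int.lt_floor_add_one (b / R)
    rw [abs_le]
    constructor
    · have : ((⌊b / R⌋ : ℤ) : ℝ) < ⌊a / R⌋ + 1 + 1 := by linarith
      have h6 : ⌊b / R⌋ < ⌊a / R⌋ + 1 + 1 := by exact_mod_cast this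
      omega
    · have : ((⌊a / R⌋ : ℤ) : ℝ) < ⌊b / R⌋ + 1 + 1 := by linarith
      have h6 : ⌊a / R⌋ < ⌊b / R⌋ + 1 + 1 := by exact_mod_cast this
      omega
  -- a general statement for integers
  have gen : ∀ (A : ℤ) (k : Fin M), (A - (k : ℕ)) / (M : ℤ) ≠ (A + 1 - (k : ℕ)) / (M : ℤ) →
      (M : ℤ) ∣ A + 1 - (k : ℕ) := by
    intro A k h
    by_contra hnd
    apply h
    have h1 : A + 1 - ((k : ℕ) : ℤ) = (A - ((k : ℕ) : ℤ)) + 1 := by ring
    rw [h1] at hnd ⊢
    have hMpos : (0 : ℤ) < M := by exact_mod_cast hM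
    have h2 := Int.emod_add_mul_ediv (A - ((k : ℕ) : ℤ)) M
    have h3 := Int.emod_nonneg (A - ((k : ℕ) : ℤ)) hMpos.ne'
    have h4 := Int.emod_lt_of_pos (A - ((k : ℕ) : ℤ)) hMpos
    set q := (A - ((k : ℕ) : ℤ)) / M with hq
    set r := (A - ((k : ℕ) : ℤ)) % M with hr
    have h5 : r + 1 ≠ M := by
      intro h6
      apply hnd
      refine ⟨q + 1, ?_⟩
      rw [← h2, mul_add, mul_one]
      omega
    have h7 : (A - ((k : ℕ) : ℤ) + 1) / M = q := by
      rw [← h2]
      have h8 : r + M * q + 1 = (r + 1) + M * q := by ring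
      rw [h8, Int.add_mul_ediv_left _ _ hMpos.ne', Int.ediv_eq_zero_of_lt (by omega) (by omega)]
      omega
    rw [h7]
  have fin : ∀ (A : ℤ) (σ τ : Fin M), (M : ℤ) ∣ A + 1 - (σ : ℕ) → (M : ℤ) ∣ A + 1 - (τ : ℕ) →
      σ = τ := by
    intro A σ τ h1 h2
    have h3 : (M : ℤ) ∣ ((σ : ℕ) : ℤ) - ((τ : ℕ) : ℤ) := by
      have := dvd_sub h2 h1
      have e : A + 1 - ((τ : ℕ) : ℤ) - (A + 1 - ((σ : ℕ) : ℤ)) = ((σ : ℕ) : ℤ) - ((τ : ℕ) : ℤ) := by
        ring
      rwa [e] at this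
    have h4 : |((σ : ℕ) : ℤ) - ((τ : ℕ) : ℤ)| < M := by
      have := σ.2
      have := τ.2
      rw [abs_lt]
      constructor <;> omega
    have h5 := Int.eq_zero_of_abs_lt_dvd h3 h4
    apply Fin.ext
    omega
  rcases abs_le.1 hfl with ⟨h1, h2⟩
  have hne : ⌊a / R⌋ ≠ ⌊b / R⌋ := fun h => hσ (by rw [h])
  rcases lt_or_gt_of_ne hne with h | h
  · have hb : ⌊b / R⌋ = ⌊a / R⌋ + 1 := by omega
    rw [hb] at hσ hτ
    exact fin _ σ τ (gen _ σ hσ) (gen _ τ hτ)
  · have ha : ⌊a / R⌋ = ⌊b / R⌋ + 1 := by omega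
    rw [ha] at hσ hτ
    exact fin _ σ τ (gen _ σ hσ.symm) (gen _ τ hτ.symm)

private theorem coord_dist_le (x y : E) (i : Fin 3) : |x i - y i| ≤ dist x y := by
  rw [EuclideanSpace.dist_eq, ← Real.sqrt_sq_eq_abs]
  apply Real.sqrt_le_sqrt
  have := Finset.single_le_sum (f := fun k => dist (x k) (y k) ^ 2)
    (fun _ _ => sq_nonneg _) (Finset.mem_univ i)
  simpa [Real.dist_eq, sq_abs] using this

/-- counting the good shifts for a pair at distance less than R -/
private theorem sum_same_ge {R : ℝ} (hR : 0 < R) {M : ℕ} (hM : 0 < M) {x y : E}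
    (h : dist x y < R) :
    (M : ℝ) ^ 3 - 3 * (M : ℝ) ^ 2 ≤
      ∑ σ : Fin 3 → Fin M, same (fun i => (σ i : ℝ) * R) (M * R) x y := by
  classical
  let bad : Fin 3 → Finset (Fin M) := fun i => Finset.univ.filter fun σ : Fin M =>
    ⌊(x i - σ * R) / (M * R)⌋ ≠ ⌊(y i - σ * R) / (M * R)⌋
  have hbad : ∀ i, (bad i).card ≤ 1 := by
    intro i
    rw [Finset.card_le_one]
    intro σ hσ τ hτ
    rw [Finset.mem_filter] at hσ hτ
    exact shift_unique hR hM (lt_of_le_of_lt (coord_dist_le x y i) h) σ τ hσ.2 hτ.2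
  have hcount : ∀ i, ((Finset.univ.filter fun σ : Fin 3 → Fin M => σ i ∈ bad i).card : ℝ) ≤
      (M : ℝ) ^ 2 := by
    intro i
    have h1 : (Finset.univ.filter fun σ : Fin 3 → Fin M => σ i ∈ bad i) =
        Fintype.piFinset (Function.update (fun _ => Finset.univ) i (bad i)) := by
      ext σ
      simp only [Finset.mem_filter, Finset.mem_univ, true_and, Fintype.mem_piFinset]
      constructor
      · intro hσ j
        by_cases hj : j = i
        · subst hj; simpa using hσ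
        · simp [hj]
      · intro hσ
        simpa using hσ i
    rw [h1, Fintype.card_piFinset]
    have h2 : ∏ j, (Function.update (fun _ => (Finset.univ : Finset (Fin M))) i (bad i) j).card ≤
        M ^ 2 := by
      rw [Fin.prod_univ_three]
      have hb0 := Nat.mul_le_mul_right (M * M) (hbad 0)
      have hb1 := Nat.mul_le_mul_right (M * M) (hbad 1)
      have hb2 := Nat.mul_le_mul_right (M * M) (hbad 2)
      fin_cases i <;> simp [Function.update] <;> nlinarith [hb0, hb1, hb2]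
    exact_mod_cast h2
  have hpt : ∀ σ : Fin 3 → Fin M, (1 : ℝ) - ∑ i, (if σ i ∈ bad i then (1 : ℝ) else 0) ≤
      same (fun i => (σ i : ℝ) * R) (M * R) x y := by
    intro σ
    by_cases hσ : ∃ i, σ i ∈ bad i
    · obtain ⟨i, hi⟩ := hσ
      have h1 : (1 : ℝ) ≤ ∑ i, (if σ i ∈ bad i then (1 : ℝ) else 0) := by
        have h2 := Finset.single_le_sum (f := fun i => if σ i ∈ bad i then (1 : ℝ) else 0)
          (fun i _ => by split_ifs <;> norm_num) (Finset.mem_univ i)
        simp only [hi, if_true] at h2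
        exact h2
      have h3 := same_nn (fun i => (σ i : ℝ) * R) (M * R) x y
      linarith
    · push Not at hσ
      have h1 : cell (fun i => (σ i : ℝ) * R) (M * R) x = cell (fun i => (σ i : ℝ) * R) (M * R) y := by
        funext i
        have h2 := hσ i
        simp only [bad, Finset.mem_filter, Finset.mem_univ, true_and, not_not] at h2
        exact h2
      unfold same
      rw [if_pos h1]
      have h2 : 0 ≤ ∑ i, (if σ i ∈ bad i then (1 : ℝ) else 0) :=
        Finset.sum_nonneg fun i _ => by split_ifs <;> norm_num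
      linarith
  have hsum := Finset.sum_le_sum fun σ (_ : σ ∈ (Finset.univ : Finset (Fin 3 → Fin M))) => hpt σ
  refine le_trans ?_ hsum
  rw [Finset.sum_sub_distrib, Finset.sum_comm]
  have h1 : ∑ _σ : Fin 3 → Fin M, (1 : ℝ) = (M : ℝ) ^ 3 := by simp
  have h2 : ∀ i, ∑ σ : Fin 3 → Fin M, (if σ i ∈ bad i then (1 : ℝ) else 0) ≤ (M : ℝ) ^ 2 := by
    intro i
    rw [Finset.sum_boole]
    exact hcount i
  rw [h1, Fin.sum_univ_three]
  linarith [h2 0, h2 1, h2 2]

/-- (B7) finite averaging over shifts of the grid: K has range R, the cells have side M * R -/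
theorem exists_shift (R : ℝ) (hR : 0 < R) (K : E → E → ℝ) (hK0 : ∀ x y, 0 ≤ K x y)
    (hKR : ∀ x y, R ≤ dist x y → K x y = 0) (M : ℕ) (hM : 3 < M) (N : ℕ) (x : Fin N → E) :
    ∃ σ : Fin 3 → Fin M,
      (1 - 3 / (M : ℝ)) * dsum K x
        ≤ dsum (fun a b => K a b * same (fun i => (σ i : ℝ) * R) (M * R) a b) x := by
  classical
  have hM0 : 0 < M := by omega
  have hMr : (0 : ℝ) < M := by exact_mod_cast hM0
  have hne : (Finset.univ : Finset (Fin 3 → Fin M)).Nonempty := ⟨fun _ => ⟨0, hM0⟩, Finset.mem_univ _⟩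
  have hkey : ∑ _σ : Fin 3 → Fin M, (1 - 3 / (M : ℝ)) * dsum K x ≤
      ∑ σ : Fin 3 → Fin M, dsum (fun a b => K a b * same (fun i => (σ i : ℝ) * R) (M * R) a b) x := by
    have h1 : ∑ σ : Fin 3 → Fin M, dsum (fun a b => K a b * same (fun i => (σ i : ℝ) * R) (M * R) a b) x
        = ∑ i, ∑ j, K (x i) (x j) *
          ∑ σ : Fin 3 → Fin M, same (fun i => (σ i : ℝ) * R) (M * R) (x i) (x j) := by
      unfold dsum
      rw [Finset.sum_comm]
      refine Finset.sum_congr rfl fun i _ => ?_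
      rw [Finset.sum_comm]
      refine Finset.sum_congr rfl fun j _ => ?_
      rw [Finset.mul_sum]
    have h2 : ∑ _σ : Fin 3 → Fin M, (1 - 3 / (M : ℝ)) * dsum K x =
        ∑ i, ∑ j, K (x i) (x j) * ((M : ℝ) ^ 3 - 3 * (M : ℝ) ^ 2) := by
      rw [Finset.sum_const, nsmul_eq_mul]
      simp only [Finset.card_univ, Fintype.card_pi, Fintype.card_fin, Finset.prod_const]
      unfold dsum
      simp only [← Finset.sum_mul]
      push_cast
      field_simp
    rw [h1, h2]
    refine Finset.sum_le_sum fun i _ => Finset.sum_le_sum fun j _ => ?_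
    by_cases hd : dist (x i) (x j) < R
    · exact mul_le_mul_of_nonneg_left (sum_same_ge hR hM0 hd) (hK0 _ _)
    · rw [hKR _ _ (not_lt.1 hd)]
      simp
  obtain ⟨σ, _, hσ⟩ := Finset.exists_le_of_sum_le hne hkey
  exact ⟨σ, hσ⟩

/-- (B8) cells: the cell with index k of the grid (s,l) is a translate of [0,l)^3 -/
theorem cell_eq_translate (s : Fin 3 → ℝ) (l : ℝ) (hl : 0 < l) (k : Fin 3 → ℤ) :
    {x : E | cell s l x = k} =
      (fun x : E => x + (WithLp.toLp 2 (fun i => s i + l * (k i : ℝ)) : E)) ''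
        {x : E | ∀ i, x i ∈ Set.Ico (0 : ℝ) l} := by
  have h0 : ∀ x : E, cell s l x = k ↔ ∀ i, s i + l * k i ≤ x i ∧ x i < s i + l * (k i + 1) := by
    intro x
    simp only [cell, funext_iff, Int.floor_eq_iff]
    refine forall_congr' fun i => ?_
    rw [le_div_iff₀ hl, div_lt_iff₀ hl]
    constructor
    · rintro ⟨h2, h3⟩
      exact ⟨by linarith, by linarith⟩
    · rintro ⟨h2, h3⟩
      exact ⟨by linarith, by linarith⟩
  ext x
  simp only [Set.mem_ofPred_eq, Set.mem_image]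
  rw [h0]
  constructor
  · intro h
    refine ⟨x - (WithLp.toLp 2 (fun i => s i + l * (k i : ℝ)) : E), fun i => ?_, by simp⟩
    have h1 := h i
    constructor
    · simp; linarith [h1.1]
    · simp; linarith [h1.2]
  · rintro ⟨y, hy, rfl⟩ i
    have h1 := hy i
    constructor
    · simp; linarith [h1.1]
    · simp; linarith [h1.2]

/-- (B9) the box [0,ℓ]^3 is covered by at most (ℓ / l + 2)^3 cells, for shifts in [0,l) -/
theorem exists_cell_cover (s : Fin 3 → ℝ) (l : ℝ) (hl : 0 < l) (hs : ∀ i, 0 ≤ s i ∧ s i < l)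
    (ℓ : ℝ) (hℓ : 0 ≤ ℓ) :
    ∃ T : Finset (Fin 3 → ℤ), ((T.card : ℝ) ≤ (ℓ / l + 2) ^ 3) ∧
      ∀ x ∈ box ℓ, cell s l x ∈ T := by
  classical
  refine ⟨Fintype.piFinset fun _ => Finset.Icc (-1) ⌊ℓ / l⌋, ?_, ?_⟩
  · rw [Fintype.card_piFinset]
    simp only [Finset.prod_const, Finset.card_univ, Fintype.card_fin, Int.card_Icc]
    have h0 : 0 ≤ ⌊ℓ / l⌋ := Int.floor_nonneg.2 (by positivity)
    have h1 : (((⌊ℓ / l⌋ + 1 - -1).toNat : ℕ) : ℝ) ≤ ℓ / l + 2 := by
      have h2 : (((⌊ℓ / l⌋ + 1 - -1).toNat : ℕ) : ℤ) = ⌊ℓ / l⌋ + 2 := by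
        rw [Int.toNat_of_nonneg (by omega)]; ring
      have h3 : (((⌊ℓ / l⌋ + 1 - -1).toNat : ℕ) : ℝ) = (⌊ℓ / l⌋ : ℝ) + 2 := by
        exact_mod_cast h2
      rw [h3]
      linarith [Int.floor_le (ℓ / l)]
    push_cast
    exact pow_le_pow_left₀ (Nat.cast_nonneg _) h1 3
  · intro x hx
    rw [Fintype.mem_piFinset]
    intro i
    rw [Finset.mem_Icc]
    have h1 := hx i
    have h2 := hs i
    unfold cell
    constructor
    · rw [Int.le_floor, le_div_iff₀ hl]
      push_cast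
      linarith [h1.1, h2.2]
    · apply Int.floor_mono
      apply div_le_div_of_nonneg_right _ hl.le
      linarith [h1.2, h2.1]

end Vale.Agent.P171
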