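import Vale.Agent.P171.Recursion

/-!
The limiting kernel and the kink of its pressure.
-/

namespace Vale.Agent.P171

open MeasureTheory Set Filter Topology
open scoped ENNReal NNReal BigOperators

theorem J_le (L : ℝ) (hL : 1 ≤ L) (x y : E) : J L x y ≤ 512 := by
  refine (J_le_diag L x y).trans ?_
  have h1 := (J_good L hL).bound 1 (fun _ => (0 : E))
  simp only [dsum, Finset.univ_unique, Finset.sum_singleton, near, dist_self] at h1
  norm_num at h1
  exact h1

theorem Pre.weaken {C C' : ℝ} {K : E → E → ℝ} (hK : Pre C K) (h : C ≤ C') : Pre C' K := by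
  refine ⟨hK.meas, hK.nonneg, hK.symm, hK.trans, fun N x => (hK.bound N x).trans ?_⟩
  have : 0 ≤ dsum near x := le_trans (Nat.cast_nonneg N) (near_diag N x)
  exact mul_le_mul_of_nonneg_right h this

theorem summable_eps : Summable eps := by
  unfold eps
  exact (summable_geometric_of_lt_one (by norm_num) (by norm_num)).mul_left _

/-- the limiting kernel exists and its pressure has a kink -/
theorem exists_kernel : ∃ K : E → E → ℝ, Pre 8388608 K ∧
    (∀ x y x' y', dist x y = dist x' y' → K x y = K x' y') ∧ (∃ B, ∀ x y, K x y ≤ B) ∧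
    ∃ μ₀, ¬ DifferentiableAt ℝ (pr Acore K) μ₀ := by
  obtain ⟨Ls, μ, hL, hanti, hstage⟩ := exists_sequence
  have hJ0 : ∀ k x y, 0 ≤ eps k * J (Ls k) x y := fun k x y =>
    mul_nonneg (eps_pos k).le (J_nonneg _ _ _)
  have hJ1 : ∀ k x y, eps k * J (Ls k) x y ≤ eps k * 512 := fun k x y =>
    mul_le_mul_of_nonneg_left (J_le _ (hL k) x y) (eps_pos k).le
  have hsum : ∀ x y, Summable fun k => eps k * J (Ls k) x y := fun x y =>
    Summable.of_nonneg_of_le (fun k => hJ0 k x y) (fun k => hJ1 k x y)
      (summable_eps.mul_right 512)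
  set Kn : ℕ → E → E → ℝ := fun n x y => ∑ k ∈ Finset.range n, eps k * J (Ls k) x y with hKn
  set K : E → E → ℝ := fun x y => ∑' k, eps k * J (Ls k) x y with hK
  have hlim : ∀ x y, Tendsto (fun n => Kn n x y) atTop (𝓝 (K x y)) := fun x y =>
    (hsum x y).hasSum.tendsto_sum_nat
  have hmono : ∀ x y, Monotone fun n => Kn n x y := fun x y a b hab =>
    Finset.sum_le_sum_of_subset_of_nonneg (Finset.range_subset_range.2 hab)
      fun k _ _ => hJ0 k x y
  have hpre : ∀ n, Pre 8388608 (Kn n) := by
    intro n
    obtain ⟨⟨R, hR, hg⟩, _⟩ := hstage n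
    exact hg.pre.weaken (Cst_le n)
  have hpreK : Pre 8388608 K := by
    refine ⟨?_, ?_, ?_, ?_, ?_⟩
    · refine measurable_of_tendsto_metrizable (f := fun n => Function.uncurry (Kn n))
        (fun n => (hpre n).meas) ?_
      rw [tendsto_pi_nhds]
      intro p
      exact hlim p.1 p.2
    · exact fun x y => tsum_nonneg fun k => hJ0 k x y
    · exact fun x y => tendsto_nhds_unique (hlim x y)
        ((hlim y x).congr fun n => (hpre n).symm y x)
    · exact fun a x y => tendsto_nhds_unique (hlim (x + a) (y + a))
        ((hlim x y).congr fun n => ((hpre n).trans a x y).symm)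
    · intro N x
      have hd : Tendsto (fun n => dsum (Kn n) x) atTop (𝓝 (dsum K x)) := by
        unfold dsum
        exact tendsto_finsetSum _ fun i _ => tendsto_finsetSum _ fun j _ => hlim _ _
      exact le_of_tendsto hd (Eventually.of_forall fun n => (hpre n).bound N x)
  have hCA : (8388608 : ℝ) ≤ Acore := by unfold Acore; norm_num
  refine ⟨K, hpreK, ?_, ⟨∑' k, eps k * 512, fun x y => ?_⟩, ?_⟩
  · intro x y x' y' h
    rw [hK]
    simp only
    congr 1
    funext k
    rw [J_eq_of_dist _ x y x' y' h]
  · exact (hsum x y).tsum_le_tsum (fun k => hJ1 k x y) (summable_eps.mul_right 512)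
  · have hle : ∀ n x y, Kn n x y ≤ K x y := fun n x y =>
      (hmono x y).ge_of_tendsto (hlim x y) n
    refine limit_kink (fun n => pr Acore (Kn n)) (pr Acore K) (pr_convexOn hpreK hCA)
      (fun n => pr_mono (hpre n) hCA)
      (fun n m => pr_mono_kernel (hpre n) hpreK hCA hCA (hle n) m)
      (fun m => tendsto_pr_kernel hpre hpreK hCA hmono hlim m) μ err hanti ?_
      (1 / 64) (7 / 64) (by norm_num) (by norm_num) ?_
      (fun n m => pr_nonneg (hpre n) hCA m) (fun n t ht => ?_) (fun n t ht => ?_)
    · unfold err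
      exact tendsto_pow_atTop_nhds_zero_of_lt_one (by norm_num) (by norm_num)
    · refine squeeze_zero (fun m => pr_nonneg hpreK hCA m) (fun m => pr_le_exp hpreK hCA m)
        Real.tendsto_exp_atBot
    · have h1 := (hstage n).2.1 t ht
      have h2 : (7 / 64 : ℝ) ≤ rtwo n := by
        unfold rtwo rone
        have := half_pow_pos n
        linarith
      have h3 := mul_le_mul_of_nonneg_right h2 ht
      linarith
    · have h1 := (hstage n).2.2 t ht
      have h2 : rone n ≤ (1 / 64 : ℝ) := by
        unfold rone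
        have := half_pow_pos n
        linarith
      have h3 := mul_le_mul_of_nonneg_right h2 ht
      linarith

end Vale.Agent.P171
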