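import Vale.Agent.P171.Decouple

/-!
The Lebowitz-Penrose upper bound in final form.
-/

namespace Vale.Agent.P171

open MeasureTheory Set Filter Topology
open scoped ENNReal NNReal BigOperators

section gas

variable {A C : ℝ} {K : E → E → ℝ}

theorem good_add_J {R : ℝ} (hK : Good R C K) {ε L : ℝ} (hε : 0 ≤ ε) (hL : 1 ≤ L) :
    Good (max R (2 * L)) (C + 512 * ε) (fun x y => K x y + ε * J L x y) := by
  have hJ := J_good L hL
  refine ⟨?_, ?_, ?_, ?_, ?_, ?_⟩
  · have : Function.uncurry (fun x y => K x y + ε * J L x y) = fun p : E × E =>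
        Function.uncurry K p + ε * Function.uncurry (J L) p := by funext p; rfl
    rw [this]
    exact hK.meas.add (hJ.meas.const_mul ε)
  · intro x y
    have h1 := hK.nonneg x y
    have h2 := hJ.nonneg x y
    positivity
  · intro x y
    rw [hK.symm, hJ.symm]
  · intro a x y
    rw [hK.trans, hJ.trans]
  · intro x y h
    rw [hK.range x y (le_trans (le_max_left _ _) h), hJ.range x y (le_trans (le_max_right _ _) h)]
    simp
  · intro N x
    rw [dsum_add, dsum_const_mul]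
    have h1 := hK.bound N x
    have h2 := mul_le_mul_of_nonneg_left (hJ.bound N x) hε
    linarith

theorem tendsto_theta : Tendsto (fun M : ℕ => 3 / ((M : ℝ) - 3)) atTop (𝓝 0) := by
  refine Tendsto.div_atTop tendsto_const_nhds ?_
  exact tendsto_atTop_add_const_right _ (-3) tendsto_natCast_atTop_atTop

theorem tendsto_cube_ratio : Tendsto (fun l : ℝ => (l + 1) ^ 3 / l ^ 3 - 1) atTop (𝓝 0) := by
  have h1 : Tendsto (fun l : ℝ => (1 + l⁻¹) ^ 3 - 1) atTop (𝓝 ((1 + 0) ^ 3 - 1)) :=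
    ((tendsto_const_nhds.add tendsto_inv_atTop_zero).pow 3).sub_const 1
  have h2 : ((1 : ℝ) + 0) ^ 3 - 1 = 0 := by norm_num
  rw [h2] at h1
  refine h1.congr' ?_
  filter_upwards [eventually_gt_atTop (0 : ℝ)] with l hl
  have : 1 + l⁻¹ = (l + 1) / l := by field_simp
  rw [this, div_pow]

theorem tendsto_log_ratio (ρ : ℝ) (hρ : 0 ≤ ρ) :
    Tendsto (fun l : ℝ => Real.log (ρ * l ^ 3 + 2) / l ^ 3) atTop (𝓝 0) := by
  have h1 : Tendsto (fun l : ℝ => (ρ + 2) * (Real.log l * (3 / l ^ 3) )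
      + (ρ + 2) / l ^ 3) atTop (𝓝 ((ρ + 2) * 0 + 0)) := by
    refine Tendsto.add (Tendsto.const_mul _ ?_) ?_
    · have h2 : Tendsto (fun l : ℝ => Real.log l / l ^ (3 : ℝ)) atTop (𝓝 0) :=
        (isLittleO_log_rpow_atTop (by norm_num)).tendsto_div_nhds_zero
      have h3 := h2.const_mul 3
      rw [mul_zero] at h3
      refine h3.congr' ?_
      filter_upwards [eventually_gt_atTop (0 : ℝ)] with l hl
      rw [show (3 : ℝ) = ((3 : ℕ) : ℝ) by norm_num, Real.rpow_natCast]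
      ring
    · exact Tendsto.div_atTop tendsto_const_nhds (tendsto_pow_atTop (by norm_num))
  rw [mul_zero, add_zero] at h1
  refine squeeze_zero' ?_ ?_ h1
  · filter_upwards [eventually_gt_atTop (0 : ℝ)] with l hl
    refine div_nonneg (Real.log_nonneg ?_) (by positivity)
    have : 0 ≤ ρ * l ^ 3 := by positivity
    linarith
  · filter_upwards [eventually_ge_atTop (1 : ℝ)] with l hl
    have hl0 : 0 < l := by linarith
    have hl3 : 1 ≤ l ^ 3 := one_le_pow₀ hl
    have h4 : ρ * l ^ 3 + 2 ≤ (ρ + 2) * l ^ 3 := by nlinarith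
    have h5 : Real.log (ρ * l ^ 3 + 2) ≤ Real.log (ρ + 2) + 3 * Real.log l := by
      calc Real.log (ρ * l ^ 3 + 2) ≤ Real.log ((ρ + 2) * l ^ 3) :=
            Real.log_le_log (by positivity) h4
        _ = _ := by
          rw [Real.log_mul (by positivity) (by positivity), Real.log_pow]
          norm_num
    have h6 : Real.log (ρ + 2) ≤ ρ + 2 := by
      have := Real.log_le_sub_one_of_pos (x := ρ + 2) (by linarith)
      linarith
    have h7 : 0 ≤ Real.log l := Real.log_nonneg hl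
    rw [show (ρ + 2) * (Real.log l * (3 / l ^ 3)) + (ρ + 2) / l ^ 3 =
      ((ρ + 2) * (3 * Real.log l) + (ρ + 2)) / l ^ 3 by ring]
    gcongr
    nlinarith

/-- U4: Lebowitz-Penrose upper bound -/
theorem LP_upper {R : ℝ} (hR : 0 < R) (hK : Good R C K) (hC : 0 ≤ C) {ε : ℝ} (hε : 0 < ε)
    (hA1 : 2 * C + 54 * (ε + 1) ≤ A) (hA2 : C + 512 * ε ≤ A) {m q : ℝ}
    (hq : ∀ ν, pr A K ν - (ν - m) ^ 2 / (2 * ε) ≤ q) {η : ℝ} (hη : 0 < η) :
    ∃ L₀ : ℝ, 1 ≤ L₀ ∧ ∀ L, L₀ ≤ L → pr A (fun x y => K x y + ε * J L x y) m ≤ q + η := by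
  have hCA : C ≤ A := by linarith
  have hA0 : 0 ≤ A := by linarith
  have hq0 : 0 ≤ q := by
    have h1 := hq m
    have h2 := pr_nonneg hK.pre hCA m
    have h3 : (m - m) ^ 2 / (2 * ε) = 0 := by simp
    linarith
  -- the density cut-off
  obtain ⟨ρ, hρ0, hρ⟩ : ∃ ρ : ℝ, 0 ≤ ρ ∧ Real.exp (m - ρ) ≤ η / 2 := by
    refine ⟨max 0 (m - Real.log (η / 2)), le_max_left _ _, ?_⟩
    rw [← Real.exp_log (by positivity : 0 < η / 2), Real.exp_le_exp, Real.exp_log (by positivity)]
    have := le_max_right 0 (m - Real.log (η / 2))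
    linarith
  -- choice of M
  have hlM : Tendsto (fun M : ℕ => (M : ℝ) * R) atTop atTop :=
    tendsto_natCast_atTop_atTop.atTop_mul_const hR
  have hM1 : Tendsto (fun M : ℕ => (((M : ℝ) * R + 1) ^ 3 / ((M : ℝ) * R) ^ 3 - 1) *
      pr A K (m + ε * ρ) + 3 / ((M : ℝ) - 3) * Real.exp (m + ε * ρ)) atTop (𝓝 0) := by
    have := ((tendsto_cube_ratio.comp hlM).mul_const (pr A K (m + ε * ρ))).add
      (tendsto_theta.mul_const (Real.exp (m + ε * ρ)))
    simpa using this
  have hM2 := (tendsto_log_ratio ρ hρ0).comp hlM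
  have hev := ((tendsto_order.1 hM1).2 (η / 4) (by positivity)).and
    (((tendsto_order.1 hM2).2 (η / 2) (by positivity)).and
      ((eventually_ge_atTop 6).and (hlM.eventually_ge_atTop 1)))
  obtain ⟨M, h1, h2, hM6, hl1⟩ := hev.exists
  simp only [Function.comp_apply] at h2
  have hM6' : (6 : ℝ) ≤ M := by exact_mod_cast hM6
  set l : ℝ := M * R with hl
  have hl0 : 0 < l := by linarith
  set θ : ℝ := 3 / ((M : ℝ) - 3) with hθ
  have hθ0 : 0 ≤ θ := by
    have : 0 < (M : ℝ) - 3 := by linarith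
    positivity
  have hθ1 : θ ≤ 1 := by
    rw [hθ, div_le_one (by linarith)]
    linarith
  have hθM : (1 - 3 / (M : ℝ)) * (1 + θ) = 1 := by
    have h3 : (M : ℝ) - 3 ≠ 0 := by
      have : 0 < (M : ℝ) - 3 := by linarith
      exact this.ne'
    have h4 : (M : ℝ) ≠ 0 := by
      have : 0 < (M : ℝ) := by linarith
      exact this.ne'
    rw [hθ]
    field_simp
    ring
  -- choice of L
  have hc : Tendsto (fun L : ℝ => (1 + Real.sqrt 3 * l / L) ^ 6) atTop (𝓝 1) := by
    have : Tendsto (fun L : ℝ => (1 + Real.sqrt 3 * l / L) ^ 6) atTop (𝓝 ((1 + 0) ^ 6)) :=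
      (tendsto_const_nhds.add (Tendsto.div_atTop tendsto_const_nhds tendsto_id)).pow 6
    simpa using this
  have hc1 : Tendsto (fun L : ℝ => ε / 2 * ((1 + Real.sqrt 3 * l / L) ^ 6 - 1) * ρ ^ 2) atTop
      (𝓝 0) := by
    have := ((hc.sub_const 1).const_mul (ε / 2)).mul_const (ρ ^ 2)
    simpa using this
  have hevL := ((tendsto_order.1 hc1).2 (η / 4) (by positivity)).and
    (((tendsto_order.1 hc).2 2 (by norm_num)).and (eventually_ge_atTop (1 : ℝ)))
  obtain ⟨L₀, hL₀⟩ := eventually_atTop.1 hevL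
  refine ⟨max 1 L₀, le_max_left _ _, fun L hL => ?_⟩
  obtain ⟨h5, h6, hL1⟩ := hL₀ L (le_trans (le_max_right _ _) hL)
  have hL0 : 0 < L := by linarith
  set c : ℝ := (1 + Real.sqrt 3 * l / L) ^ 6 with hcdef
  have hcge : 1 ≤ c := by
    rw [hcdef]
    refine one_le_pow₀ ?_
    have : 0 ≤ Real.sqrt 3 * l / L := by positivity
    linarith
  set b : ℝ := ε / 2 * c / l ^ 3 with hb
  have hb1 : b ≤ ε / l ^ 3 := by
    rw [hb]
    gcongr
    nlinarith
  have hblock := block_le hK.pre hε hC hA1 hl1 hθ0 hθ1 hb1 hcge hb.le hρ0 hq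
    (g := η / 2) (by linarith) hρ
  have hpos : 0 < ρ * l ^ 3 + 2 := by positivity
  have hy : Xi (volume.restrict (box l)) (ublock A K θ b) m ≤
      ENNReal.ofReal (Real.exp (Real.log (ρ * l ^ 3 + 2) + l ^ 3 * (q + η / 2))) := by
    rw [Real.exp_add, Real.exp_log hpos]
    exact hblock
  have hy0 : 0 ≤ Real.log (ρ * l ^ 3 + 2) + l ^ 3 * (q + η / 2) := by
    have h7 : 0 ≤ Real.log (ρ * l ^ 3 + 2) := by
      refine Real.log_nonneg ?_
      have : 0 ≤ ρ * l ^ 3 := by positivity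
      linarith
    positivity
  have hK' := (good_add_J hK hε.le hL1).pre
  have hfin := pr_add_J_le hR hK hA0 hε hL0 hK' hA2 M (by omega) hθM
    (b := b) (by rw [hb]; rw [← hl, ← hcdef]; exact (by ring_nf; exact le_rfl)) hy0 hy
  refine hfin.trans ?_
  have h8 : (Real.log (ρ * l ^ 3 + 2) + l ^ 3 * (q + η / 2)) / l ^ 3 =
      Real.log (ρ * l ^ 3 + 2) / l ^ 3 + (q + η / 2) := by
    field_simp
  rw [h8]
  linarith

end gas

end Vale.Agent.P171
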