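import Vale.Agent.P171.Kernel
import Vale.Agent.P171.Defs

/-!
Translation to the notation of the problem file.
-/

namespace Vale.Agent.P171

open MeasureTheory Set Filter Topology
open scoped ENNReal NNReal BigOperators

/-- double sum versus sum over pairs -/
theorem dsum_eq_energy (φ : ℝ → ℝ) {N : ℕ} (x : Fin N → E) :
    dsum (fun a b => φ (dist a b)) x = 2 * energy φ x + N * φ 0 := by
  have key : ∀ f : Fin N → Fin N → ℝ, (∀ i j, f i j = f j i) →
      ∑ i, ∑ j, f i j = 2 * (∑ i, ∑ j ∈ Finset.Ioi i, f i j) + ∑ i, f i i := by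
    intro f hf
    have h1 : ∀ i, ∑ j, f i j = ∑ j ∈ Finset.Ioi i, f i j + ∑ j ∈ Finset.Iio i, f i j + f i i := by
      intro i
      have hu : (Finset.univ : Finset (Fin N)) = (Finset.Ioi i ∪ Finset.Iio i) ∪ {i} := by
        ext j
        simp only [Finset.mem_univ, Finset.mem_union, Finset.mem_Ioi, Finset.mem_Iio,
          Finset.mem_singleton, true_iff]
        rcases lt_trichotomy i j with h | h | h
        · exact Or.inl (Or.inl h)
        · exact Or.inr h.symm
        · exact Or.inl (Or.inr h)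
      rw [hu, Finset.sum_union, Finset.sum_union, Finset.sum_singleton]
      · rw [Finset.disjoint_left]
        intro j hj hj'
        simp only [Finset.mem_Ioi, Finset.mem_Iio] at hj hj'
        exact absurd hj (not_lt.2 hj'.le)
      · rw [Finset.disjoint_left]
        intro j hj hj'
        simp only [Finset.mem_union, Finset.mem_Ioi, Finset.mem_Iio, Finset.mem_singleton]
          at hj hj'
        rcases hj with h | h
        · exact absurd hj' h.ne'
        · exact absurd hj' h.ne
    have h2 : ∑ i, ∑ j ∈ Finset.Iio i, f i j = ∑ i, ∑ j ∈ Finset.Ioi i, f i j := by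
      rw [Finset.sum_comm' (t' := Finset.univ) (s' := fun j => Finset.Ioi j)]
      · exact Finset.sum_congr rfl fun i _ => Finset.sum_congr rfl fun j _ => hf _ _
      · intro i j
        simp
    simp_rw [h1]
    rw [Finset.sum_add_distrib, Finset.sum_add_distrib, h2]
    ring
  unfold dsum energy
  rw [key (fun i j => φ (dist (x i) (x j))) (fun i j => by rw [dist_comm])]
  simp

section translation

variable {A C : ℝ} {K : E → E → ℝ} {φ : ℝ → ℝ}

theorem dsum_vpot_eq (hφ : ∀ x y : E, φ (dist x y) = A * near x y - K x y) {N : ℕ}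
    (x : Fin N → E) : dsum (vpot A K) x = -energy φ x - N * (φ 0 / 2) := by
  have h1 : dsum (fun a b => φ (dist a b)) x = A * dsum near x - dsum K x := by
    have e : (fun a b : E => φ (dist a b)) = fun a b => (A * near a b) + (-1) * K a b := by
      funext a b
      rw [hφ]
      ring
    rw [e, dsum_add, dsum_const_mul, dsum_const_mul]
    ring
  have h2 := dsum_eq_energy φ x
  rw [dsum_vpot]
  linarith

theorem conf_eq (L : ℝ) (N : ℕ) : conf L N = Set.univ.pi fun _ : Fin N => box L := by
  ext x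
  simp only [conf, box, Set.mem_pi, mem_univ, forall_true_left, mem_Icc, Set.mem_ofPred_eq]

theorem wt_eq (hφ : ∀ x y : E, φ (dist x y) = A * near x y - K x y) {z : ℝ} (hz : 0 < z) {N : ℕ}
    (x : Fin N → E) : wt (vpot A K) (Real.log z + φ 0 / 2) x =
      ENNReal.ofReal (z ^ N * Real.exp (-(1 * energy φ x))) := by
  unfold wt
  rw [dsum_vpot_eq hφ, Fintype.card_fin]
  congr 1
  rw [show (Real.log z + φ 0 / 2) * (N : ℝ) + (-energy φ x - N * (φ 0 / 2)) =
    N * Real.log z + -(1 * energy φ x) by ring, Real.exp_add, Real.exp_nat_mul,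
    Real.exp_log hz]

theorem measurable_energy (hφ : ∀ x y : E, φ (dist x y) = A * near x y - K x y)
    (hK : Pre C K) {N : ℕ} : Measurable fun x : Fin N → E => energy φ x := by
  have h : (fun x : Fin N → E => energy φ x) =
      fun x => -dsum (vpot A K) x - N * (φ 0 / 2) := by
    funext x
    rw [dsum_vpot_eq hφ]
    ring
  rw [h]
  exact (measurable_dsum (measurable_vpot hK.meas)).neg.sub_const _

theorem cint_eq (hφ : ∀ x y : E, φ (dist x y) = A * near x y - K x y) {z : ℝ}
    (hz : 0 < z) (L : ℝ) (N : ℕ) :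
    cint (volume.restrict (box L)) (vpot A K) (Real.log z + φ 0 / 2) N =
      ∫⁻ x in conf L N, ENNReal.ofReal (z ^ N * Real.exp (-(1 * energy φ x))) := by
  rw [cint_restrict, conf_eq]
  exact lintegral_congr fun x => wt_eq hφ hz x

theorem cint_box_ne_top (hK : Pre C K) (hCA : C ≤ A) (m : ℝ) {L : ℝ} (hL : 0 ≤ L) (N : ℕ) :
    cint (volume.restrict (box L)) (vpot A K) m N ≠ ∞ := by
  have h1 := term_le_Xi (volume.restrict (box L)) (vpot A K) m N
  have h2 := ne_top_of_le_ne_top (Xi_box_ne_top hK hCA m hL) h1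
  intro h3
  rw [h3, ENNReal.mul_top (factorial_inv_ne_zero N)] at h2
  exact h2 rfl

theorem integrable_boltzmann (hφ : ∀ x y : E, φ (dist x y) = A * near x y - K x y)
    (hK : Pre C K) (hCA : C ≤ A) {L : ℝ} (hL : 0 ≤ L) (N : ℕ) :
    IntegrableOn (fun x => Real.exp (-(1 * energy φ x))) (conf L N) := by
  have hm : Measurable fun x : Fin N → E => Real.exp (-(1 * energy φ x)) :=
    Real.measurable_exp.comp ((measurable_energy hφ hK).const_mul 1).neg
  refine ⟨hm.aestronglyMeasurable, ?_⟩
  rw [hasFiniteIntegral_iff_ofReal (Eventually.of_forall fun x => (Real.exp_pos _).le)]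
  have h1 := cint_eq hφ one_pos L N
  simp only [one_pow, one_mul] at h1 ⊢
  rw [← h1]
  exact lt_top_iff_ne_top.2 (cint_box_ne_top hK hCA _ hL N)

theorem term_eq (hφ : ∀ x y : E, φ (dist x y) = A * near x y - K x y)
    (hK : Pre C K) (hCA : C ≤ A) {z : ℝ} (hz : 0 < z) {L : ℝ} (hL : 0 ≤ L) (N : ℕ) :
    (((N.factorial : ℝ≥0∞))⁻¹ *
      cint (volume.restrict (box L)) (vpot A K) (Real.log z + φ 0 / 2) N).toReal =
      z ^ N * canonical φ 1 L N := by
  rw [cint_eq hφ hz L N, ← ofReal_integral_eq_lintegral_ofReal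
    ((integrable_boltzmann hφ hK hCA hL N).const_mul (z ^ N))
    (Eventually.of_forall fun x => by positivity), integral_const_mul, ENNReal.toReal_mul,
    ENNReal.toReal_ofReal]
  · unfold canonical
    rw [ENNReal.toReal_inv, ENNReal.toReal_natCast]
    ring
  · exact mul_nonneg (by positivity) (integral_nonneg fun x => (Real.exp_pos _).le)

theorem term_ne_top (hK : Pre C K) (hCA : C ≤ A) (m : ℝ) {L : ℝ} (hL : 0 ≤ L) (N : ℕ) :
    ((N.factorial : ℝ≥0∞))⁻¹ * cint (volume.restrict (box L)) (vpot A K) m N ≠ ∞ :=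
  ne_top_of_le_ne_top (Xi_box_ne_top hK hCA m hL) (term_le_Xi _ _ _ _)

theorem summable_grand (hφ : ∀ x y : E, φ (dist x y) = A * near x y - K x y)
    (hK : Pre C K) (hCA : C ≤ A) {z : ℝ} (hz : 0 < z) {L : ℝ} (hL : 0 ≤ L) :
    Summable fun N : ℕ => z ^ N * canonical φ 1 L N := by
  simp_rw [← term_eq hφ hK hCA hz hL]
  exact ENNReal.summable_toReal (Xi_box_ne_top hK hCA (Real.log z + φ 0 / 2) hL)

theorem grand_eq (hφ : ∀ x y : E, φ (dist x y) = A * near x y - K x y)
    (hK : Pre C K) (hCA : C ≤ A) {z : ℝ} (hz : 0 < z) {L : ℝ} (hL : 0 ≤ L) :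
    grand φ 1 z L = (Xi (volume.restrict (box L)) (vpot A K) (Real.log z + φ 0 / 2)).toReal := by
  unfold grand Xi
  rw [ENNReal.tsum_toReal_eq fun N => term_ne_top hK hCA _ hL N]
  exact tsum_congr fun N => (term_eq hφ hK hCA hz hL N).symm

theorem isPressure (hφ : ∀ x y : E, φ (dist x y) = A * near x y - K x y)
    (hK : Pre C K) (hCA : C ≤ A) :
    IsPressure φ 1 (fun z => pr A K (Real.log z + φ 0 / 2)) := by
  intro z hz
  refine ⟨fun L hL => ⟨fun N => integrable_boltzmann hφ hK hCA hL.le N,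
    summable_grand hφ hK hCA hz hL.le⟩, ?_⟩
  refine (tendsto_lpf hK hCA (Real.log z + φ 0 / 2)).congr' ?_
  filter_upwards [eventually_gt_atTop (0 : ℝ)] with L hL
  rw [grand_eq hφ hK hCA hz hL.le]
  unfold lpf
  rw [div_eq_inv_mul]

end translation

/-- Main theorem. -/
theorem main : ∃ φ : ℝ → ℝ, Measurable φ ∧ (∃ M, ∀ r, |φ r| ≤ M) ∧ (∀ r, 1 ≤ r → φ r ≤ 0) ∧
    Stable φ ∧ HasPhaseTransition φ := by
  obtain ⟨K, hK, hKd, ⟨B, hB⟩, μ₀, hμ₀⟩ := exists_kernel
  have hCA : (8388608 : ℝ) ≤ Acore := by unfold Acore; norm_num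
  have hA0 : (0 : ℝ) ≤ Acore := by unfold Acore; norm_num
  set e : ℝ → E := fun r => EuclideanSpace.single 0 r with he
  have hde : ∀ r, dist (0 : E) (e r) = |r| := by
    intro r
    rw [dist_comm, dist_zero_right, he]
    simp
  have hme : Measurable e := by
    have : Continuous e := by
      rw [Metric.continuous_iff]
      intro b ε hε
      refine ⟨ε, hε, fun a ha => ?_⟩
      rw [he]
      simpa using ha
    exact this.measurable
  set φ : ℝ → ℝ := fun r => Acore * (if r < 1 then 1 else 0) - K 0 (e r) with hφdef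
  have hφ : ∀ x y : E, φ (dist x y) = Acore * near x y - K x y := by
    intro x y
    rw [hφdef]
    simp only
    rw [hKd 0 (e (dist x y)) x y (by rw [hde, abs_of_nonneg dist_nonneg])]
    rfl
  have hKnn := hK.nonneg
  refine ⟨φ, ?_, ⟨Acore + |B|, fun r => ?_⟩, fun r hr => ?_, ?_, ?_⟩
  · refine ((Measurable.ite measurableSet_Iio measurable_const measurable_const).const_mul _).sub ?_
    have : (fun r => K 0 (e r)) = Function.uncurry K ∘ fun r => ((0 : E), e r) := by
      funext r; rfl
    rw [this]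
    exact hK.meas.comp (measurable_const.prodMk hme)
  · rw [hφdef]
    simp only
    have h1 := hB 0 (e r)
    have h2 := hKnn 0 (e r)
    have h3 := le_abs_self B
    rw [abs_le]
    split_ifs <;> constructor <;> linarith
  · rw [hφdef]
    simp only
    rw [if_neg (not_lt.2 hr)]
    have := hKnn 0 (e r)
    linarith
  · refine ⟨Acore / 2 - K 0 0 / 2, fun N x _ => ?_⟩
    have h1 := dsum_vpot_eq hφ x
    have h2 := dsum_vpot_le (A := Acore) hK x
    have h3 : 0 ≤ ((Acore - 8388608) / 2) * dsum near x :=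
      mul_nonneg (by linarith) (le_trans (Nat.cast_nonneg N) (near_diag N x))
    have h4 : φ 0 = Acore - K 0 0 := by
      have := hφ 0 0
      rw [dist_self] at this
      rw [this]
      simp [near]
    rw [h4] at h1
    nlinarith
  · obtain ⟨z₀, hz₀, hnd⟩ := not_differentiable_activity (pr Acore K) (φ 0 / 2) μ₀ hμ₀
    exact ⟨1, one_pos, _, isPressure hφ hK hCA, z₀, hz₀, hnd⟩

end Vale.Agent.P171
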