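import Vale.Agent.P171.SplitThree
import Vale.Agent.P171.Geom
import Vale.Agent.P171.GeomTwo

/-!
Finite-volume bounds and the pressure.
-/

namespace Vale.Agent.P171

open MeasureTheory Set Filter Topology
open scoped ENNReal NNReal BigOperators

/-- admissible attractive kernels without range condition -/
structure Pre (C : ℝ) (K : E → E → ℝ) : Prop where
  meas : Measurable (Function.uncurry K)
  nonneg : ∀ x y, 0 ≤ K x y
  symm : ∀ x y, K x y = K y x
  trans : ∀ a x y, K (x + a) (y + a) = K x y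
  bound : ∀ (N : ℕ) (x : Fin N → E), dsum K x ≤ C * dsum near x

theorem Good.pre {R C : ℝ} {K : E → E → ℝ} (h : Good R C K) : Pre C K :=
  ⟨h.meas, h.nonneg, h.symm, h.trans, h.bound⟩

theorem near_nonneg (x y : E) : 0 ≤ near x y := by
  unfold near; split_ifs <;> norm_num

theorem measurable_vpot {A : ℝ} {K : E → E → ℝ} (hK : Measurable (Function.uncurry K)) :
    Measurable (Function.uncurry (vpot A K)) := by
  have : Function.uncurry (vpot A K) = fun p : E × E =>
      -(A / 2) * Function.uncurry near p + Function.uncurry K p / 2 := by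
    funext p; rfl
  rw [this]
  exact (measurable_near.const_mul _).add (hK.div_const _)

theorem dsum_vpot (A : ℝ) (K : E → E → ℝ) {ι : Type*} [Fintype ι] (x : ι → E) :
    dsum (vpot A K) x = -(A / 2) * dsum near x + dsum K x / 2 := by
  have h : vpot A K = fun a b => (-(A / 2) * near a b) + (1 / 2 * K a b) := by
    funext a b; unfold vpot; ring
  rw [h, dsum_add, dsum_const_mul, dsum_const_mul]
  ring

theorem vpot_trans {A C : ℝ} {K : E → E → ℝ} (hK : Pre C K) (a x y : E) :
    vpot A K (x + a) (y + a) = vpot A K x y := by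
  unfold vpot near
  rw [hK.trans, dist_add_right]

theorem dsum_vpot_le {A C : ℝ} {K : E → E → ℝ} (hK : Pre C K) {N : ℕ} (x : Fin N → E) :
    dsum (vpot A K) x ≤ -((A - C) / 2) * dsum near x := by
  rw [dsum_vpot]
  have := hK.bound N x
  linarith

theorem cint_zero {X : Type*} [MeasurableSpace X] (ν : Measure X) (v : X → X → ℝ) (m : ℝ) :
    cint ν v m 0 = 1 := by
  unfold cint wt
  have : ∀ x : Fin 0 → X, dsum v x = 0 := fun x => by simp [dsum]
  simp [this]

theorem one_le_Xi {X : Type*} [MeasurableSpace X] (ν : Measure X) (v : X → X → ℝ) (m : ℝ) :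
    1 ≤ Xi ν v m := by
  unfold Xi
  refine le_trans ?_ (ENNReal.le_tsum 0)
  simp [cint_zero]

theorem cint_restrict_le {X : Type*} [MeasurableSpace X] (ν : Measure X) [SigmaFinite ν]
    (v : X → X → ℝ) (m g : ℝ) (A : Set X) (hA : MeasurableSet A) (N : ℕ)
    (h : ∀ x : Fin N → X, (∀ i, x i ∈ A) → m * N + dsum v x ≤ g) :
    cint (ν.restrict A) v m N ≤ ENNReal.ofReal (Real.exp g) * ν A ^ N := by
  rw [cint_restrict]
  calc ∫⁻ x in (Set.univ.pi fun _ : Fin N => A), wt v m x ∂(Measure.pi fun _ => ν)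
      ≤ ∫⁻ _x in (Set.univ.pi fun _ : Fin N => A), ENNReal.ofReal (Real.exp g)
          ∂(Measure.pi fun _ => ν) := by
        refine setLIntegral_mono' (MeasurableSet.univ_pi fun _ => hA) fun x hx => ?_
        unfold wt
        refine ENNReal.ofReal_le_ofReal (Real.exp_le_exp.2 ?_)
        simpa using h x fun i => hx i (mem_univ i)
    _ = _ := by
        rw [setLIntegral_const, Measure.pi_pi]
        simp

theorem le_cint_restrict {X : Type*} [MeasurableSpace X] (ν : Measure X) [SigmaFinite ν]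
    (v : X → X → ℝ) (m g : ℝ) (A : Set X) (hA : MeasurableSet A) (N : ℕ)
    (h : ∀ x : Fin N → X, (∀ i, x i ∈ A) → g ≤ m * N + dsum v x) :
    ENNReal.ofReal (Real.exp g) * ν A ^ N ≤ cint (ν.restrict A) v m N := by
  rw [cint_restrict]
  calc ENNReal.ofReal (Real.exp g) * ν A ^ N = ∫⁻ _x in (Set.univ.pi fun _ : Fin N => A),
        ENNReal.ofReal (Real.exp g) ∂(Measure.pi fun _ => ν) := by
        rw [setLIntegral_const, Measure.pi_pi]
        simp
    _ ≤ _ := by
        refine setLIntegral_mono' (MeasurableSet.univ_pi fun _ => hA) fun x hx => ?_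
        unfold wt
        refine ENNReal.ofReal_le_ofReal (Real.exp_le_exp.2 ?_)
        simpa using h x fun i => hx i (mem_univ i)

/-- exponential series in ENNReal -/
theorem tsum_exp (y : ℝ) (hy : 0 ≤ y) :
    ∑' N : ℕ, ((N.factorial : ℝ≥0∞))⁻¹ * ENNReal.ofReal y ^ N = ENNReal.ofReal (Real.exp y) := by
  have h : ∀ N : ℕ, ((N.factorial : ℝ≥0∞))⁻¹ * ENNReal.ofReal y ^ N
      = ENNReal.ofReal (y ^ N / N.factorial) := by
    intro N
    rw [ENNReal.ofReal_div_of_pos (by exact_mod_cast N.factorial_pos), ENNReal.ofReal_pow hy,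
      ENNReal.ofReal_natCast, div_eq_mul_inv, mul_comm]
  simp_rw [h]
  rw [← ENNReal.ofReal_tsum_of_nonneg (fun N => by positivity) (Real.summable_pow_div_factorial y)]
  congr 1
  rw [Real.exp_eq_exp_ℝ, NormedSpace.exp_eq_tsum_div]

/-- general upper bound for Xi in a region of finite volume -/
theorem Xi_restrict_le_exp {X : Type*} [MeasurableSpace X] (ν : Measure X) [SigmaFinite ν]
    (v : X → X → ℝ) (m c g : ℝ) (A : Set X) (hA : MeasurableSet A) (V : ℝ) (hV0 : 0 ≤ V)
    (hV : ν A = ENNReal.ofReal V)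
    (h : ∀ (N : ℕ) (x : Fin N → X), (∀ i, x i ∈ A) → m * N + dsum v x ≤ g + c * N) :
    Xi (ν.restrict A) v m ≤ ENNReal.ofReal (Real.exp (g + Real.exp c * V)) := by
  unfold Xi
  have e1 : ENNReal.ofReal (Real.exp (g + Real.exp c * V)) =
      ∑' N : ℕ, ENNReal.ofReal (Real.exp g) *
        (((N.factorial : ℝ≥0∞))⁻¹ * ENNReal.ofReal (Real.exp c * V) ^ N) := by
    rw [ENNReal.tsum_mul_left, tsum_exp _ (by positivity), Real.exp_add,
      ENNReal.ofReal_mul (Real.exp_pos _).le]
  rw [e1]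
  refine ENNReal.tsum_le_tsum fun N => ?_
  have h1 := cint_restrict_le ν v m (g + c * N) A hA N (h N)
  calc ((N.factorial : ℝ≥0∞))⁻¹ * cint (ν.restrict A) v m N
      ≤ ((N.factorial : ℝ≥0∞))⁻¹ * (ENNReal.ofReal (Real.exp (g + c * N)) * ν A ^ N) := by
        gcongr
    _ = _ := by
        rw [hV, Real.exp_add, ENNReal.ofReal_mul (Real.exp_pos _).le,
          ENNReal.ofReal_mul (Real.exp_pos _).le, mul_pow, mul_comm c, Real.exp_nat_mul,
          ENNReal.ofReal_pow (Real.exp_pos _).le]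
        ring

/-- the logarithm of the partition function in the box -/
noncomputable def lpf (A : ℝ) (K : E → E → ℝ) (m L : ℝ) : ℝ :=
  Real.log (Xi (volume.restrict (box L)) (vpot A K) m).toReal

section gas

variable {A C : ℝ} {K : E → E → ℝ}

theorem Xi_box_le (hK : Pre C K) (hAC : C ≤ A) (m : ℝ) {L : ℝ} (hL : 0 ≤ L) :
    Xi (volume.restrict (box L)) (vpot A K) m ≤
      ENNReal.ofReal (Real.exp (Real.exp m * L ^ 3)) := by
  have := Xi_restrict_le_exp volume (vpot A K) m m 0 (box L) (measurableSet_box L) (L ^ 3)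
    (by positivity) (volume_box L hL) (fun N x _ => by
      have h1 := dsum_vpot_le (A := A) hK x
      have h2 := near_diag N x
      have h3 : 0 ≤ ((A - C) / 2) * dsum near x :=
        mul_nonneg (by linarith) (le_trans (Nat.cast_nonneg N) h2)
      linarith)
  simpa using this

theorem Xi_box_ne_top (hK : Pre C K) (hAC : C ≤ A) (m : ℝ) {L : ℝ} (hL : 0 ≤ L) :
    Xi (volume.restrict (box L)) (vpot A K) m ≠ ∞ :=
  ne_top_of_le_ne_top ENNReal.ofReal_ne_top (Xi_box_le hK hAC m hL)

theorem lpf_le (hK : Pre C K) (hAC : C ≤ A) (m : ℝ) {L : ℝ} (hL : 0 ≤ L) :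
    lpf A K m L ≤ Real.exp m * L ^ 3 := by
  unfold lpf
  have h1 := Xi_box_le hK hAC m hL
  have h2 : (Xi (volume.restrict (box L)) (vpot A K) m).toReal ≤
      Real.exp (Real.exp m * L ^ 3) :=
    ENNReal.toReal_le_of_le_ofReal (Real.exp_pos _).le h1
  have h3 : 1 ≤ (Xi (volume.restrict (box L)) (vpot A K) m).toReal := by
    have := (ENNReal.toReal_le_toReal ENNReal.one_ne_top (Xi_box_ne_top hK hAC m hL)).2
      (one_le_Xi _ _ _)
    simpa using this
  calc Real.log _ ≤ Real.log (Real.exp (Real.exp m * L ^ 3)) :=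
        Real.log_le_log (by linarith) h2
    _ = _ := Real.log_exp _

theorem one_le_Xi_toReal (hK : Pre C K) (hAC : C ≤ A) (m : ℝ) {L : ℝ} (hL : 0 ≤ L) :
    1 ≤ (Xi (volume.restrict (box L)) (vpot A K) m).toReal := by
  have := (ENNReal.toReal_le_toReal ENNReal.one_ne_top (Xi_box_ne_top hK hAC m hL)).2
    (one_le_Xi _ _ _)
  simpa using this

theorem lpf_nonneg (hK : Pre C K) (hAC : C ≤ A) (m : ℝ) {L : ℝ} (hL : 0 ≤ L) :
    0 ≤ lpf A K m L :=
  Real.log_nonneg (one_le_Xi_toReal hK hAC m hL)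

theorem exp_lpf (hK : Pre C K) (hAC : C ≤ A) (m : ℝ) {L : ℝ} (hL : 0 ≤ L) :
    ENNReal.ofReal (Real.exp (lpf A K m L)) = Xi (volume.restrict (box L)) (vpot A K) m := by
  unfold lpf
  rw [Real.exp_log (by linarith [one_le_Xi_toReal hK hAC m hL]),
    ENNReal.ofReal_toReal (Xi_box_ne_top hK hAC m hL)]

/-- lower/upper comparison through ENNReal -/
theorem le_lpf_of_le (hK : Pre C K) (hAC : C ≤ A) (m : ℝ) {L : ℝ} (hL : 0 ≤ L) {g : ℝ}
    (h : ENNReal.ofReal (Real.exp g) ≤ Xi (volume.restrict (box L)) (vpot A K) m) :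
    g ≤ lpf A K m L := by
  rw [← exp_lpf hK hAC m hL, ENNReal.ofReal_le_ofReal_iff (Real.exp_pos _).le,
    Real.exp_le_exp] at h
  exact h

theorem lpf_le_of_le (hK : Pre C K) (hAC : C ≤ A) (m : ℝ) {L : ℝ} (hL : 0 ≤ L) {g : ℝ}
    (h : Xi (volume.restrict (box L)) (vpot A K) m ≤ ENNReal.ofReal (Real.exp g)) :
    lpf A K m L ≤ g := by
  rw [← exp_lpf hK hAC m hL, ENNReal.ofReal_le_ofReal_iff (Real.exp_pos _).le,
    Real.exp_le_exp] at h
  exact h

end gas

end Vale.Agent.P171
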