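import Vale.Agent.P171.Super

/-!
Further properties of the pressure: convexity, monotonicity, growth, limits in the kernel.
-/

namespace Vale.Agent.P171

open MeasureTheory Set Filter Topology
open scoped ENNReal NNReal BigOperators

section gas

variable {A C : ℝ} {K : E → E → ℝ}

theorem lpf_mono (hK : Pre C K) (hAC : C ≤ A) {m m' : ℝ} (h : m ≤ m') {L : ℝ} (hL : 0 ≤ L) :
    lpf A K m L ≤ lpf A K m' L := by
  refine lpf_le_of_le hK hAC m hL ?_
  rw [exp_lpf hK hAC m' hL]
  have := Xi_restrict_le_of_exponent_le (volume : Measure E) (vpot A K) (vpot A K) m m' 0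
    (box L) (measurableSet_box L) (fun N x _ => by
      have : m * N ≤ m' * N := mul_le_mul_of_nonneg_right h (Nat.cast_nonneg N)
      linarith)
  simpa using this

theorem pr_mono (hK : Pre C K) (hAC : C ≤ A) : Monotone (pr A K) := by
  intro m m' h
  refine pr_le fun L hL => ?_
  rw [div_le_iff₀ (by positivity)]
  have h1 := lpf_mono hK hAC h hL.le
  have h2 := lpf_le_pr hK hAC m' hL
  linarith

theorem lpf_convex (hK : Pre C K) (hAC : C ≤ A) (m m' t : ℝ) (ht0 : 0 ≤ t) (ht1 : t ≤ 1)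
    {L : ℝ} (hL : 0 ≤ L) :
    lpf A K ((1 - t) * m + t * m') L ≤ (1 - t) * lpf A K m L + t * lpf A K m' L := by
  refine lpf_le_of_le hK hAC _ hL ?_
  refine (Xi_logconvex _ _ (measurable_vpot hK.meas) m m' t ht0 ht1).trans (le_of_eq ?_)
  rw [← exp_lpf hK hAC m hL, ← exp_lpf hK hAC m' hL,
    ENNReal.ofReal_rpow_of_pos (Real.exp_pos _), ENNReal.ofReal_rpow_of_pos (Real.exp_pos _),
    ← ENNReal.ofReal_mul (by positivity), ← Real.exp_mul, ← Real.exp_mul, ← Real.exp_add]
  congr 2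
  ring

theorem pr_convexOn (hK : Pre C K) (hAC : C ≤ A) : ConvexOn ℝ univ (pr A K) := by
  refine ⟨convex_univ, fun m _ m' _ a b ha hb hab => ?_⟩
  have ha' : a = 1 - b := by linarith
  subst ha'
  simp only [smul_eq_mul]
  refine pr_le fun L hL => ?_
  rw [div_le_iff₀ (by positivity)]
  refine (lpf_convex hK hAC m m' b hb (by linarith) hL.le).trans ?_
  have h1 := lpf_le_pr hK hAC m hL
  have h2 := lpf_le_pr hK hAC m' hL
  nlinarith

theorem cint_mono {v w : E → E → ℝ} {m : ℝ} {B : Set E} (hB : MeasurableSet B) (N : ℕ)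
    (h : ∀ x : Fin N → E, (∀ i, x i ∈ B) → dsum v x ≤ dsum w x) :
    cint (volume.restrict B) v m N ≤ cint (volume.restrict B) w m N := by
  rw [cint_restrict, cint_restrict]
  refine setLIntegral_mono' (MeasurableSet.univ_pi fun _ => hB) fun x hx => ?_
  unfold wt
  refine ENNReal.ofReal_le_ofReal (Real.exp_le_exp.2 ?_)
  have := h x fun i => hx i (mem_univ i)
  linarith

/-- growth of the pressure -/
theorem pr_le_quadratic (hK : Pre C K) {a : ℝ} (ha : 0 < a) (haC : C + 54 * a ≤ A) (m : ℝ) :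
    pr A K m ≤ 1 + m ^ 2 / (4 * a) := by
  have hAC : C ≤ A := by linarith
  refine pr_le_of_eventually hK hAC m (g := fun _ => 1 + m ^ 2 / (4 * a)) tendsto_const_nhds ?_
  filter_upwards [eventually_ge_atTop (1 : ℝ)] with L hL
  have hL0 : (0 : ℝ) < L := by linarith
  rw [div_le_iff₀ (by positivity)]
  refine lpf_le_of_le hK hAC m hL0.le ?_
  have := Xi_restrict_le_exp volume (vpot A K) m 0 (m ^ 2 / (4 * a) * L ^ 3) (box L)
    (measurableSet_box L) (L ^ 3) (by positivity) (volume_box L hL0.le) (fun N x hx => by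
      have h1 := dsum_vpot_le (A := A) hK x
      have h2 := near_super L hL N x hx
      have h3 : -((A - C) / 2) * dsum near x ≤ -(27 * a) * dsum near x := by
        have : 0 ≤ dsum near x := le_trans (Nat.cast_nonneg N) (near_diag N x)
        exact mul_le_mul_of_nonneg_right (by linarith) this
      have h4 : -(27 * a) * dsum near x ≤ -(27 * a) * ((N : ℝ) ^ 2 / (27 * L ^ 3)) := by
        have := mul_le_mul_of_nonneg_left h2 (by positivity : (0 : ℝ) ≤ 27 * a)
        linarith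
      have h5 : -(27 * a) * ((N : ℝ) ^ 2 / (27 * L ^ 3)) = -(a * (N : ℝ) ^ 2 / L ^ 3) := by
        field_simp
      have h6 : m * N ≤ m ^ 2 / (4 * a) * L ^ 3 + a * (N : ℝ) ^ 2 / L ^ 3 := by
        have hL3 : 0 < L ^ 3 := by positivity
        rw [← sub_nonneg]
        have : m ^ 2 / (4 * a) * L ^ 3 + a * (N : ℝ) ^ 2 / L ^ 3 - m * N
            = (m * L ^ 3 - 2 * a * N) ^ 2 / (4 * a * L ^ 3) := by
          field_simp
          ring
        rw [this]
        positivity
      linarith)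
  refine this.trans (le_of_eq ?_)
  congr 2
  rw [Real.exp_zero]
  ring

/-- monotonicity in the kernel -/
theorem lpf_mono_kernel {C' : ℝ} {K' : E → E → ℝ} (hK : Pre C K) (hK' : Pre C' K')
    (hAC : C ≤ A) (hAC' : C' ≤ A) (h : ∀ x y, K x y ≤ K' x y) (m : ℝ) {L : ℝ} (hL : 0 ≤ L) :
    lpf A K m L ≤ lpf A K' m L := by
  refine lpf_le_of_le hK hAC m hL ?_
  rw [exp_lpf hK' hAC' m hL]
  have := Xi_restrict_le_of_exponent_le (volume : Measure E) (vpot A K) (vpot A K') m m 0
    (box L) (measurableSet_box L) (fun N x _ => by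
      rw [dsum_vpot, dsum_vpot]
      have := dsum_mono h x
      linarith)
  simpa using this

theorem pr_mono_kernel {C' : ℝ} {K' : E → E → ℝ} (hK : Pre C K) (hK' : Pre C' K')
    (hAC : C ≤ A) (hAC' : C' ≤ A) (h : ∀ x y, K x y ≤ K' x y) (m : ℝ) :
    pr A K m ≤ pr A K' m := by
  refine pr_le fun L hL => ?_
  rw [div_le_iff₀ (by positivity)]
  have h1 := lpf_mono_kernel hK hK' hAC hAC' h m hL.le
  have h2 := lpf_le_pr hK' hAC' m hL
  linarith

/-- continuity of the pressure along increasing limits of kernels -/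
theorem tendsto_pr_kernel {Kn : ℕ → E → E → ℝ} (hKn : ∀ n, Pre C (Kn n)) (hK : Pre C K)
    (hAC : C ≤ A) (hmono : ∀ x y, Monotone fun n => Kn n x y)
    (hlim : ∀ x y, Tendsto (fun n => Kn n x y) atTop (𝓝 (K x y))) (m : ℝ) :
    Tendsto (fun n => pr A (Kn n) m) atTop (𝓝 (pr A K m)) := by
  have hle : ∀ n x y, Kn n x y ≤ K x y := fun n x y => (hmono x y).ge_of_tendsto (hlim x y) n
  refine tendsto_order.2 ⟨fun g hg => ?_, fun g hg => ?_⟩
  · obtain ⟨L, hL, hlt⟩ := exists_lt_lpf hK hAC m hg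
    have hsup := Xi_iSup (volume.restrict (box L)) (fun n => vpot A (Kn n)) (vpot A K)
      (fun n => measurable_vpot (hKn n).meas)
      (fun x y a b hab => by
        have := hmono x y hab
        simp only [vpot] at this ⊢
        linarith)
      (fun x y => by
        unfold vpot
        exact tendsto_const_nhds.add ((hlim x y).div_const 2)) m
    have hlt' : ENNReal.ofReal (Real.exp (g * (L + 1) ^ 3)) <
        ⨆ n, Xi (volume.restrict (box L)) (vpot A (Kn n)) m := by
      rw [← hsup, ← exp_lpf hK hAC m hL.le, ENNReal.ofReal_lt_ofReal_iff (Real.exp_pos _),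
        Real.exp_lt_exp]
      exact hlt
    obtain ⟨n, hn⟩ := lt_iSup_iff.1 hlt'
    filter_upwards [eventually_ge_atTop n] with k hk
    have h1 : g * (L + 1) ^ 3 < lpf A (Kn n) m L := by
      rw [← exp_lpf (hKn n) hAC m hL.le, ENNReal.ofReal_lt_ofReal_iff (Real.exp_pos _),
        Real.exp_lt_exp] at hn
      exact hn
    have h2 : lpf A (Kn n) m L ≤ lpf A (Kn k) m L :=
      lpf_mono_kernel (hKn n) (hKn k) hAC hAC (fun x y => hmono x y hk) m hL.le
    have h3 := lpf_le_pr (hKn k) hAC m hL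
    have h4 : g * (L + 1) ^ 3 < pr A (Kn k) m * (L + 1) ^ 3 := by linarith
    exact lt_of_mul_lt_mul_right h4 (by positivity)
  · filter_upwards with n
    exact lt_of_le_of_lt (pr_mono_kernel (hKn n) hK hAC hAC (hle n) m) hg

/-- Lebowitz-Penrose lower bound -/
theorem pr_add_J_ge (hK : Pre C K) {ε L : ℝ} (hε : 0 < ε) (hL : 0 < L) {C' : ℝ}
    (hK' : Pre C' (fun x y => K x y + ε * J L x y)) (hAC : C ≤ A) (hAC' : C' ≤ A) (m ν : ℝ) :
    pr A K ν - (ν - m) ^ 2 / (2 * ε) ≤ pr A (fun x y => K x y + ε * J L x y) m := by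
  set r : ℝ := (ν - m) / ε with hr
  have hν : ν = m + ε * r := by rw [hr]; field_simp; ring
  have hq : (ν - m) ^ 2 / (2 * ε) = ε / 2 * r ^ 2 := by rw [hr]; field_simp
  have hlim : Tendsto (fun ℓ : ℝ => lpf A K ν ℓ / ℓ ^ 3 - ε / 2 * r ^ 2 * (1 + 2 * L * ℓ⁻¹) ^ 3)
      atTop (𝓝 (pr A K ν - (ν - m) ^ 2 / (2 * ε))) := by
    have h1 : Tendsto (fun ℓ : ℝ => ε / 2 * r ^ 2 * (1 + 2 * L * ℓ⁻¹) ^ 3) atTop
        (𝓝 (ε / 2 * r ^ 2 * (1 + 2 * L * 0) ^ 3)) :=
      ((tendsto_const_nhds.add (tendsto_inv_atTop_zero.const_mul (2 * L))).pow 3).const_mul _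
    have h2 := (tendsto_lpf hK hAC ν).sub h1
    rw [hq]
    simpa using h2
  refine le_pr_of_eventually hK' hAC' m hlim ?_
  filter_upwards [eventually_gt_atTop (0 : ℝ)] with ℓ hℓ
  have hmain : lpf A K ν ℓ - ε / 2 * r ^ 2 * (ℓ + 2 * L) ^ 3 ≤
      lpf A (fun x y => K x y + ε * J L x y) m ℓ := by
    rw [sub_le_iff_le_add]
    refine lpf_le_of_le hK hAC ν hℓ.le ?_
    rw [Real.exp_add, ENNReal.ofReal_mul (Real.exp_pos _).le, exp_lpf hK' hAC' m hℓ.le, mul_comm]
    refine Xi_restrict_le_of_exponent_le (volume : Measure E) _ _ ν m _ (box ℓ)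
      (measurableSet_box ℓ) (fun N x hx => ?_)
    rw [dsum_vpot, dsum_vpot, dsum_add, dsum_const_mul]
    have h1 := J_lower L hL ℓ hℓ.le r N x hx
    have h2 : ε / 2 * (2 * r * N - r ^ 2 * (ℓ + 2 * L) ^ 3) ≤ ε / 2 * dsum (J L) x :=
      mul_le_mul_of_nonneg_left h1 (by positivity)
    rw [hν]
    nlinarith
  have h3 : (ℓ + 2 * L) ^ 3 = (1 + 2 * L * ℓ⁻¹) ^ 3 * ℓ ^ 3 := by
    rw [← mul_pow]
    congr 1
    field_simp
  rw [le_div_iff₀ (by positivity), sub_mul, div_mul_cancel₀ _ (by positivity)]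
  rw [h3] at hmain
  linarith

end gas

end Vale.Agent.P171
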