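import Mathlib

/-!
Task C: real analysis.
-/

namespace Vale.Agent.P171

open Set Filter Topology

/-- a convex function touched from above by a parabola -/
theorem touch (p : ℝ → ℝ) (hc : ConvexOn ℝ univ p) (ε m q ν₀ : ℝ) (hε : 0 < ε)
    (hle : ∀ ν, p ν ≤ q + (ν - m) ^ 2 / (2 * ε)) (heq : p ν₀ = q + (ν₀ - m) ^ 2 / (2 * ε)) (ν : ℝ) :
    p ν₀ + ((ν₀ - m) / ε) * (ν - ν₀) ≤ p ν := by
  -- for every s > 0 the inequality holds with an error s h^2 / (2 ε)
  have key : ∀ s : ℝ, 0 < s →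
      p ν₀ + ((ν₀ - m) / ε) * (ν - ν₀) - s * ((ν - ν₀) ^ 2 / (2 * ε)) ≤ p ν := by
    intro s hs
    have h1 := hc.2 (mem_univ (ν₀ - s * (ν - ν₀))) (mem_univ ν)
      (show (0 : ℝ) ≤ 1 / (1 + s) by positivity) (show (0 : ℝ) ≤ s / (1 + s) by positivity)
      (by field_simp)
    have h2 : (1 / (1 + s)) • (ν₀ - s * (ν - ν₀)) + (s / (1 + s)) • ν = ν₀ := by
      simp only [smul_eq_mul]; field_simp; ring
    rw [h2] at h1
    simp only [smul_eq_mul] at h1
    have h3 := hle (ν₀ - s * (ν - ν₀))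
    have h4 : (1 + s) * p ν₀ ≤ p (ν₀ - s * (ν - ν₀)) + s * p ν := by
      have := mul_le_mul_of_nonneg_left h1 (show (0 : ℝ) ≤ 1 + s by positivity)
      calc (1 + s) * p ν₀ ≤ _ := this
        _ = _ := by field_simp
    have h5 : q + (ν₀ - s * (ν - ν₀) - m) ^ 2 / (2 * ε)
        = p ν₀ - s * ((ν₀ - m) / ε * (ν - ν₀)) + s * (s * ((ν - ν₀) ^ 2 / (2 * ε))) := by
      rw [heq]; field_simp; ring
    rw [h5] at h3
    have h6 : s * (p ν₀ + ((ν₀ - m) / ε) * (ν - ν₀) - s * ((ν - ν₀) ^ 2 / (2 * ε))) ≤ s * p ν := by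
      nlinarith
    exact le_of_mul_le_mul_left h6 hs
  by_contra hcon
  push Not at hcon
  set K := (ν - ν₀) ^ 2 / (2 * ε) with hK
  have hK0 : 0 ≤ K := by positivity
  set d := p ν₀ + ((ν₀ - m) / ε) * (ν - ν₀) - p ν with hd
  have hd0 : 0 < d := by simp only [hd]; linarith
  have := key (d / (2 * (K + 1))) (by positivity)
  have h7 : d / (2 * (K + 1)) * K < d := by
    rw [div_mul_eq_mul_div, div_lt_iff₀ (by positivity)]
    nlinarith
  linarith

/-- maximisers of a coercive family of functions -/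
theorem exists_max (p : ℝ → ℝ) (hcont : Continuous p) (ε C κ : ℝ) (_hε : 0 < ε)
    (hgrow : ∀ ν, p ν ≤ C + κ * ν ^ 2) (hκ : κ < 1 / (2 * ε)) (S : Set ℝ) (hS : IsClosed S)
    (μ : ℝ) (hμ : μ ∈ S) (y : ℝ) :
    ∃ ν ∈ S, ∀ ν' ∈ S, p ν' - ν' ^ 2 / (2 * ε) + ν' * y ≤ p ν - ν ^ 2 / (2 * ε) + ν * y := by
  set f : ℝ → ℝ := fun ν => p ν - ν ^ 2 / (2 * ε) + ν * y with hf
  have hfc : ContinuousOn f S := by
    apply Continuous.continuousOn
    fun_prop
  set δ := 1 / (2 * ε) - κ with hδ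
  have hδ0 : 0 < δ := by simp only [hδ]; linarith
  -- outside a large ball f is below f μ
  set B : ℝ := max 1 ((|C| + |y| + |f μ| + 1) / δ) with hB
  have hB1 : 1 ≤ B := le_max_left _ _
  have hB2 : (|C| + |y| + |f μ| + 1) / δ ≤ B := le_max_right _ _
  have hB3 : |C| + |y| + |f μ| + 1 ≤ B * δ := by
    rwa [div_le_iff₀ hδ0] at hB2
  have hout : ∀ ν : ℝ, B < |ν| → f ν ≤ f μ := by
    intro ν hν
    have h1 : 1 < |ν| := lt_of_le_of_lt hB1 hν
    have h2 : f ν ≤ C - δ * ν ^ 2 + ν * y := by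
      simp only [hf, hδ]
      have := hgrow ν
      have h3 : ν ^ 2 / (2 * ε) = 1 / (2 * ε) * ν ^ 2 := by ring
      rw [h3]; linarith
    have h3 : ν * y ≤ |ν| * |y| := by
      calc ν * y ≤ |ν * y| := le_abs_self _
        _ = |ν| * |y| := abs_mul _ _
    have h4 : ν ^ 2 = |ν| * |ν| := by rw [← sq, sq_abs]
    have h5 : (|C| + |y| + |f μ| + 1) * |ν| ≤ δ * (|ν| * |ν|) := by
      have : |C| + |y| + |f μ| + 1 ≤ |ν| * δ := le_trans hB3 (by gcongr)
      calc (|C| + |y| + |f μ| + 1) * |ν| ≤ (|ν| * δ) * |ν| := by gcongr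
        _ = δ * (|ν| * |ν|) := by ring
    have h6 : C ≤ |C| := le_abs_self C
    have h7 : -|f μ| ≤ f μ := neg_abs_le _
    have h8 : 0 ≤ |C| := abs_nonneg _
    have h9 : 0 ≤ |f μ| := abs_nonneg _
    have h10 : 0 ≤ |y| := abs_nonneg _
    rw [h4] at h2
    nlinarith
  have hmax := ContinuousOn.exists_isMaxOn' hfc hS hμ (by
    rw [Filter.eventually_inf_principal]
    rw [← Metric.cobounded_eq_cocompact]
    have : ∀ᶠ ν in Bornology.cobounded ℝ, B < |ν| := by
      have := tendsto_norm_cobounded_atTop (E := ℝ)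
      exact (this.eventually_gt_atTop B)
    filter_upwards [this] with ν hν _ using hout ν hν)
  obtain ⟨ν, hνS, hν⟩ := hmax
  exact ⟨ν, hνS, fun ν' hν' => hν hν'⟩

/-- the existence of the point with two maximisers on both sides -/
theorem exists_tie (p : ℝ → ℝ) (hc : ConvexOn ℝ univ p) (hm : Monotone p) (ε C κ : ℝ) (hε : 0 < ε)
    (hgrow : ∀ ν, p ν ≤ C + κ * ν ^ 2) (hκ0 : 0 ≤ κ) (hκ : κ < 1 / (2 * ε)) (μ : ℝ) :
    ∃ m q a b : ℝ, 0 ≤ a ∧ 0 ≤ b ∧ (∀ ν, p ν ≤ q + (ν - m) ^ 2 / (2 * ε)) ∧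
      p (μ - a) = q + (μ - a - m) ^ 2 / (2 * ε) ∧ p (μ + b) = q + (μ + b - m) ^ 2 / (2 * ε) := by
  have hcont : Continuous p := by
    rw [← continuousOn_univ]
    exact hc.continuousOn isOpen_univ
  have hmaxR := fun y => exists_max p hcont ε C κ hε hgrow hκ (Ici μ) isClosed_Ici μ
    (mem_Ici.mpr le_rfl) y
  have hmaxL := fun y => exists_max p hcont ε C κ hε hgrow hκ (Iic μ) isClosed_Iic μ
    (mem_Iic.mpr le_rfl) y
  choose NR hNR1 hNR2 using hmaxR
  choose NL hNL1 hNL2 using hmaxL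
  set PR : ℝ → ℝ := fun y => p (NR y) - (NR y) ^ 2 / (2 * ε) + NR y * y with hPR
  set PL : ℝ → ℝ := fun y => p (NL y) - (NL y) ^ 2 / (2 * ε) + NL y * y with hPL
  have hcvR : ConvexOn ℝ univ PR := by
    refine ⟨convex_univ, ?_⟩
    intro y1 _ y2 _ s t hs ht hst
    have h1 := hNR2 y1 (NR (s • y1 + t • y2)) (hNR1 _)
    have h2 := hNR2 y2 (NR (s • y1 + t • y2)) (hNR1 _)
    simp only [hPR, smul_eq_mul] at *
    have h3 := mul_le_mul_of_nonneg_left h1 hs
    have h4 := mul_le_mul_of_nonneg_left h2 ht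
    have ht' : t = 1 - s := by linarith
    subst ht'
    nlinarith
  have hcvL : ConvexOn ℝ univ PL := by
    refine ⟨convex_univ, ?_⟩
    intro y1 _ y2 _ s t hs ht hst
    have h1 := hNL2 y1 (NL (s • y1 + t • y2)) (hNL1 _)
    have h2 := hNL2 y2 (NL (s • y1 + t • y2)) (hNL1 _)
    simp only [hPL, smul_eq_mul] at *
    have h3 := mul_le_mul_of_nonneg_left h1 hs
    have h4 := mul_le_mul_of_nonneg_left h2 ht
    have ht' : t = 1 - s := by linarith
    subst ht'
    nlinarith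
  have hPRc : Continuous PR := by
    rw [← continuousOn_univ]; exact hcvR.continuousOn isOpen_univ
  have hPLc : Continuous PL := by
    rw [← continuousOn_univ]; exact hcvL.continuousOn isOpen_univ
  -- for y = μ / ε the left maximum is at most the right one
  have hA : PL (μ / ε) ≤ PR (μ / ε) := by
    have h1 : PL (μ / ε) ≤ p μ - μ ^ 2 / (2 * ε) + μ * (μ / ε) := by
      simp only [hPL]
      set x := NL (μ / ε)
      have hx : x ≤ μ := hNL1 (μ / ε)
      have hpx : p x ≤ p μ := hm hx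
      have : - x ^ 2 / (2 * ε) + x * (μ / ε) ≤ - μ ^ 2 / (2 * ε) + μ * (μ / ε) := by
        have : - μ ^ 2 / (2 * ε) + μ * (μ / ε) - (- x ^ 2 / (2 * ε) + x * (μ / ε))
            = (μ - x) ^ 2 / (2 * ε) := by field_simp; ring
        have h0 : 0 ≤ (μ - x) ^ 2 / (2 * ε) := by positivity
        linarith
      have e1 : - x ^ 2 / (2 * ε) = - (x ^ 2 / (2 * ε)) := by ring
      have e2 : - μ ^ 2 / (2 * ε) = - (μ ^ 2 / (2 * ε)) := by ring
      rw [e1, e2] at this
      linarith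
    exact le_trans h1 (hNR2 (μ / ε) μ (mem_Ici.mpr le_rfl))
  -- for very negative y the right maximum is at most the left one
  obtain ⟨y₀, hy₀⟩ : ∃ y₀, PR y₀ ≤ PL y₀ := by
    set L : ℝ := |p (μ + 1) - p μ| + (2 * κ * |μ| + κ * μ ^ 2 + |C| + |p μ|) with hL
    have hLin : ∀ ν, μ ≤ ν → p ν - p μ ≤ (ν - μ) ^ 2 / (2 * ε) + L * (ν - μ) := by
      intro ν hν
      rcases le_total ν (μ + 1) with h | h
      · -- convexity
        have h1 := hc.2 (mem_univ μ) (mem_univ (μ + 1)) (show (0 : ℝ) ≤ 1 - (ν - μ) by linarith)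
          (show (0 : ℝ) ≤ ν - μ by linarith) (by ring)
        have h2 : (1 - (ν - μ)) • μ + (ν - μ) • (μ + 1) = ν := by
          simp only [smul_eq_mul]; ring
        rw [h2] at h1
        simp only [smul_eq_mul] at h1
        have h3 : p ν - p μ ≤ (p (μ + 1) - p μ) * (ν - μ) := by linarith
        have h4 : (p (μ + 1) - p μ) * (ν - μ) ≤ |p (μ + 1) - p μ| * (ν - μ) :=
          mul_le_mul_of_nonneg_right (le_abs_self _) (by linarith)
        have h5 : 0 ≤ (ν - μ) ^ 2 / (2 * ε) := by positivity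
        have h6 : 0 ≤ (2 * κ * |μ| + κ * μ ^ 2 + |C| + |p μ|) * (ν - μ) := by
          apply mul_nonneg _ (by linarith)
          positivity
        simp only [hL]
        nlinarith
      · have h1 := hgrow ν
        set h' := ν - μ with hh'
        have hν' : ν = h' + μ := by simp only [hh']; ring
        have h1' : 1 ≤ h' := by simp only [hh']; linarith
        have h2 : κ * ν ^ 2 = κ * h' ^ 2 + 2 * κ * μ * h' + κ * μ ^ 2 := by rw [hν']; ring
        have h3 : κ * h' ^ 2 ≤ h' ^ 2 / (2 * ε) := by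
          have : h' ^ 2 / (2 * ε) = 1 / (2 * ε) * h' ^ 2 := by ring
          rw [this]
          exact mul_le_mul_of_nonneg_right hκ.le (by positivity)
        have h4 : 2 * κ * μ * h' ≤ 2 * κ * |μ| * h' := by
          have : μ ≤ |μ| := le_abs_self _
          gcongr
        have h5 : κ * μ ^ 2 ≤ κ * μ ^ 2 * h' := by
          have : 0 ≤ κ * μ ^ 2 := by positivity
          nlinarith
        have h6 : C ≤ |C| * h' := by
          have : C ≤ |C| := le_abs_self _
          have h0 : 0 ≤ |C| := abs_nonneg _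
          nlinarith
        have h7 : - p μ ≤ |p μ| * h' := by
          have : - p μ ≤ |p μ| := neg_le_abs _
          have h0 : 0 ≤ |p μ| := abs_nonneg _
          nlinarith
        have h8 : 0 ≤ |p (μ + 1) - p μ| * h' := by positivity
        simp only [hL]
        nlinarith
    refine ⟨(μ - ε * L) / ε, ?_⟩
    set y := (μ - ε * L) / ε with hy
    have hyε : y * ε = μ - ε * L := by rw [hy]; field_simp
    have h1 : PR y ≤ p μ - μ ^ 2 / (2 * ε) + μ * y := by
      simp only [hPR]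
      set x := NR y
      have hx : μ ≤ x := hNR1 y
      have h2 := hLin x hx
      have h3 : p μ - μ ^ 2 / (2 * ε) + μ * y - (p x - x ^ 2 / (2 * ε) + x * y)
          = - (p x - p μ) + (x - μ) ^ 2 / (2 * ε) + L * (x - μ)
            + (x - μ) * (μ - ε * L - y * ε) / ε := by
        field_simp; ring
      rw [hyε] at h3
      have h4 : (x - μ) * (μ - ε * L - (μ - ε * L)) / ε = 0 := by
        rw [sub_self, mul_zero, zero_div]
      rw [h4] at h3
      linarith
    exact le_trans h1 (hNL2 y μ (mem_Iic.mpr le_rfl))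
  obtain ⟨y, hy⟩ : ∃ y, PR y = PL y := by
    have h := mem_range_of_exists_le_of_exists_ge (c := (0 : ℝ)) (f := fun y => PR y - PL y)
      (hPRc.sub hPLc) ⟨y₀, by linarith⟩ ⟨μ / ε, by linarith⟩
    obtain ⟨y, hy⟩ := h
    exact ⟨y, by linarith⟩
  have hyy : ∀ ν, (ν - ε * y) ^ 2 / (2 * ε) = ν ^ 2 / (2 * ε) - ν * y + ε * y ^ 2 / 2 := by
    intro ν; field_simp; ring
  refine ⟨ε * y, PR y - ε * y ^ 2 / 2, μ - NL y, NR y - μ, ?_, ?_, ?_, ?_, ?_⟩
  · have := hNL1 y; rw [mem_Iic] at this; linarith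
  · have := hNR1 y; rw [mem_Ici] at this; linarith
  · intro ν
    rw [hyy ν]
    rcases le_total μ ν with h | h
    · have := hNR2 y ν h
      simp only [hPR]; linarith
    · have := hNL2 y ν h
      rw [hy]
      simp only [hPL]; linarith
  · rw [show μ - (μ - NL y) = NL y by ring, hyy, hy]
    simp only [hPL]; ring
  · rw [show μ + (NR y - μ) = NR y by ring, hyy]
    simp only [hPR]; ring


/-- (C1) Sharpening lemma. If the convex nondecreasing function p has a quasi-kink at μ with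
additive error e, then its sup-convolution with the parabola has an exact kink at some μ' ≤ μ.
The value of the sup-convolution at μ' is q. -/
theorem sharpen (p : ℝ → ℝ) (hc : ConvexOn ℝ univ p) (hm : Monotone p) (ε C κ : ℝ) (hε : 0 < ε)
    (hgrow : ∀ ν, p ν ≤ C + κ * ν ^ 2) (hκ0 : 0 ≤ κ) (hκ : κ < 1 / (2 * ε)) (μ ρ₁ ρ₂ e : ℝ)
    (he0 : 0 ≤ e) (hΔ : ρ₁ < ρ₂) (he : e ≤ 3 / 32 * ε * (ρ₂ - ρ₁) ^ 2)
    (hp : ∀ t, 0 ≤ t → p μ + ρ₂ * t - e ≤ p (μ + t))
    (hq : ∀ t, 0 ≤ t → p μ - ρ₁ * t - e ≤ p (μ - t)) :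
    ∃ μ' q : ℝ, μ' ≤ μ ∧ (∀ ν, p ν - (ν - μ') ^ 2 / (2 * ε) ≤ q) ∧
      ∀ t, 0 ≤ t →
        (∃ ν, q + (ρ₂ - 4 * e / (ε * (ρ₂ - ρ₁))) * t ≤ p ν - (ν - (μ' + t)) ^ 2 / (2 * ε)) ∧
        (∃ ν, q - (ρ₁ + 4 * e / (ε * (ρ₂ - ρ₁))) * t ≤ p ν - (ν - (μ' - t)) ^ 2 / (2 * ε)) := by
  obtain ⟨m, q, a, b, ha, hb, hall, hpa, hpb⟩ :=
    exists_tie p hc hm ε C κ hε hgrow hκ0 hκ μ
  have subA := touch p hc ε m q (μ - a) hε hall hpa
  have subB := touch p hc ε m q (μ + b) hε hall hpb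
  set Δ := ρ₂ - ρ₁ with hΔd
  have hΔ0 : 0 < Δ := by simp only [hΔd]; linarith
  set s := (μ - m) / ε with hs
  have hm' : m = μ - s * ε := by rw [hs]; field_simp; ring
  -- the gap
  set g := q - (p μ - (μ - m) ^ 2 / (2 * ε)) with hg
  have hg1 : ∀ t, 0 ≤ t → (ρ₂ - s) * t - e - t ^ 2 / (2 * ε) ≤ g := by
    intro t ht
    have h1 := hp t ht
    have h2 := hall (μ + t)
    have h3 : (μ + t - m) ^ 2 / (2 * ε) = (μ - m) ^ 2 / (2 * ε) + t * s + t ^ 2 / (2 * ε) := by
      rw [hs]; field_simp; ring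
    rw [h3] at h2
    simp only [hg]; linarith
  have hg2 : ∀ t, 0 ≤ t → (s - ρ₁) * t - e - t ^ 2 / (2 * ε) ≤ g := by
    intro t ht
    have h1 := hq t ht
    have h2 := hall (μ - t)
    have h3 : (μ - t - m) ^ 2 / (2 * ε) = (μ - m) ^ 2 / (2 * ε) - t * s + t ^ 2 / (2 * ε) := by
      rw [hs]; field_simp; ring
    rw [h3] at h2
    simp only [hg]; linarith
  have hgap : ε * Δ ^ 2 / 8 - e ≤ g := by
    rcases le_total (Δ / 2) (ρ₂ - s) with h | h
    · have h1 := hg1 (ε * (Δ / 2)) (by positivity)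
      have h2 : (ε * (Δ / 2)) ^ 2 / (2 * ε) = ε * Δ ^ 2 / 8 := by field_simp; ring
      rw [h2] at h1
      have h3 : (Δ / 2) * (ε * (Δ / 2)) ≤ (ρ₂ - s) * (ε * (Δ / 2)) :=
        mul_le_mul_of_nonneg_right h (by positivity)
      nlinarith
    · have h' : Δ / 2 ≤ s - ρ₁ := by simp only [hΔd] at h ⊢; linarith
      have h1 := hg2 (ε * (Δ / 2)) (by positivity)
      have h2 : (ε * (Δ / 2)) ^ 2 / (2 * ε) = ε * Δ ^ 2 / 8 := by field_simp; ring
      rw [h2] at h1
      have h3 : (Δ / 2) * (ε * (Δ / 2)) ≤ (s - ρ₁) * (ε * (Δ / 2)) :=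
        mul_le_mul_of_nonneg_right h' (by positivity)
      nlinarith
  have hgapp : ε * Δ ^ 2 / 32 ≤ g := by
    have : ε * Δ ^ 2 / 32 = ε * Δ ^ 2 / 8 - 3 / 32 * ε * Δ ^ 2 := by ring
    linarith
  -- upper bounds of the gap
  have hgb : g ≤ b ^ 2 / (2 * ε) := by
    have h1 := subB μ
    have h3 : (μ + b - m) ^ 2 / (2 * ε) = (μ - m) ^ 2 / (2 * ε) + b * s + b ^ 2 / (2 * ε) := by
      rw [hs]; field_simp; ring
    have h4 : (μ + b - m) / ε * (μ - (μ + b)) = - (s * b) - 2 * (b ^ 2 / (2 * ε)) := by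
      rw [hs]; field_simp; ring
    rw [h4] at h1
    rw [h3] at hpb
    simp only [hg]; linarith
  have hga : g ≤ a ^ 2 / (2 * ε) := by
    have h1 := subA μ
    have h3 : (μ - a - m) ^ 2 / (2 * ε) = (μ - m) ^ 2 / (2 * ε) - a * s + a ^ 2 / (2 * ε) := by
      rw [hs]; field_simp; ring
    have h4 : (μ - a - m) / ε * (μ - (μ - a)) = s * a - 2 * (a ^ 2 / (2 * ε)) := by
      rw [hs]; field_simp; ring
    rw [h4] at h1
    rw [h3] at hpa
    simp only [hg]; linarith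
  have hlow : ∀ c : ℝ, 0 ≤ c → g ≤ c ^ 2 / (2 * ε) → ε * Δ / 4 ≤ c := by
    intro c hc0 hcg
    have h1 : ε * Δ ^ 2 / 32 ≤ c ^ 2 / (2 * ε) := le_trans hgapp hcg
    rw [le_div_iff₀ (by positivity)] at h1
    have h2 : (ε * Δ / 4) ^ 2 ≤ c ^ 2 := by
      calc (ε * Δ / 4) ^ 2 = ε * Δ ^ 2 / 32 * (2 * ε) := by ring
        _ ≤ c ^ 2 := h1
    exact (pow_le_pow_iff_left₀ (by positivity) hc0 (by norm_num)).mp h2
  have hb' := hlow b hb hgb
  have ha' := hlow a ha hga
  have hεΔ : 0 < ε * Δ := by positivity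
  have hb0 : 0 < b := by linarith
  have ha0 : 0 < a := by linarith
  have hfrac : ∀ c : ℝ, ε * Δ / 4 ≤ c → e / c ≤ 4 * e / (ε * Δ) := by
    intro c hc0
    have hc1 : 0 < c := by linarith
    rw [div_le_div_iff₀ hc1 hεΔ]
    nlinarith
  -- slopes
  set rp := (μ + b - m) / ε with hrp
  set rm := (μ - a - m) / ε with hrm
  have hrpge : ρ₂ - 4 * e / (ε * Δ) ≤ rp := by
    have h1 := hp b hb
    have h2 := subB μ
    have h3 : ρ₂ * b - e ≤ rp * b := by
      have : rp * (μ - (μ + b)) = - (rp * b) := by ring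
      rw [this] at h2; linarith
    have h4 : ρ₂ - e / b ≤ rp := by
      have : (ρ₂ - e / b) * b ≤ rp * b := by
        rw [sub_mul, div_mul_cancel₀ _ hb0.ne']; exact h3
      exact le_of_mul_le_mul_right this hb0
    have := hfrac b hb'
    linarith
  have hrmle : rm ≤ ρ₁ + 4 * e / (ε * Δ) := by
    have h1 := hq a ha
    have h2 := subA μ
    have h3 : rm * a ≤ ρ₁ * a + e := by
      have : rm * (μ - (μ - a)) = rm * a := by ring
      rw [this] at h2; linarith
    have h4 : rm ≤ ρ₁ + e / a := by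
      have : rm * a ≤ (ρ₁ + e / a) * a := by
        rw [add_mul, div_mul_cancel₀ _ ha0.ne']; exact h3
      exact le_of_mul_le_mul_right this ha0
    have := hfrac a ha'
    linarith
  have hrm0 : 0 ≤ rm := by
    have h1 := subA (μ - a - 1)
    have h2 : p (μ - a - 1) ≤ p (μ - a) := hm (by linarith)
    have : rm * (μ - a - 1 - (μ - a)) = - rm := by ring
    rw [this] at h1
    linarith
  refine ⟨m, q, ?_, ?_, ?_⟩
  · have h1 : rm * ε = μ - a - m := by rw [hrm]; field_simp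
    have h2 : 0 ≤ rm * ε := by positivity
    linarith
  · intro ν
    have := hall ν
    linarith
  · intro t ht
    constructor
    · refine ⟨μ + b + t, ?_⟩
      have h1 := subB (μ + b + t)
      have h2 : rp * (μ + b + t - (μ + b)) = rp * t := by ring
      rw [h2] at h1
      have h3 : (μ + b + t - (m + t)) ^ 2 / (2 * ε) = (μ + b - m) ^ 2 / (2 * ε) := by
        congr 2; ring
      rw [h3]
      have h4 := mul_le_mul_of_nonneg_right hrpge ht
      linarith
    · refine ⟨μ - a - t, ?_⟩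
      have h1 := subA (μ - a - t)
      have h2 : rm * (μ - a - t - (μ - a)) = - (rm * t) := by ring
      rw [h2] at h1
      have h3 : (μ - a - t - (m - t)) ^ 2 / (2 * ε) = (μ - a - m) ^ 2 / (2 * ε) := by
        congr 2; ring
      rw [h3]
      have h4 := mul_le_mul_of_nonneg_right hrmle ht
      linarith

/-- (C2) Passage to the limit. -/
theorem limit_kink (P : ℕ → ℝ → ℝ) (p : ℝ → ℝ) (hpc : ConvexOn ℝ univ p)
    (hmono : ∀ n, Monotone (P n)) (hle : ∀ n x, P n x ≤ p x)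
    (hlim : ∀ x, Tendsto (fun n => P n x) atTop (𝓝 (p x)))
    (μ e : ℕ → ℝ) (hμ : Antitone μ) (he : Tendsto e atTop (𝓝 0)) (ρ₁ ρ₂ : ℝ) (hρ : ρ₁ < ρ₂)
    (hρ₂ : 0 < ρ₂) (hbot : Tendsto p atBot (𝓝 0)) (hnn : ∀ n x, 0 ≤ P n x)
    (h1 : ∀ n, ∀ t, 0 ≤ t → P n (μ n) + ρ₂ * t - e n ≤ P n (μ n + t))
    (h2 : ∀ n, ∀ t, 0 ≤ t → P n (μ n) - ρ₁ * t - e n ≤ P n (μ n - t)) :
    ∃ μ₀, ¬ DifferentiableAt ℝ p μ₀ := by
  have hcont : Continuous p := by
    rw [← continuousOn_univ]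
    exact hpc.continuousOn isOpen_univ
  -- limits along converging sequences of points
  have hseq : ∀ (x : ℕ → ℝ) (x₀ : ℝ), Tendsto x atTop (𝓝 x₀) →
      Tendsto (fun n => P n (x n)) atTop (𝓝 (p x₀)) := by
    intro x x₀ hx
    rw [Metric.tendsto_atTop]
    intro δ hδ
    obtain ⟨r, hr, hr'⟩ := Metric.continuous_iff.mp hcont x₀ (δ / 2) (by positivity)
    have ha := hr' (x₀ + r / 2) (by rw [Real.dist_eq]; rw [abs_lt]; constructor <;> linarith)
    have hb := hr' (x₀ - r / 2) (by rw [Real.dist_eq]; rw [abs_lt]; constructor <;> linarith)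
    rw [Real.dist_eq, abs_lt] at ha hb
    obtain ⟨N1, hN1⟩ := Metric.tendsto_atTop.mp hx (r / 2) (by positivity)
    obtain ⟨N2, hN2⟩ := Metric.tendsto_atTop.mp (hlim (x₀ + r / 2)) (δ / 2) (by positivity)
    obtain ⟨N3, hN3⟩ := Metric.tendsto_atTop.mp (hlim (x₀ - r / 2)) (δ / 2) (by positivity)
    refine ⟨max N1 (max N2 N3), fun n hn => ?_⟩
    have hn1 := hN1 n (le_trans (le_max_left _ _) hn)
    have hn2 := hN2 n (le_trans (le_trans (le_max_left _ _) (le_max_right _ _)) hn)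
    have hn3 := hN3 n (le_trans (le_trans (le_max_right _ _) (le_max_right _ _)) hn)
    rw [Real.dist_eq, abs_lt] at hn1 hn2 hn3 ⊢
    have hu : P n (x n) ≤ P n (x₀ + r / 2) := hmono n (by linarith)
    have hl : P n (x₀ - r / 2) ≤ P n (x n) := hmono n (by linarith)
    constructor <;> linarith
  -- the sequence μ converges
  obtain ⟨μ₀, hμ₀⟩ : ∃ μ₀, Tendsto μ atTop (𝓝 μ₀) := by
    rcases tendsto_atTop_of_antitone hμ with h | h
    · exfalso
      have hA : ∀ n, ρ₂ - e n ≤ p (μ n + 1) := by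
        intro n
        have := h1 n 1 (by norm_num)
        have h0 := hnn n (μ n)
        have h3 := hle n (μ n + 1)
        linarith
      have hB : Tendsto (fun n => p (μ n + 1)) atTop (𝓝 0) :=
        hbot.comp (tendsto_atBot_add_const_right _ _ h)
      have hC : Tendsto (fun n => ρ₂ - e n) atTop (𝓝 (ρ₂ - 0)) := tendsto_const_nhds.sub he
      have := le_of_tendsto_of_tendsto' hC hB hA
      linarith
    · exact h
  have hr : ∀ t, 0 ≤ t → p μ₀ + ρ₂ * t ≤ p (μ₀ + t) := by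
    intro t ht
    have hA : Tendsto (fun n => P n (μ n) + ρ₂ * t - e n) atTop (𝓝 (p μ₀ + ρ₂ * t - 0)) :=
      ((hseq μ μ₀ hμ₀).add tendsto_const_nhds).sub he
    have hB : Tendsto (fun n => P n (μ n + t)) atTop (𝓝 (p (μ₀ + t))) :=
      hseq (fun n => μ n + t) (μ₀ + t) (hμ₀.add tendsto_const_nhds)
    have := le_of_tendsto_of_tendsto' hA hB (fun n => h1 n t ht)
    linarith
  have hl : ∀ t, 0 ≤ t → p μ₀ - ρ₁ * t ≤ p (μ₀ - t) := by
    intro t ht
    have hA : Tendsto (fun n => P n (μ n) - ρ₁ * t - e n) atTop (𝓝 (p μ₀ - ρ₁ * t - 0)) :=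
      ((hseq μ μ₀ hμ₀).sub tendsto_const_nhds).sub he
    have hB : Tendsto (fun n => P n (μ n - t)) atTop (𝓝 (p (μ₀ - t))) :=
      hseq (fun n => μ n - t) (μ₀ - t) (hμ₀.sub tendsto_const_nhds)
    have := le_of_tendsto_of_tendsto' hA hB (fun n => h2 n t ht)
    linarith
  refine ⟨μ₀, fun hd => ?_⟩
  have hder := hd.hasDerivAt
  have hslope := hasDerivAt_iff_tendsto_slope.mp hder
  -- right slope
  have hR : ρ₂ ≤ deriv p μ₀ := by
    have h3 : Tendsto (slope p μ₀) (𝓝[>] μ₀) (𝓝 (deriv p μ₀)) :=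
      hslope.mono_left (nhdsWithin_mono _ (fun x hx => ne_of_gt hx))
    refine ge_of_tendsto h3 ?_
    filter_upwards [self_mem_nhdsWithin] with x hx
    have hx' : 0 < x - μ₀ := sub_pos.mpr hx
    have := hr (x - μ₀) hx'.le
    rw [show μ₀ + (x - μ₀) = x by ring] at this
    rw [slope_def_field, le_div_iff₀ hx']
    linarith
  have hL : deriv p μ₀ ≤ ρ₁ := by
    have h3 : Tendsto (slope p μ₀) (𝓝[<] μ₀) (𝓝 (deriv p μ₀)) :=
      hslope.mono_left (nhdsWithin_mono _ (fun x hx => ne_of_lt hx))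
    refine le_of_tendsto h3 ?_
    filter_upwards [self_mem_nhdsWithin] with x hx
    have hx' : x - μ₀ < 0 := sub_neg.mpr hx
    have := hl (μ₀ - x) (by linarith)
    rw [show μ₀ - (μ₀ - x) = x by ring] at this
    rw [slope_def_field, div_le_iff_of_neg hx']
    linarith
  linarith

/-- (C3) a pressure which is not differentiable in the chemical potential is not differentiable
in the activity -/
theorem not_differentiable_activity (p : ℝ → ℝ) (c μ₀ : ℝ) (h : ¬ DifferentiableAt ℝ p μ₀) :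
    ∃ z₀ : ℝ, 0 < z₀ ∧ ¬ DifferentiableAt ℝ (fun z => p (Real.log z + c)) z₀ := by
  refine ⟨Real.exp (μ₀ - c), Real.exp_pos _, fun hd => h ?_⟩
  have h1 : DifferentiableAt ℝ (fun m : ℝ => Real.exp (m - c)) μ₀ := by fun_prop
  have h2 := DifferentiableAt.comp (f := fun m : ℝ => Real.exp (m - c)) μ₀ hd h1
  have h3 : (fun z => p (Real.log z + c)) ∘ (fun m : ℝ => Real.exp (m - c)) = p := by
    funext m
    simp
  rwa [h3] at h2

end Vale.Agent.P171
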