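import Vale.Agent.P171.LP
import Vale.Agent.P171.Sharpen

/-!
The multi-scale construction.
-/

namespace Vale.Agent.P171

open MeasureTheory Set Filter Topology
open scoped ENNReal NNReal BigOperators

/-- strength of the soft core -/
noncomputable def Acore : ℝ := 20000000

/-- strength of the n-th attractive part -/
noncomputable def eps (n : ℕ) : ℝ := 8192 * (1 / 2) ^ n

noncomputable def err (n : ℕ) : ℝ := (1 / 4) ^ n

noncomputable def rone (n : ℕ) : ℝ := 1 / 64 * (1 - (1 / 2) ^ n)

noncomputable def rtwo (n : ℕ) : ℝ := 1 / 8 - rone n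

noncomputable def Cst (n : ℕ) : ℝ := 8388608 * (1 - (1 / 2) ^ n)

theorem half_pow_pos (n : ℕ) : (0 : ℝ) < (1 / 2) ^ n := by positivity

theorem half_pow_le (n : ℕ) : ((1 : ℝ) / 2) ^ n ≤ 1 := pow_le_one₀ (by norm_num) (by norm_num)

theorem Cst_nonneg (n : ℕ) : 0 ≤ Cst n := by
  unfold Cst
  have := half_pow_le n
  nlinarith

theorem Cst_le (n : ℕ) : Cst n ≤ 8388608 := by
  unfold Cst
  have := half_pow_pos n
  nlinarith

theorem Cst_succ (n : ℕ) : Cst (n + 1) = Cst n + 512 * eps n := by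
  unfold Cst eps
  rw [pow_succ]
  ring

theorem eps_pos (n : ℕ) : 0 < eps n := by unfold eps; positivity

theorem eps_le (n : ℕ) : eps n ≤ 8192 := by
  unfold eps
  have := half_pow_le n
  linarith

/-- quasi-kink property -/
def QK (p : ℝ → ℝ) (μ ρ₁ ρ₂ e : ℝ) : Prop :=
  (∀ t, 0 ≤ t → p μ + ρ₂ * t - e ≤ p (μ + t)) ∧ (∀ t, 0 ≤ t → p μ - ρ₁ * t - e ≤ p (μ - t))

/-- stage n of the construction -/
def Stage (n : ℕ) (K : E → E → ℝ) (μ : ℝ) : Prop :=
  (∃ R, 0 < R ∧ Good R (Cst n) K) ∧ QK (pr Acore K) μ (rone n) (rtwo n) (err n)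

theorem good_zero : Good 1 0 (fun _ _ => 0) := by
  refine ⟨measurable_const, fun _ _ => le_rfl, fun _ _ => rfl, fun _ _ _ => rfl,
    fun _ _ _ => rfl, fun N x => ?_⟩
  simp [dsum]

theorem pr_zero_le : pr Acore (fun _ _ => 0) (Acore / 2) ≤ 1 := by
  refine pr_le fun L hL => ?_
  rw [div_le_iff₀ (by positivity)]
  have hCA : (0 : ℝ) ≤ Acore := by unfold Acore; norm_num
  refine lpf_le_of_le good_zero.pre hCA _ hL.le ?_
  have := Xi_restrict_le_exp volume (vpot Acore fun _ _ => 0) (Acore / 2) 0 0 (box L)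
    (measurableSet_box L) (L ^ 3) (by positivity) (volume_box L hL.le) (fun N x hx => by
      rw [dsum_vpot]
      have h1 := near_diag N x
      have h2 : dsum (fun _ _ : E => (0 : ℝ)) x = 0 := by simp [dsum]
      rw [h2]
      nlinarith)
  refine this.trans (ENNReal.ofReal_le_ofReal (Real.exp_le_exp.2 ?_))
  rw [Real.exp_zero]
  have : L ^ 3 ≤ (L + 1) ^ 3 := pow_le_pow_left₀ hL.le (by linarith) 3
  linarith

theorem le_pr_zero (t : ℝ) : t / 8 ≤ pr Acore (fun _ _ => 0) (Acore / 2 + t) := by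
  have hCA : (0 : ℝ) ≤ Acore := by unfold Acore; norm_num
  have h1 : t ≤ lpf Acore (fun _ _ => 0) (Acore / 2 + t) 1 := by
    refine le_lpf_of_le good_zero.pre hCA _ zero_le_one ?_
    refine le_trans ?_ (term_le_Xi _ _ _ 1)
    have := le_cint_restrict (volume : Measure E) (vpot Acore fun _ _ => 0) (Acore / 2 + t) t
      (box 1) (measurableSet_box 1) 1 (fun x hx => by
        rw [dsum_vpot]
        have h2 : dsum (fun _ _ : E => (0 : ℝ)) x = 0 := by simp [dsum]
        have h3 : dsum near x = 1 := by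
          simp only [dsum, Finset.univ_unique, Finset.sum_singleton, near, dist_self]
          norm_num
        rw [h2, h3]
        push_cast
        linarith)
    rw [volume_box 1 zero_le_one] at this
    simpa using this
  have h2 := lpf_le_pr good_zero.pre hCA (Acore / 2 + t) one_pos
  norm_num at h2
  linarith

theorem stage_zero : Stage 0 (fun _ _ => 0) (Acore / 2) := by
  have hCA : (0 : ℝ) ≤ Acore := by unfold Acore; norm_num
  refine ⟨⟨1, one_pos, ?_⟩, fun t ht => ?_, fun t ht => ?_⟩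
  · have : Cst 0 = 0 := by simp [Cst]
    rw [this]
    exact good_zero
  · have h1 := pr_zero_le
    have h2 := le_pr_zero t
    simp only [rtwo, rone, err]
    norm_num
    linarith
  · have h1 := pr_zero_le
    have h2 := pr_nonneg good_zero.pre hCA (Acore / 2 - t)
    simp only [rone, err]
    norm_num
    linarith

theorem stage_step (n : ℕ) (K : E → E → ℝ) (μ : ℝ) (h : Stage n K μ) :
    ∃ L μ' : ℝ, 1 ≤ L ∧ μ' ≤ μ ∧ Stage (n + 1) (fun x y => K x y + eps n * J L x y) μ' := by
  obtain ⟨⟨R, hR, hK⟩, hp, hq⟩ := h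
  have hC0 := Cst_nonneg n
  have hC1 := Cst_le n
  have he0 := eps_pos n
  have he1 := eps_le n
  have hCA : Cst n ≤ Acore := by unfold Acore; linarith
  have hx0 := half_pow_pos n
  have hx1 := half_pow_le n
  have hgrow : ∀ ν, pr Acore K ν ≤ 1 + 1 / (4 * 8192) * ν ^ 2 := by
    intro ν
    have := pr_le_quadratic (A := Acore) hK.pre (a := 8192) (by norm_num)
      (by unfold Acore; linarith) ν
    refine this.trans (le_of_eq ?_)
    ring
  have hΔ : rone n < rtwo n := by
    unfold rtwo rone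
    linarith
  have hD : 3 / 32 ≤ rtwo n - rone n := by
    unfold rtwo rone
    linarith
  have herr : err n = (1 / 2) ^ n * (1 / 2) ^ n := by
    unfold err
    rw [← mul_pow]
    norm_num
  obtain ⟨μ', q, hμ', hq1, hq2⟩ := sharpen (pr Acore K) (pr_convexOn hK.pre hCA)
    (pr_mono hK.pre hCA) (eps n) 1 (1 / (4 * 8192)) he0 hgrow (by norm_num)
    (by
      rw [div_lt_div_iff₀ (by norm_num) (by positivity)]
      linarith) μ (rone n) (rtwo n) (err n) (by unfold err; positivity) hΔ
    (by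
      have h1 : (3 / 32) ^ 2 ≤ (rtwo n - rone n) ^ 2 := pow_le_pow_left₀ (by norm_num) hD 2
      have h2 : 3 / 32 * eps n * (3 / 32) ^ 2 ≤ 3 / 32 * eps n * (rtwo n - rone n) ^ 2 :=
        mul_le_mul_of_nonneg_left h1 (by positivity)
      refine le_trans ?_ h2
      rw [herr]
      unfold eps
      nlinarith) hp hq
  have hkap : 4 * err n / (eps n * (rtwo n - rone n)) ≤ 1 / 128 * (1 / 2) ^ n := by
    have hDpos : 0 < rtwo n - rone n := by linarith
    rw [div_le_iff₀ (by positivity), herr]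
    unfold eps
    have : 1 / 128 * (1 / 2) ^ n * (8192 * (1 / 2) ^ n * (3 / 32)) ≤
        1 / 128 * (1 / 2) ^ n * (8192 * (1 / 2) ^ n * (rtwo n - rone n)) := by
      gcongr
    nlinarith
  have hr1 : rone (n + 1) = rone n + 1 / 128 * (1 / 2) ^ n := by
    unfold rone
    rw [pow_succ]
    ring
  have hr2 : rtwo (n + 1) = rtwo n - 1 / 128 * (1 / 2) ^ n := by
    unfold rtwo
    rw [hr1]
    ring
  obtain ⟨L, hL1, hL⟩ := LP_upper (A := Acore) hR hK hC0 he0 (by unfold Acore; linarith)
    (by unfold Acore; linarith) hq1 (η := err (n + 1)) (by unfold err; positivity)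
  refine ⟨L, μ', hL1, hμ', ?_⟩
  have hgood := good_add_J hK he0.le hL1
  rw [← Cst_succ] at hgood
  have hCA' : Cst (n + 1) ≤ Acore := by
    have := Cst_le (n + 1)
    unfold Acore
    linarith
  have hLP := hL L le_rfl
  refine ⟨⟨max R (2 * L), lt_max_of_lt_left hR, hgood⟩, fun t ht => ?_, fun t ht => ?_⟩
  · obtain ⟨⟨ν, hν⟩, _⟩ := hq2 t ht
    have h1 := pr_add_J_ge hK.pre he0 (by linarith : 0 < L) hgood.pre hCA hCA' (μ' + t) ν
    have h2 : rtwo (n + 1) * t ≤ (rtwo n - 4 * err n / (eps n * (rtwo n - rone n))) * t := by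
      refine mul_le_mul_of_nonneg_right ?_ ht
      rw [hr2]
      linarith
    linarith
  · obtain ⟨_, ⟨ν, hν⟩⟩ := hq2 t ht
    have h1 := pr_add_J_ge hK.pre he0 (by linarith : 0 < L) hgood.pre hCA hCA' (μ' - t) ν
    have h2 : (rone n + 4 * err n / (eps n * (rtwo n - rone n))) * t ≤ rone (n + 1) * t := by
      refine mul_le_mul_of_nonneg_right ?_ ht
      rw [hr1]
      linarith
    linarith

/-- the sequence of stages -/
theorem exists_sequence : ∃ (Ls : ℕ → ℝ) (μ : ℕ → ℝ), (∀ n, 1 ≤ Ls n) ∧ Antitone μ ∧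
    ∀ n, Stage n (fun x y => ∑ k ∈ Finset.range n, eps k * J (Ls k) x y) (μ n) := by
  classical
  choose! nL nμ h1 h2 h3 using stage_step
  let seq : ℕ → (E → E → ℝ) × ℝ := fun n => Nat.rec (fun _ _ => 0, Acore / 2)
    (fun n s => (fun x y => s.1 x y + eps n * J (nL n s.1 s.2) x y, nμ n s.1 s.2)) n
  have hseq : ∀ n, Stage n (seq n).1 (seq n).2 := by
    intro n
    induction n with
    | zero => exact stage_zero
    | succ n ih => exact h3 n _ _ ih
  refine ⟨fun n => nL n (seq n).1 (seq n).2, fun n => (seq n).2, fun n => h1 n _ _ (hseq n),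
    antitone_nat_of_succ_le fun n => h2 n _ _ (hseq n), fun n => ?_⟩
  have : (fun x y => ∑ k ∈ Finset.range n, eps k * J (nL k (seq k).1 (seq k).2) x y) =
      (seq n).1 := by
    induction n with
    | zero => rfl
    | succ n ih =>
      funext x y
      rw [Finset.sum_range_succ]
      have := congrFun (congrFun ih x) y
      rw [this]
  rw [this]
  exact hseq n

end Vale.Agent.P171
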