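import Vale.Agent.P171.SplitTwo

/-!
Measure-theoretic facts on the partition function Xi: product inequalities.
-/

namespace Vale.Agent.P171

open MeasureTheory Set Filter Topology
open scoped ENNReal NNReal BigOperators

variable {X : Type*} [MeasurableSpace X]

/-- canonical integral for a general finite index type -/
noncomputable def gint (ι : Type*) [Fintype ι] (ν : Measure X) (v : X → X → ℝ) (m : ℝ) : ℝ≥0∞ :=
  ∫⁻ x : ι → X, wt v m x ∂(Measure.pi fun _ => ν)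

theorem gint_equiv {ι κ : Type*} [Fintype ι] [Fintype κ] (e : ι ≃ κ) (ν : Measure X)
    [SigmaFinite ν] (v : X → X → ℝ) (hv : Measurable (Function.uncurry v)) (m : ℝ) :
    gint ι ν v m = gint κ ν v m := by
  unfold gint
  have h := (measurePreserving_piCongrLeft (fun _ : κ => ν) e)
  rw [← h.lintegral_comp (measurable_wt hv m)]
  refine lintegral_congr fun x => ?_
  unfold wt
  congr 2
  have hx : ∀ i, (MeasurableEquiv.piCongrLeft (fun _ : κ => X) e x) (e i) = x i := fun i => by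
    rw [MeasurableEquiv.coe_piCongrLeft]
    exact Equiv.piCongrLeft_apply_apply (P := fun _ : κ => X) e x i
  have h1 : Fintype.card ι = Fintype.card κ := Fintype.card_congr e
  rw [h1]
  congr 1
  unfold dsum
  rw [← e.sum_comp]
  refine Finset.sum_congr rfl fun i _ => ?_
  rw [← e.sum_comp]
  refine Finset.sum_congr rfl fun j _ => ?_
  rw [hx, hx]

theorem gint_eq_cint {ι : Type*} [Fintype ι] {k : ℕ} (hk : Fintype.card ι = k) (ν : Measure X)
    [SigmaFinite ν] (v : X → X → ℝ) (hv : Measurable (Function.uncurry v)) (m : ℝ) :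
    gint ι ν v m = cint ν v m k :=
  gint_equiv (Fintype.equivFinOfCardEq hk) ν v hv m

theorem pi_add_eq {ι : Type*} [Fintype ι] [DecidableEq ι] (ν₁ ν₂ : Measure X)
    [IsFiniteMeasure ν₁] [IsFiniteMeasure ν₂] :
    (Measure.pi fun _ : ι => ν₁ + ν₂) =
      ∑ S ∈ (Finset.univ : Finset ι).powerset,
        Measure.pi fun i => if i ∈ S then ν₁ else ν₂ := by
  refine Measure.pi_eq fun s hs => ?_
  rw [Measure.finsetSum_apply]
  have h1 : ∀ S : Finset ι, (Measure.pi fun i => if i ∈ S then ν₁ else ν₂) (Set.univ.pi s) =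
      (∏ i ∈ S, ν₁ (s i)) * ∏ i ∈ Finset.univ \ S, ν₂ (s i) := by
    intro S
    have : ∀ i, SigmaFinite (if i ∈ S then ν₁ else ν₂) := by
      intro i
      split_ifs <;> infer_instance
    rw [Measure.pi_pi]
    have e1 : ∀ i, (if i ∈ S then ν₁ else ν₂) (s i) = if i ∈ S then ν₁ (s i) else ν₂ (s i) := by
      intro i
      split_ifs <;> rfl
    simp_rw [e1]
    rw [Finset.prod_ite]
    congr 1
    · refine Finset.prod_congr ?_ fun _ _ => rfl
      ext; simp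
    · refine Finset.prod_congr ?_ fun _ _ => rfl
      ext; simp
  simp_rw [h1]
  rw [← Finset.prod_add]
  rfl

omit [MeasurableSpace X] in
theorem dsum_split {ι : Type*} [Fintype ι] (p : ι → Prop) [DecidablePred p] (v : X → X → ℝ)
    (x : ι → X) : dsum v x =
      (dsum v (fun i : {i // p i} => x i) + dsum v (fun i : {i // ¬ p i} => x i)) +
      ((∑ i : {i // p i}, ∑ j : {j // ¬ p j}, v (x i) (x j)) +
        ∑ i : {i // ¬ p i}, ∑ j : {j // p j}, v (x i) (x j)) := by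
  unfold dsum
  have h : ∀ i, ∑ j, v (x i) (x j) = ∑ j : {j // p j}, v (x i) (x j) +
      ∑ j : {j // ¬ p j}, v (x i) (x j) := fun i =>
    (Fintype.sum_subtype_add_sum_subtype p fun j => v (x i) (x j)).symm
  simp_rw [h]
  rw [← Fintype.sum_subtype_add_sum_subtype p]
  rw [Finset.sum_add_distrib, Finset.sum_add_distrib]
  ring

omit [MeasurableSpace X] in
theorem wt_mul {ι : Type*} [Fintype ι] (p : ι → Prop) [DecidablePred p] (v : X → X → ℝ) (m : ℝ)
    (x : ι → X) : wt v m (fun i : {i // p i} => x i) * wt v m (fun i : {i // ¬ p i} => x i) =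
      ENNReal.ofReal (Real.exp (m * (Fintype.card ι : ℝ) +
        (dsum v (fun i : {i // p i} => x i) + dsum v (fun i : {i // ¬ p i} => x i)))) := by
  unfold wt
  rw [← ENNReal.ofReal_mul (Real.exp_pos _).le, ← Real.exp_add]
  congr 2
  have : (Fintype.card ι : ℝ) = Fintype.card {i // p i} + Fintype.card {i // ¬ p i} := by
    rw [Fintype.card_subtype_compl]
    have := Fintype.card_subtype_le p
    push_cast [Nat.cast_sub this]
    ring
  rw [this]
  ring

theorem lintegral_split {ι : Type*} [Fintype ι] (p : ι → Prop) [DecidablePred p]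
    (ν₁ ν₂ : Measure X) [IsFiniteMeasure ν₁] [IsFiniteMeasure ν₂] (v : X → X → ℝ)
    (hv : Measurable (Function.uncurry v)) (m : ℝ) :
    ∫⁻ x : ι → X, wt v m (fun i : {i // p i} => x i) * wt v m (fun i : {i // ¬ p i} => x i)
      ∂(Measure.pi fun i => if p i then ν₁ else ν₂) =
      cint ν₁ v m (Fintype.card {i // p i}) * cint ν₂ v m (Fintype.card {i // ¬ p i}) := by
  have hsf : ∀ i, SigmaFinite (if p i then ν₁ else ν₂) := by
    intro i
    split_ifs <;> infer_instance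
  have hmp := measurePreserving_piEquivPiSubtypeProd (fun i => if p i then ν₁ else ν₂) p
  have hG : Measurable fun y : ({i // p i} → X) × ({i // ¬ p i} → X) =>
      wt v m y.1 * wt v m y.2 :=
    ((measurable_wt hv m).comp measurable_fst).mul ((measurable_wt hv m).comp measurable_snd)
  have h1 := hmp.lintegral_comp hG
  have e1 : (Measure.pi fun i : {i // p i} => if p (i : ι) then ν₁ else ν₂) =
      Measure.pi fun _ : {i // p i} => ν₁ := by
    congr 1
    funext i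
    rw [if_pos i.2]
  have e2 : (Measure.pi fun i : {i // ¬ p i} => if p (i : ι) then ν₁ else ν₂) =
      Measure.pi fun _ : {i // ¬ p i} => ν₂ := by
    congr 1
    funext i
    rw [if_neg i.2]
  rw [e1, e2] at h1
  have h2 : ∫⁻ y : ({i // p i} → X) × ({i // ¬ p i} → X), wt v m y.1 * wt v m y.2
      ∂((Measure.pi fun _ : {i // p i} => ν₁).prod (Measure.pi fun _ : {i // ¬ p i} => ν₂)) =
      gint {i // p i} ν₁ v m * gint {i // ¬ p i} ν₂ v m :=
    lintegral_prod_mul (measurable_wt hv m).aemeasurable (measurable_wt hv m).aemeasurable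
  rw [gint_eq_cint rfl ν₁ v hv m, gint_eq_cint rfl ν₂ v hv m] at h2
  rw [← h2, ← h1]
  rfl

theorem ae_mem_of {ι : Type*} [Fintype ι] (p : ι → Prop) [DecidablePred p] (ν₁ ν₂ : Measure X)
    [IsFiniteMeasure ν₁] [IsFiniteMeasure ν₂] (A B : Set X) (hA : ν₁ Aᶜ = 0) (hB : ν₂ Bᶜ = 0) :
    ∀ᵐ x : ι → X ∂(Measure.pi fun i => if p i then ν₁ else ν₂),
      (∀ i, p i → x i ∈ A) ∧ (∀ i, ¬ p i → x i ∈ B) := by
  have hsf : ∀ i, SigmaFinite (if p i then ν₁ else ν₂) := by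
    intro i
    split_ifs <;> infer_instance
  have h : ∀ᵐ x : ι → X ∂(Measure.pi fun i => if p i then ν₁ else ν₂),
      ∀ i, (p i → x i ∈ A) ∧ (¬ p i → x i ∈ B) := by
    rw [ae_all_iff]
    intro i
    have hq := Measure.quasiMeasurePreserving_eval (fun i => if p i then ν₁ else ν₂) i
    have h1 : ∀ᵐ y ∂(if p i then ν₁ else ν₂), (p i → y ∈ A) ∧ (¬ p i → y ∈ B) := by
      by_cases hi : p i
      · simp only [hi, if_true, forall_const, not_true_eq_false, IsEmpty.forall_iff, and_true]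
        exact hA
      · simp only [hi, if_false, forall_const, not_false_eq_true, IsEmpty.forall_iff, true_and]
        exact hB
    exact hq.ae h1
  filter_upwards [h] with x hx
  exact ⟨fun i hi => (hx i).1 hi, fun i hi => (hx i).2 hi⟩

theorem piece_ge {ι : Type*} [Fintype ι] (p : ι → Prop) [DecidablePred p] (ν₁ ν₂ : Measure X)
    [IsFiniteMeasure ν₁] [IsFiniteMeasure ν₂] (v : X → X → ℝ)
    (hv : Measurable (Function.uncurry v)) (m : ℝ) (A B : Set X)
    (hA : ν₁ Aᶜ = 0) (hB : ν₂ Bᶜ = 0)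
    (h : ∀ x ∈ A, ∀ y ∈ B, 0 ≤ v x y ∧ 0 ≤ v y x) (k l : ℕ)
    (hk : Fintype.card {i // p i} = k) (hl : Fintype.card {i // ¬ p i} = l) :
    cint ν₁ v m k * cint ν₂ v m l ≤
      ∫⁻ x : ι → X, wt v m x ∂(Measure.pi fun i => if p i then ν₁ else ν₂) := by
  rw [← hk, ← hl, ← lintegral_split p ν₁ ν₂ v hv m]
  refine lintegral_mono_ae ?_
  filter_upwards [ae_mem_of p ν₁ ν₂ A B hA hB] with x hx
  rw [wt_mul p]
  unfold wt
  refine ENNReal.ofReal_le_ofReal (Real.exp_le_exp.2 ?_)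
  have h2 := dsum_split p v x
  have h3 : 0 ≤ ∑ i : {i // p i}, ∑ j : {j // ¬ p j}, v (x i) (x j) :=
    Finset.sum_nonneg fun i _ => Finset.sum_nonneg fun j _ =>
      (h _ (hx.1 i i.2) _ (hx.2 j j.2)).1
  have h4 : 0 ≤ ∑ i : {i // ¬ p i}, ∑ j : {j // p j}, v (x i) (x j) :=
    Finset.sum_nonneg fun i _ => Finset.sum_nonneg fun j _ =>
      (h _ (hx.1 j j.2) _ (hx.2 i i.2)).2
  linarith

theorem piece_le {ι : Type*} [Fintype ι] (p : ι → Prop) [DecidablePred p] (ν₁ ν₂ : Measure X)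
    [IsFiniteMeasure ν₁] [IsFiniteMeasure ν₂] (v : X → X → ℝ)
    (hv : Measurable (Function.uncurry v)) (m : ℝ) (A B : Set X)
    (hA : ν₁ Aᶜ = 0) (hB : ν₂ Bᶜ = 0)
    (h : ∀ x ∈ A, ∀ y ∈ B, v x y ≤ 0 ∧ v y x ≤ 0) (k l : ℕ)
    (hk : Fintype.card {i // p i} = k) (hl : Fintype.card {i // ¬ p i} = l) :
    ∫⁻ x : ι → X, wt v m x ∂(Measure.pi fun i => if p i then ν₁ else ν₂) ≤
    cint ν₁ v m k * cint ν₂ v m l := by
  rw [← hk, ← hl, ← lintegral_split p ν₁ ν₂ v hv m]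
  refine lintegral_mono_ae ?_
  filter_upwards [ae_mem_of p ν₁ ν₂ A B hA hB] with x hx
  rw [wt_mul p]
  unfold wt
  refine ENNReal.ofReal_le_ofReal (Real.exp_le_exp.2 ?_)
  have h2 := dsum_split p v x
  have h3 : ∑ i : {i // p i}, ∑ j : {j // ¬ p j}, v (x i) (x j) ≤ 0 :=
    Finset.sum_nonpos fun i _ => Finset.sum_nonpos fun j _ =>
      (h _ (hx.1 i i.2) _ (hx.2 j j.2)).1
  have h4 : ∑ i : {i // ¬ p i}, ∑ j : {j // p j}, v (x i) (x j) ≤ 0 :=
    Finset.sum_nonpos fun i _ => Finset.sum_nonpos fun j _ =>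
      (h _ (hx.1 j j.2) _ (hx.2 i i.2)).2
  linarith

theorem tsum_mul_tsum_ennreal (f g : ℕ → ℝ≥0∞) :
    (∑' k, f k) * ∑' l, g l = ∑' n, ∑ kl ∈ Finset.HasAntidiagonal.antidiagonal n, f kl.1 * g kl.2 := by
  rw [← ENNReal.tsum_mul_right]
  simp_rw [← ENNReal.tsum_mul_left]
  rw [← ENNReal.tsum_prod (f := fun k l => f k * g l),
    ← Finset.HasAntidiagonal.sigmaAntidiagonalEquivProd.tsum_eq, ENNReal.tsum_sigma']
  refine tsum_congr fun n => ?_
  rw [tsum_fintype]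
  exact Finset.sum_coe_sort (Finset.HasAntidiagonal.antidiagonal n) fun kl => f kl.1 * g kl.2

theorem Xi_mul_eq (ν₁ ν₂ : Measure X) (v : X → X → ℝ) (m : ℝ) :
    Xi ν₁ v m * Xi ν₂ v m = ∑' N : ℕ, ((N.factorial : ℝ≥0∞))⁻¹ *
      ∑ S ∈ (Finset.univ : Finset (Fin N)).powerset,
        cint ν₁ v m S.card * cint ν₂ v m (N - S.card) := by
  unfold Xi
  rw [tsum_mul_tsum_ennreal]
  refine tsum_congr fun N => ?_
  rw [Finset.Nat.sum_antidiagonal_eq_sum_range_succ
    (fun k l => ((k.factorial : ℝ≥0∞))⁻¹ * cint ν₁ v m k * (((l.factorial : ℝ≥0∞))⁻¹ *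
      cint ν₂ v m l)), Finset.sum_powerset_apply_card
    (fun k => cint ν₁ v m k * cint ν₂ v m (N - k)), Finset.card_univ, Fintype.card_fin,
    Finset.mul_sum]
  refine Finset.sum_congr rfl fun k hk => ?_
  have hkN : k ≤ N := by
    rw [Finset.mem_range] at hk
    omega
  rw [nsmul_eq_mul]
  have h1 : ((N.factorial : ℝ≥0∞))⁻¹ * (N.choose k : ℝ≥0∞) =
      ((k.factorial : ℝ≥0∞))⁻¹ * (((N - k).factorial : ℝ≥0∞))⁻¹ := by
    have h2 := Nat.choose_mul_factorial_mul_factorial hkN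
    have h3 : (N.factorial : ℝ≥0∞) = N.choose k * k.factorial * (N - k).factorial := by
      exact_mod_cast h2.symm
    have hN0 : (N.factorial : ℝ≥0∞) ≠ 0 := by simp [Nat.factorial_ne_zero]
    have hk0 : (k.factorial : ℝ≥0∞) ≠ 0 := by simp [Nat.factorial_ne_zero]
    have hl0 : ((N - k).factorial : ℝ≥0∞) ≠ 0 := by simp [Nat.factorial_ne_zero]
    have hc0 : (N.choose k : ℝ≥0∞) ≠ 0 := by
      have := Nat.choose_pos hkN
      simp only [ne_eq, Nat.cast_eq_zero]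
      omega
    rw [h3, ENNReal.mul_inv (Or.inr (ENNReal.natCast_ne_top _)) (Or.inr hl0),
      ENNReal.mul_inv (Or.inr (ENNReal.natCast_ne_top _)) (Or.inr hk0)]
    calc (N.choose k : ℝ≥0∞)⁻¹ * (k.factorial : ℝ≥0∞)⁻¹ * ((N - k).factorial : ℝ≥0∞)⁻¹ *
          (N.choose k : ℝ≥0∞) = ((N.choose k : ℝ≥0∞)⁻¹ * (N.choose k : ℝ≥0∞)) *
          ((k.factorial : ℝ≥0∞)⁻¹ * ((N - k).factorial : ℝ≥0∞)⁻¹) := by ring
      _ = _ := by rw [ENNReal.inv_mul_cancel hc0 (ENNReal.natCast_ne_top _), one_mul]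
  calc ((k.factorial : ℝ≥0∞))⁻¹ * cint ν₁ v m k *
        ((((N - k).factorial : ℝ≥0∞))⁻¹ * cint ν₂ v m (N - k))
      = (((k.factorial : ℝ≥0∞))⁻¹ * (((N - k).factorial : ℝ≥0∞))⁻¹) *
        (cint ν₁ v m k * cint ν₂ v m (N - k)) := by ring
    _ = ((N.factorial : ℝ≥0∞))⁻¹ * (N.choose k : ℝ≥0∞) *
        (cint ν₁ v m k * cint ν₂ v m (N - k)) := by rw [h1]
    _ = _ := by ring

theorem cint_add (ν₁ ν₂ : Measure X) [IsFiniteMeasure ν₁] [IsFiniteMeasure ν₂]
    (v : X → X → ℝ) (m : ℝ) (N : ℕ) :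
    cint (ν₁ + ν₂) v m N = ∑ S ∈ (Finset.univ : Finset (Fin N)).powerset,
      ∫⁻ x : Fin N → X, wt v m x ∂(Measure.pi fun i => if i ∈ S then ν₁ else ν₂) := by
  unfold cint
  rw [pi_add_eq, lintegral_finsetSum_measure]

/-- (A1) product lower bound -/
theorem Xi_mul_le_Xi_add (ν₁ ν₂ : Measure X) [IsFiniteMeasure ν₁] [IsFiniteMeasure ν₂]
    (v : X → X → ℝ) (hv : Measurable (Function.uncurry v)) (m : ℝ) (A B : Set X)
    (hA : ν₁ Aᶜ = 0) (hB : ν₂ Bᶜ = 0)
    (h : ∀ x ∈ A, ∀ y ∈ B, 0 ≤ v x y ∧ 0 ≤ v y x) :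
    Xi ν₁ v m * Xi ν₂ v m ≤ Xi (ν₁ + ν₂) v m := by
  rw [Xi_mul_eq]
  conv_rhs => unfold Xi
  refine ENNReal.tsum_le_tsum fun N => ?_
  rw [cint_add]
  refine mul_le_mul' le_rfl (Finset.sum_le_sum fun S _ => ?_)
  exact piece_ge (fun i => i ∈ S) ν₁ ν₂ v hv m A B hA hB h S.card (N - S.card)
    (by simp) (by rw [Fintype.card_subtype_compl]; simp)

/-- (A2) product upper bound -/
theorem Xi_add_le_mul (ν₁ ν₂ : Measure X) [IsFiniteMeasure ν₁] [IsFiniteMeasure ν₂]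
    (v : X → X → ℝ) (hv : Measurable (Function.uncurry v)) (m : ℝ) (A B : Set X)
    (hA : ν₁ Aᶜ = 0) (hB : ν₂ Bᶜ = 0)
    (h : ∀ x ∈ A, ∀ y ∈ B, v x y ≤ 0 ∧ v y x ≤ 0) :
    Xi (ν₁ + ν₂) v m ≤ Xi ν₁ v m * Xi ν₂ v m := by
  rw [Xi_mul_eq]
  conv_lhs => unfold Xi
  refine ENNReal.tsum_le_tsum fun N => ?_
  rw [cint_add]
  refine mul_le_mul' le_rfl (Finset.sum_le_sum fun S _ => ?_)
  exact piece_le (fun i => i ∈ S) ν₁ ν₂ v hv m A B hA hB h S.card (N - S.card)
    (by simp) (by rw [Fintype.card_subtype_compl]; simp)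

end Vale.Agent.P171
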