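import Vale.Agent.P171.Basic

/-!
Measure-theoretic facts on the partition function Xi, second file.
-/

namespace Vale.Agent.P171

open MeasureTheory Set Filter Topology
open scoped ENNReal NNReal BigOperators

variable {X : Type*}

theorem dsum_mono {v w : X → X → ℝ} (h : ∀ x y, v x y ≤ w x y) {ι : Type*} [Fintype ι]
    (x : ι → X) : dsum v x ≤ dsum w x :=
  Finset.sum_le_sum fun _ _ => Finset.sum_le_sum fun _ _ => h _ _

theorem dsum_add (v w : X → X → ℝ) {ι : Type*} [Fintype ι] (x : ι → X) :
    dsum (fun a b => v a b + w a b) x = dsum v x + dsum w x := by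
  simp [dsum, Finset.sum_add_distrib]

theorem dsum_const_mul (c : ℝ) (v : X → X → ℝ) {ι : Type*} [Fintype ι] (x : ι → X) :
    dsum (fun a b => c * v a b) x = c * dsum v x := by
  simp [dsum, Finset.mul_sum]

variable [MeasurableSpace X]

theorem measurable_dsum {v : X → X → ℝ} (hv : Measurable (Function.uncurry v)) {ι : Type*}
    [Fintype ι] : Measurable (fun x : ι → X => dsum v x) := by
  unfold dsum
  refine Finset.measurable_fun_sum _ fun i _ => Finset.measurable_fun_sum _ fun j _ => ?_
  have : Measurable fun x : ι → X => (x i, x j) :=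
    (measurable_pi_apply i).prodMk (measurable_pi_apply j)
  exact hv.comp this

theorem measurable_wt {v : X → X → ℝ} (hv : Measurable (Function.uncurry v)) (m : ℝ) {ι : Type*}
    [Fintype ι] : Measurable (fun x : ι → X => wt v m x) := by
  unfold wt
  exact ENNReal.measurable_ofReal.comp
    (Real.measurable_exp.comp (measurable_const.add (measurable_dsum hv)))

theorem wt_mix (v w : X → X → ℝ) (m m' t : ℝ) {ι : Type*} [Fintype ι] (x : ι → X) :
    wt (fun a b => (1 - t) * v a b + t * w a b) ((1 - t) * m + t * m') x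
      = (wt v m x) ^ (1 - t) * (wt w m' x) ^ t := by
  unfold wt
  rw [ENNReal.ofReal_rpow_of_pos (Real.exp_pos _), ENNReal.ofReal_rpow_of_pos (Real.exp_pos _),
    ← ENNReal.ofReal_mul (by positivity), ← Real.exp_mul, ← Real.exp_mul, ← Real.exp_add,
    dsum_add, dsum_const_mul, dsum_const_mul]
  congr 2
  ring

theorem cint_mix (ν : Measure X) [SigmaFinite ν] (v w : X → X → ℝ)
    (hv : Measurable (Function.uncurry v)) (hw : Measurable (Function.uncurry w)) (m m' t : ℝ)
    (ht0 : 0 ≤ t) (ht1 : t ≤ 1) (N : ℕ) :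
    cint ν (fun x y => (1 - t) * v x y + t * w x y) ((1 - t) * m + t * m') N
      ≤ (cint ν v m N) ^ (1 - t) * (cint ν w m' N) ^ t := by
  unfold cint
  simp_rw [wt_mix]
  exact ENNReal.lintegral_mul_norm_pow_le (measurable_wt hv m).aemeasurable
    (measurable_wt hw m').aemeasurable (by linarith) ht0 (by ring)

/-- (A8) Hoelder inequality in the pair function at fixed N -/
theorem cint_holder (ν : Measure X) [SigmaFinite ν] (v w : X → X → ℝ)
    (hv : Measurable (Function.uncurry v)) (hw : Measurable (Function.uncurry w)) (m t : ℝ)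
    (ht0 : 0 ≤ t) (ht1 : t ≤ 1) (N : ℕ) :
    cint ν (fun x y => (1 - t) * v x y + t * w x y) m N
      ≤ (cint ν v m N) ^ (1 - t) * (cint ν w m N) ^ t := by
  have := cint_mix ν v w hv hw m m t ht0 ht1 N
  have e : (1 - t) * m + t * m = m := by ring
  rwa [e] at this

theorem factor_mix (c a b : ℝ≥0∞) (hc0 : c ≠ 0) (hc : c ≠ ∞) (t : ℝ) (ht0 : 0 ≤ t)
    (ht1 : t ≤ 1) : c * (a ^ (1 - t) * b ^ t) = (c * a) ^ (1 - t) * (c * b) ^ t := by
  rw [ENNReal.mul_rpow_of_nonneg _ _ (by linarith), ENNReal.mul_rpow_of_nonneg _ _ ht0]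
  have : c = c ^ (1 - t) * c ^ t := by
    rw [← ENNReal.rpow_add _ _ hc0 hc]
    simp
  calc c * (a ^ (1 - t) * b ^ t) = (c ^ (1 - t) * c ^ t) * (a ^ (1 - t) * b ^ t) := by
        rw [← this]
    _ = _ := by ring

theorem factorial_inv_ne_zero (N : ℕ) : ((N.factorial : ℝ≥0∞))⁻¹ ≠ 0 := by
  simp

theorem factorial_inv_ne_top (N : ℕ) : ((N.factorial : ℝ≥0∞))⁻¹ ≠ ∞ := by
  simp [Nat.factorial_ne_zero]

theorem Xi_mix (ν : Measure X) [SigmaFinite ν] (v w : X → X → ℝ)
    (hv : Measurable (Function.uncurry v)) (hw : Measurable (Function.uncurry w)) (m m' t : ℝ)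
    (ht0 : 0 ≤ t) (ht1 : t ≤ 1) :
    Xi ν (fun x y => (1 - t) * v x y + t * w x y) ((1 - t) * m + t * m')
      ≤ (Xi ν v m) ^ (1 - t) * (Xi ν w m') ^ t := by
  unfold Xi
  calc ∑' N : ℕ, ((N.factorial : ℝ≥0∞))⁻¹ *
        cint ν (fun x y => (1 - t) * v x y + t * w x y) ((1 - t) * m + t * m') N
      ≤ ∑' N : ℕ, (((N.factorial : ℝ≥0∞))⁻¹ * cint ν v m N) ^ (1 - t) *
          (((N.factorial : ℝ≥0∞))⁻¹ * cint ν w m' N) ^ t := by
        refine ENNReal.tsum_le_tsum fun N => ?_
        rw [← factor_mix _ _ _ (factorial_inv_ne_zero N) (factorial_inv_ne_top N) t ht0 ht1]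
        gcongr
        exact cint_mix ν v w hv hw m m' t ht0 ht1 N
    _ ≤ _ := by
        rw [← lintegral_count, ← lintegral_count, ← lintegral_count]
        exact ENNReal.lintegral_mul_norm_pow_le (measurable_of_countable _).aemeasurable
          (measurable_of_countable _).aemeasurable (by linarith) ht0 (by ring)

/-- (A7) log-convexity in m -/
theorem Xi_logconvex (ν : Measure X) [SigmaFinite ν] (v : X → X → ℝ)
    (hv : Measurable (Function.uncurry v)) (m m' t : ℝ) (ht0 : 0 ≤ t) (ht1 : t ≤ 1) :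
    Xi ν v ((1 - t) * m + t * m') ≤ (Xi ν v m) ^ (1 - t) * (Xi ν v m') ^ t := by
  have := Xi_mix ν v v hv hv m m' t ht0 ht1
  have e : (fun x y => (1 - t) * v x y + t * v x y) = v := by
    funext x y
    ring
  rwa [e] at this

theorem cint_restrict (ν : Measure X) [SigmaFinite ν] (v : X → X → ℝ) (m : ℝ) (A : Set X)
    (N : ℕ) : cint (ν.restrict A) v m N =
      ∫⁻ x in (Set.univ.pi fun _ : Fin N => A), wt v m x ∂(Measure.pi fun _ => ν) := by
  unfold cint
  rw [Measure.restrict_pi_pi]

/-- (A9) pointwise comparison: if the exponent is bounded on A^N then so is Xi -/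
theorem Xi_restrict_le_of_exponent_le (ν : Measure X) [SigmaFinite ν] (v w : X → X → ℝ)
    (m m' c : ℝ) (A : Set X) (hA : MeasurableSet A)
    (h : ∀ (N : ℕ) (x : Fin N → X), (∀ i, x i ∈ A) →
      m * N + dsum v x ≤ m' * N + dsum w x + c) :
    Xi (ν.restrict A) v m ≤ ENNReal.ofReal (Real.exp c) * Xi (ν.restrict A) w m' := by
  unfold Xi
  rw [← ENNReal.tsum_mul_left]
  refine ENNReal.tsum_le_tsum fun N => ?_
  rw [mul_left_comm]
  gcongr
  rw [cint_restrict, cint_restrict, ← lintegral_const_mul' _ _ ENNReal.ofReal_ne_top]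
  refine setLIntegral_mono' (MeasurableSet.univ_pi fun _ => hA) fun x hx => ?_
  have hx' : ∀ i, x i ∈ A := fun i => hx i (mem_univ i)
  unfold wt
  rw [← ENNReal.ofReal_mul (Real.exp_pos c).le, ← Real.exp_add]
  refine ENNReal.ofReal_le_ofReal (Real.exp_le_exp.2 ?_)
  have := h N x hx'
  simp only [Fintype.card_fin]
  linarith

/-- (A10) finite sum of pair functions bound -/
theorem Xi_restrict_le_sum (ν : Measure X) [SigmaFinite ν] {κ : Type*} (T : Finset κ)
    (v : X → X → ℝ) (w : κ → X → X → ℝ) (hw : ∀ k ∈ T, Measurable (Function.uncurry (w k)))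
    (m : ℝ) (A : Set X) (hA : MeasurableSet A)
    (h : ∀ (N : ℕ) (x : Fin N → X), (∀ i, x i ∈ A) → ∃ k ∈ T, dsum v x ≤ dsum (w k) x) :
    Xi (ν.restrict A) v m ≤ ∑ k ∈ T, Xi (ν.restrict A) (w k) m := by
  unfold Xi
  rw [← Summable.tsum_finsetSum fun _ _ => ENNReal.summable]
  refine ENNReal.tsum_le_tsum fun N => ?_
  rw [← Finset.mul_sum]
  gcongr
  simp_rw [cint_restrict]
  rw [← lintegral_finsetSum' _ fun k hk => (measurable_wt (hw k hk) m).aemeasurable]
  refine setLIntegral_mono' (MeasurableSet.univ_pi fun _ => hA) fun x hx => ?_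
  have hx' : ∀ i, x i ∈ A := fun i => hx i (mem_univ i)
  obtain ⟨k, hk, hle⟩ := h N x hx'
  refine le_trans ?_ (Finset.single_le_sum (f := fun k => wt (w k) m x) (fun _ _ => zero_le) hk)
  unfold wt
  exact ENNReal.ofReal_le_ofReal (Real.exp_le_exp.2 (by linarith))

/-- (A11) monotone limit in the pair function -/
theorem Xi_iSup (ν : Measure X) [SigmaFinite ν] (v : ℕ → X → X → ℝ) (w : X → X → ℝ)
    (hv : ∀ n, Measurable (Function.uncurry (v n)))
    (hmono : ∀ x y, Monotone fun n => v n x y)
    (hlim : ∀ x y, Tendsto (fun n => v n x y) atTop (𝓝 (w x y))) (m : ℝ) :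
    Xi ν w m = ⨆ n, Xi ν (v n) m := by
  have hwt_mono : ∀ (N : ℕ) (x : Fin N → X), Monotone fun n => wt (v n) m x := by
    intro N x a b hab
    unfold wt
    refine ENNReal.ofReal_le_ofReal (Real.exp_le_exp.2 ?_)
    have := dsum_mono (fun p q => hmono p q hab) x
    linarith
  have hwt : ∀ (N : ℕ) (x : Fin N → X), wt w m x = ⨆ n, wt (v n) m x := by
    intro N x
    refine (tendsto_nhds_unique (tendsto_atTop_iSup (hwt_mono N x)) ?_).symm
    unfold wt
    refine (ENNReal.continuous_ofReal.tendsto _).comp ((Real.continuous_exp.tendsto _).comp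
      (tendsto_const_nhds.add ?_))
    unfold dsum
    exact tendsto_finsetSum _ fun i _ => tendsto_finsetSum _ fun j _ => hlim _ _
  have hc : ∀ N, cint ν w m N = ⨆ n, cint ν (v n) m N := by
    intro N
    unfold cint
    simp_rw [hwt N]
    exact lintegral_iSup (fun n => measurable_wt (hv n) m) fun a b hab x => hwt_mono N x hab
  have hc_mono : ∀ N, Monotone fun n => cint ν (v n) m N := by
    intro N a b hab
    exact lintegral_mono fun x => hwt_mono N x hab
  unfold Xi
  simp_rw [hc, ENNReal.mul_iSup, ← lintegral_count]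
  refine lintegral_iSup (fun n => measurable_of_countable _) fun a b hab N => ?_
  exact mul_le_mul_right (hc_mono N hab) _

/-- (A6) translation: the pair functions v on the translated set and w on A agree -/
theorem Xi_translate (v w : E → E → ℝ) (hv : Measurable (Function.uncurry v))
    (hw : Measurable (Function.uncurry w)) (a : E) (A : Set E) (hA : MeasurableSet A) (m : ℝ)
    (h : ∀ x ∈ A, ∀ y ∈ A, v (x + a) (y + a) = w x y) :
    Xi (volume.restrict ((fun x => x + a) '' A)) v m = Xi (volume.restrict A) w m := by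
  have hmp : MeasurePreserving (fun x : E => x + a) (volume.restrict A)
      (volume.restrict ((fun x => x + a) '' A)) := by
    have h0 := measurePreserving_add_right (volume : Measure E) a
    have h1 := h0.restrict_preimage_emb (measurableEmbedding_addRight a) ((fun x => x + a) '' A)
    rwa [Set.preimage_image_eq _ (add_left_injective a)] at h1
  unfold Xi
  congr 1
  funext N
  congr 1
  have hpi : MeasurePreserving (fun (x : Fin N → E) i => x i + a)
      (Measure.pi fun _ => volume.restrict A)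
      (Measure.pi fun _ => volume.restrict ((fun x => x + a) '' A)) :=
    measurePreserving_pi _ _ fun _ => hmp
  unfold cint
  rw [← hpi.lintegral_comp (measurable_wt hv m)]
  rw [← Measure.restrict_pi_pi]
  refine setLIntegral_congr_fun (MeasurableSet.univ_pi fun _ => hA) fun x hx => ?_
  have hx' : ∀ i, x i ∈ A := fun i => hx i (mem_univ i)
  unfold wt
  congr 3
  unfold dsum
  exact Finset.sum_congr rfl fun i _ => Finset.sum_congr rfl fun j _ => h _ (hx' i) _ (hx' j)

end Vale.Agent.P171
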