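import Vale.Agent.P171.Split
import Vale.Agent.P171.SplitTwo

/-!
Products over finitely many disjoint regions.
-/

namespace Vale.Agent.P171

open MeasureTheory Set Filter Topology
open scoped ENNReal NNReal BigOperators

variable {X : Type*} [MeasurableSpace X]

theorem cint_zero' (ν : Measure X) (v : X → X → ℝ) (m : ℝ) : cint ν v m 0 = 1 := by
  unfold cint wt
  have : ∀ x : Fin 0 → X, dsum v x = 0 := fun x => by simp [dsum]
  simp [this]

theorem Xi_zero_measure (v : X → X → ℝ) (m : ℝ) : Xi (0 : Measure X) v m = 1 := by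
  unfold Xi
  rw [tsum_eq_single 0]
  · simp [cint_zero']
  · intro N hN
    have : cint (0 : Measure X) v m N = 0 := by
      unfold cint
      have hne : Nonempty (Fin N) := ⟨⟨0, Nat.pos_of_ne_zero hN⟩⟩
      have h0 : (Measure.pi fun _ : Fin N => (0 : Measure X)) = 0 := by
        rw [← Measure.measure_univ_eq_zero, Measure.pi_univ]
        exact Finset.prod_eq_zero (Finset.mem_univ ⟨0, Nat.pos_of_ne_zero hN⟩) (by simp)
      rw [h0, lintegral_zero_measure]
    rw [this, mul_zero]

/-- (A5) monotonicity in the region -/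
theorem Xi_mono_set (ν : Measure X) [SigmaFinite ν] (v : X → X → ℝ) (m : ℝ) {A B : Set X}
    (hAB : A ⊆ B) : Xi (ν.restrict A) v m ≤ Xi (ν.restrict B) v m := by
  unfold Xi
  refine ENNReal.tsum_le_tsum fun N => ?_
  gcongr
  rw [cint_restrict, cint_restrict]
  exact lintegral_mono_set (Set.pi_mono fun _ _ => hAB)

theorem restrict_biUnion_insert {κ : Type*} [DecidableEq κ] (ν : Measure X) (c : κ)
    (T : Finset κ) (hc : c ∉ T) (C : κ → Set X) (hC : ∀ k ∈ insert c T, MeasurableSet (C k))
    (hdisj : ((insert c T : Finset κ) : Set κ).PairwiseDisjoint C) :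
    ν.restrict (⋃ k ∈ insert c T, C k) = ν.restrict (C c) + ν.restrict (⋃ k ∈ T, C k) := by
  rw [Finset.set_biUnion_insert]
  refine Measure.restrict_union ?_ (Finset.measurableSet_biUnion _ fun k hk =>
    hC k (Finset.mem_insert_of_mem hk))
  rw [Set.disjoint_iUnion₂_right]
  intro k hk
  refine hdisj (by simp) (by simp [hk]) ?_
  rintro rfl
  exact hc hk

/-- (A3) -/
theorem prod_Xi_le_Xi_biUnion {κ : Type*} (ν : Measure X) (v : X → X → ℝ)
    (hv : Measurable (Function.uncurry v)) (m : ℝ) (T : Finset κ) (C : κ → Set X)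
    (hC : ∀ c ∈ T, MeasurableSet (C c)) (hfin : ∀ c ∈ T, ν (C c) ≠ ∞)
    (hdisj : (T : Set κ).PairwiseDisjoint C)
    (h : ∀ c ∈ T, ∀ c' ∈ T, c ≠ c' → ∀ x ∈ C c, ∀ y ∈ C c', 0 ≤ v x y) :
    ∏ c ∈ T, Xi (ν.restrict (C c)) v m ≤ Xi (ν.restrict (⋃ c ∈ T, C c)) v m := by
  classical
  induction T using Finset.induction_on with
  | empty => simp [Xi_zero_measure]
  | insert c T hc ih =>
    rw [restrict_biUnion_insert ν c T hc C hC hdisj, Finset.prod_insert hc]
    have hT := ih (fun k hk => hC k (Finset.mem_insert_of_mem hk))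
      (fun k hk => hfin k (Finset.mem_insert_of_mem hk))
      (hdisj.subset (by simp [Finset.coe_insert, Set.subset_insert]))
      (fun k hk k' hk' => h k (Finset.mem_insert_of_mem hk) k' (Finset.mem_insert_of_mem hk'))
    have hmU : MeasurableSet (⋃ k ∈ T, C k) := Finset.measurableSet_biUnion _ fun k hk =>
      hC k (Finset.mem_insert_of_mem hk)
    have hmc : MeasurableSet (C c) := hC c (Finset.mem_insert_self c T)
    have : IsFiniteMeasure (ν.restrict (C c)) :=
      ⟨by rw [Measure.restrict_apply_univ]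
          exact lt_top_iff_ne_top.2 (hfin c (Finset.mem_insert_self c T))⟩
    have : IsFiniteMeasure (ν.restrict (⋃ k ∈ T, C k)) :=
      ⟨by rw [Measure.restrict_apply_univ]
          refine lt_of_le_of_lt (measure_biUnion_finset_le _ _) ?_
          exact ENNReal.sum_lt_top.2 fun k hk =>
            lt_top_iff_ne_top.2 (hfin k (Finset.mem_insert_of_mem hk))⟩
    refine le_trans (mul_le_mul' le_rfl hT) (Xi_mul_le_Xi_add _ _ v hv m (C c)
      (⋃ k ∈ T, C k) ?_ ?_ ?_)
    · rw [Measure.restrict_apply hmc.compl]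
      simp
    · rw [Measure.restrict_apply hmU.compl, Set.compl_inter_self, measure_empty]
    · intro x hx y hy
      simp only [mem_iUnion, exists_prop] at hy
      obtain ⟨k, hk, hyk⟩ := hy
      have hne : c ≠ k := by
        rintro rfl
        exact hc hk
      exact ⟨h c (Finset.mem_insert_self c T) k (Finset.mem_insert_of_mem hk) hne x hx y hyk,
        h k (Finset.mem_insert_of_mem hk) c (Finset.mem_insert_self c T) hne.symm y hyk x hx⟩

/-- (A4) -/
theorem Xi_biUnion_le_prod_Xi {κ : Type*} (ν : Measure X) (v : X → X → ℝ)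
    (hv : Measurable (Function.uncurry v)) (m : ℝ) (T : Finset κ) (C : κ → Set X)
    (hC : ∀ c ∈ T, MeasurableSet (C c)) (hfin : ∀ c ∈ T, ν (C c) ≠ ∞)
    (hdisj : (T : Set κ).PairwiseDisjoint C)
    (h : ∀ c ∈ T, ∀ c' ∈ T, c ≠ c' → ∀ x ∈ C c, ∀ y ∈ C c', v x y ≤ 0) :
    Xi (ν.restrict (⋃ c ∈ T, C c)) v m ≤ ∏ c ∈ T, Xi (ν.restrict (C c)) v m := by
  classical
  induction T using Finset.induction_on with
  | empty => simp [Xi_zero_measure]
  | insert c T hc ih =>
    rw [restrict_biUnion_insert ν c T hc C hC hdisj, Finset.prod_insert hc]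
    have hT := ih (fun k hk => hC k (Finset.mem_insert_of_mem hk))
      (fun k hk => hfin k (Finset.mem_insert_of_mem hk))
      (hdisj.subset (by simp [Finset.coe_insert, Set.subset_insert]))
      (fun k hk k' hk' => h k (Finset.mem_insert_of_mem hk) k' (Finset.mem_insert_of_mem hk'))
    have hmU : MeasurableSet (⋃ k ∈ T, C k) := Finset.measurableSet_biUnion _ fun k hk =>
      hC k (Finset.mem_insert_of_mem hk)
    have hmc : MeasurableSet (C c) := hC c (Finset.mem_insert_self c T)
    have : IsFiniteMeasure (ν.restrict (C c)) :=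
      ⟨by rw [Measure.restrict_apply_univ]
          exact lt_top_iff_ne_top.2 (hfin c (Finset.mem_insert_self c T))⟩
    have : IsFiniteMeasure (ν.restrict (⋃ k ∈ T, C k)) :=
      ⟨by rw [Measure.restrict_apply_univ]
          refine lt_of_le_of_lt (measure_biUnion_finset_le _ _) ?_
          exact ENNReal.sum_lt_top.2 fun k hk =>
            lt_top_iff_ne_top.2 (hfin k (Finset.mem_insert_of_mem hk))⟩
    refine le_trans (Xi_add_le_mul _ _ v hv m (C c) (⋃ k ∈ T, C k) ?_ ?_ ?_)
      (mul_le_mul' le_rfl hT)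
    · rw [Measure.restrict_apply hmc.compl]
      simp
    · rw [Measure.restrict_apply hmU.compl, Set.compl_inter_self, measure_empty]
    · intro x hx y hy
      simp only [mem_iUnion, exists_prop] at hy
      obtain ⟨k, hk, hyk⟩ := hy
      have hne : c ≠ k := by
        rintro rfl
        exact hc hk
      exact ⟨h c (Finset.mem_insert_self c T) k (Finset.mem_insert_of_mem hk) hne x hx y hyk,
        h k (Finset.mem_insert_of_mem hk) c (Finset.mem_insert_self c T) hne.symm y hyk x hx⟩

end Vale.Agent.P171
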