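import Vale.Agent.P171.Pressure

/-!
Superadditivity and the thermodynamic limit.
-/

namespace Vale.Agent.P171

open MeasureTheory Set Filter Topology
open scoped ENNReal NNReal BigOperators

theorem abs_apply_sub_le (x y : E) (i : Fin 3) : |x i - y i| ≤ dist x y := by
  rw [dist_eq_norm]
  have := PiLp.norm_apply_le (x - y) i
  simpa using this

/-- the corner of the cube with index c -/
noncomputable def corner (L : ℝ) {k : ℕ} (c : Fin 3 → Fin k) : E :=
  WithLp.toLp 2 (fun i => (c i : ℝ) * (L + 1))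

theorem mem_image_add_box (a : E) (L : ℝ) (x : E) :
    x ∈ (fun x => x + a) '' box L ↔ ∀ i, a i ≤ x i ∧ x i ≤ a i + L := by
  constructor
  · rintro ⟨y, hy, rfl⟩ i
    have := hy i
    simp only [mem_Icc] at this
    simp only [PiLp.add_apply]
    constructor <;> linarith [this.1, this.2]
  · intro h
    refine ⟨x - a, fun i => ?_, by simp⟩
    have := h i
    simp only [PiLp.sub_apply, mem_Icc]
    constructor <;> linarith [this.1, this.2]

section gas

variable {A C : ℝ} {K : E → E → ℝ}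

theorem superadd (hK : Pre C K) (hAC : C ≤ A) (m : ℝ) {L L' : ℝ} (hL : 0 ≤ L) (k : ℕ)
    (hk : k * (L + 1) ≤ L') : (k : ℝ) ^ 3 * lpf A K m L ≤ lpf A K m L' := by
  have hL' : 0 ≤ L' := le_trans (by positivity) hk
  refine le_lpf_of_le hK hAC m hL' ?_
  have hmv : Measurable (Function.uncurry (vpot A K)) := measurable_vpot hK.meas
  have hmeas : ∀ c : Fin 3 → Fin k, MeasurableSet ((fun x => x + corner L c) '' box L) :=
    fun c => (measurableEmbedding_addRight (corner L c)).measurableSet_image.2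
      (measurableSet_box L)
  have hsub : ∀ c : Fin 3 → Fin k, (fun x => x + corner L c) '' box L ⊆ box L' := by
    intro c x hx i
    rw [mem_image_add_box] at hx
    have h1 := hx i
    have h2 : (corner L c) i = (c i : ℝ) * (L + 1) := rfl
    rw [h2] at h1
    have h3 : ((c i : ℕ) : ℝ) + 1 ≤ k := by exact_mod_cast (c i).2
    have h4 : 0 ≤ ((c i : ℕ) : ℝ) := Nat.cast_nonneg _
    constructor
    · nlinarith [h1.1]
    · nlinarith [h1.2]
  have hfar : ∀ c c' : Fin 3 → Fin k, c ≠ c' → ∀ x ∈ (fun x => x + corner L c) '' box L,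
      ∀ y ∈ (fun x => x + corner L c') '' box L, 1 ≤ dist x y := by
    intro c c' hcc x hx y hy
    rw [mem_image_add_box] at hx hy
    obtain ⟨i, hi⟩ : ∃ i, c i ≠ c' i := by
      by_contra hcon
      push Not at hcon
      exact hcc (funext hcon)
    have h1 := hx i
    have h2 := hy i
    have e1 : (corner L c) i = (c i : ℝ) * (L + 1) := rfl
    have e2 : (corner L c') i = (c' i : ℝ) * (L + 1) := rfl
    rw [e1] at h1
    rw [e2] at h2
    refine le_trans ?_ (abs_apply_sub_le x y i)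
    rcases lt_or_gt_of_ne hi with hlt | hlt
    · have h3 : ((c i : ℕ) : ℝ) + 1 ≤ (c' i : ℕ) := by exact_mod_cast hlt
      rw [abs_sub_comm]
      refine le_trans ?_ (le_abs_self _)
      nlinarith [h1.2, h2.1]
    · have h3 : ((c' i : ℕ) : ℝ) + 1 ≤ (c i : ℕ) := by exact_mod_cast hlt
      refine le_trans ?_ (le_abs_self _)
      nlinarith [h2.2, h1.1]
  have hprod := prod_Xi_le_Xi_biUnion (volume : Measure E) (vpot A K) hmv m
    (Finset.univ : Finset (Fin 3 → Fin k)) (fun c => (fun x => x + corner L c) '' box L)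
    (fun c _ => hmeas c)
    (fun c _ => by
      have : volume ((fun x => x + corner L c) '' box L) ≤ volume (box L') :=
        measure_mono (hsub c)
      refine ne_top_of_le_ne_top ?_ this
      rw [volume_box L' hL']
      exact ENNReal.ofReal_ne_top)
    (fun c _ c' _ hcc => by
      rw [Function.onFun, Set.disjoint_left]
      intro x hx hx'
      have := hfar c c' hcc x hx x hx'
      rw [dist_self] at this
      linarith)
    (fun c _ c' _ hcc x hx y hy => by
      have h1 := hfar c c' hcc x hx y hy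
      unfold vpot near
      rw [if_neg (not_lt.2 h1)]
      have := hK.nonneg x y
      linarith)
  have htr : ∀ c : Fin 3 → Fin k,
      Xi (volume.restrict ((fun x => x + corner L c) '' box L)) (vpot A K) m =
        Xi (volume.restrict (box L)) (vpot A K) m := fun c =>
    Xi_translate _ _ hmv hmv _ _ (measurableSet_box L) m fun x _ y _ => vpot_trans hK _ x y
  simp_rw [htr] at hprod
  have hunion : (⋃ c ∈ (Finset.univ : Finset (Fin 3 → Fin k)),
      (fun x => x + corner L c) '' box L) ⊆ box L' :=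
    Set.iUnion₂_subset fun c _ => hsub c
  have hfinal := hprod.trans (Xi_mono_set volume (vpot A K) m hunion)
  refine le_trans (le_of_eq ?_) hfinal
  rw [Finset.prod_const, ← exp_lpf hK hAC m hL, ← ENNReal.ofReal_pow (Real.exp_pos _).le,
    ← Real.exp_nat_mul]
  congr 3
  simp

/-- the pressure as a function of the shifted chemical potential -/
noncomputable def pr (A : ℝ) (K : E → E → ℝ) (m : ℝ) : ℝ :=
  ⨆ L : Set.Ioi (0 : ℝ), lpf A K m L / ((L : ℝ) + 1) ^ 3

theorem bddAbove_pr (hK : Pre C K) (hAC : C ≤ A) (m : ℝ) :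
    BddAbove (Set.range fun L : Set.Ioi (0 : ℝ) => lpf A K m L / ((L : ℝ) + 1) ^ 3) := by
  refine ⟨Real.exp m, ?_⟩
  rintro _ ⟨⟨L, hL⟩, rfl⟩
  have hL0 : (0 : ℝ) < L := hL
  simp only
  rw [div_le_iff₀ (by positivity)]
  refine (lpf_le hK hAC m hL0.le).trans ?_
  have : L ^ 3 ≤ (L + 1) ^ 3 := pow_le_pow_left₀ hL0.le (by linarith) 3
  exact mul_le_mul_of_nonneg_left this (Real.exp_pos _).le

theorem lpf_le_pr (hK : Pre C K) (hAC : C ≤ A) (m : ℝ) {L : ℝ} (hL : 0 < L) :
    lpf A K m L ≤ (L + 1) ^ 3 * pr A K m := by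
  have := le_ciSup (bddAbove_pr hK hAC m) ⟨L, hL⟩
  simp only at this
  rw [div_le_iff₀ (by positivity)] at this
  unfold pr
  linarith

theorem pr_le {m g : ℝ} (h : ∀ L : ℝ, 0 < L → lpf A K m L / (L + 1) ^ 3 ≤ g) :
    pr A K m ≤ g := by
  have : Nonempty (Set.Ioi (0 : ℝ)) := ⟨⟨1, by norm_num⟩⟩
  exact ciSup_le fun L => h L L.2

theorem pr_nonneg (hK : Pre C K) (hAC : C ≤ A) (m : ℝ) : 0 ≤ pr A K m := by
  have h1 := lpf_le_pr hK hAC m (L := 1) one_pos
  have h2 := lpf_nonneg hK hAC m (L := 1) zero_le_one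
  nlinarith

theorem pr_le_exp (hK : Pre C K) (hAC : C ≤ A) (m : ℝ) : pr A K m ≤ Real.exp m := by
  refine pr_le fun L hL => ?_
  rw [div_le_iff₀ (by positivity)]
  refine (lpf_le hK hAC m hL.le).trans ?_
  have : L ^ 3 ≤ (L + 1) ^ 3 := pow_le_pow_left₀ hL.le (by linarith) 3
  exact mul_le_mul_of_nonneg_left this (Real.exp_pos _).le

theorem exists_lt_lpf (hK : Pre C K) (hAC : C ≤ A) (m : ℝ) {g : ℝ} (hg : g < pr A K m) :
    ∃ L : ℝ, 0 < L ∧ g * (L + 1) ^ 3 < lpf A K m L := by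
  have : Nonempty (Set.Ioi (0 : ℝ)) := ⟨⟨1, by norm_num⟩⟩
  obtain ⟨⟨L, hL⟩, h⟩ := exists_lt_of_lt_ciSup hg
  have hL0 : (0 : ℝ) < L := hL
  refine ⟨L, hL0, ?_⟩
  simp only at h
  rwa [lt_div_iff₀ (by positivity)] at h

/-- thermodynamic limit -/
theorem tendsto_lpf (hK : Pre C K) (hAC : C ≤ A) (m : ℝ) :
    Tendsto (fun L : ℝ => lpf A K m L / L ^ 3) atTop (𝓝 (pr A K m)) := by
  have hup : Tendsto (fun L : ℝ => pr A K m * (1 + L⁻¹) ^ 3) atTop (𝓝 (pr A K m)) := by
    have : Tendsto (fun L : ℝ => pr A K m * (1 + L⁻¹) ^ 3) atTop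
        (𝓝 (pr A K m * (1 + 0) ^ 3)) :=
      ((tendsto_const_nhds.add tendsto_inv_atTop_zero).pow 3).const_mul _
    simpa using this
  refine tendsto_order.2 ⟨fun g hg => ?_, fun g hg => ?_⟩
  · -- lower part
    obtain ⟨L₀, hL₀, hlt⟩ := exists_lt_lpf hK hAC m hg
    have hlim : Tendsto (fun L : ℝ => ((⌊(L₀ + 1)⁻¹ * L⌋₊ : ℝ) / L) ^ 3 * lpf A K m L₀) atTop
        (𝓝 (((L₀ + 1)⁻¹) ^ 3 * lpf A K m L₀)) :=
      ((tendsto_nat_floor_mul_div_atTop (by positivity)).pow 3).mul_const _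
    have hlt' : g < ((L₀ + 1)⁻¹) ^ 3 * lpf A K m L₀ := by
      rw [inv_pow, inv_mul_eq_div, lt_div_iff₀ (by positivity)]
      exact hlt
    filter_upwards [(tendsto_order.1 hlim).1 g hlt', eventually_gt_atTop (0 : ℝ)] with L h1 h2
    refine lt_of_lt_of_le h1 ?_
    have h3 : (⌊(L₀ + 1)⁻¹ * L⌋₊ : ℝ) * (L₀ + 1) ≤ L := by
      have := Nat.floor_le (a := (L₀ + 1)⁻¹ * L) (by positivity)
      calc (⌊(L₀ + 1)⁻¹ * L⌋₊ : ℝ) * (L₀ + 1) ≤ ((L₀ + 1)⁻¹ * L) * (L₀ + 1) := by gcongr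
        _ = L := by field_simp
    have h4 := superadd hK hAC m hL₀.le _ h3
    rw [div_pow, div_mul_eq_mul_div]
    gcongr
  · -- upper part
    filter_upwards [(tendsto_order.1 hup).2 g hg, eventually_gt_atTop (0 : ℝ)] with L h1 h2
    refine lt_of_le_of_lt ?_ h1
    rw [div_le_iff₀ (by positivity)]
    have h3 := lpf_le_pr hK hAC m h2
    have h4 : pr A K m * (1 + L⁻¹) ^ 3 * L ^ 3 = (L + 1) ^ 3 * pr A K m := by
      have : (1 + L⁻¹) * L = L + 1 := by field_simp
      calc pr A K m * (1 + L⁻¹) ^ 3 * L ^ 3 = pr A K m * ((1 + L⁻¹) * L) ^ 3 := by ring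
        _ = _ := by rw [this]; ring
    rw [h4]
    exact h3

/-- upper bounds for the pressure from bounds at large L -/
theorem pr_le_of_eventually (hK : Pre C K) (hAC : C ≤ A) (m : ℝ) {g : ℝ → ℝ} {G : ℝ}
    (hg : Tendsto g atTop (𝓝 G)) (h : ∀ᶠ L in atTop, lpf A K m L / L ^ 3 ≤ g L) :
    pr A K m ≤ G :=
  le_of_tendsto_of_tendsto (tendsto_lpf hK hAC m) hg h

theorem le_pr_of_eventually (hK : Pre C K) (hAC : C ≤ A) (m : ℝ) {g : ℝ → ℝ} {G : ℝ}
    (hg : Tendsto g atTop (𝓝 G)) (h : ∀ᶠ L in atTop, g L ≤ lpf A K m L / L ^ 3) :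
    G ≤ pr A K m :=
  le_of_tendsto_of_tendsto hg (tendsto_lpf hK hAC m) h

end gas

end Vale.Agent.P171
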