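import Vale.Agent.P171.Props

/-!
Lebowitz-Penrose upper bound at one value of the chemical potential.
-/

namespace Vale.Agent.P171

open MeasureTheory Set Filter Topology
open scoped ENNReal NNReal BigOperators

/-- the pair function inside one block -/
noncomputable def ublock (A : ℝ) (K : E → E → ℝ) (θ b : ℝ) (x y : E) : ℝ :=
  -(A / 2) * near x y + (1 + θ) / 2 * K x y + b

section gas

variable {A C : ℝ} {K : E → E → ℝ}

theorem pre_two_mul (hK : Pre C K) : Pre (2 * C) (fun x y => 2 * K x y) where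
  meas := by
    have : Function.uncurry (fun x y => 2 * K x y) = fun p : E × E =>
      2 * Function.uncurry K p := by funext p; rfl
    rw [this]
    exact hK.meas.const_mul 2
  nonneg x y := by have := hK.nonneg x y; positivity
  symm x y := by rw [hK.symm]
  trans a x y := by rw [hK.trans]
  bound N x := by
    rw [dsum_const_mul]
    have := hK.bound N x
    linarith

theorem dsum_ublock (A : ℝ) (K : E → E → ℝ) (θ b : ℝ) {N : ℕ} (x : Fin N → E) :
    dsum (ublock A K θ b) x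
      = dsum (fun p q => (1 - θ) * vpot A K p q + θ * vpot A (fun x y => 2 * K x y) p q) x
        + b * (N : ℝ) ^ 2 := by
  have h : ublock A K θ b = fun p q =>
      ((1 - θ) * vpot A K p q + θ * vpot A (fun x y => 2 * K x y) p q) + b := by
    funext p q; unfold ublock vpot; ring
  rw [h, dsum_add (fun p q => (1 - θ) * vpot A K p q + θ * vpot A (fun x y => 2 * K x y) p q)
    (fun _ _ => b)]
  congr 1
  simp [dsum]
  ring

theorem cint_shift_exponent {X : Type*} [MeasurableSpace X] (ν : Measure X) (v w : X → X → ℝ)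
    (m m' c : ℝ) (N : ℕ)
    (h : ∀ x : Fin N → X, m * N + dsum v x = c + (m' * N + dsum w x)) :
    cint ν v m N = ENNReal.ofReal (Real.exp c) * cint ν w m' N := by
  unfold cint
  rw [← lintegral_const_mul' _ _ ENNReal.ofReal_ne_top]
  refine lintegral_congr fun x => ?_
  unfold wt
  rw [← ENNReal.ofReal_mul (Real.exp_pos c).le, ← Real.exp_add]
  congr 2
  simpa using h x

theorem term_le_Xi {X : Type*} [MeasurableSpace X] (ν : Measure X) (v : X → X → ℝ) (m : ℝ)
    (N : ℕ) : ((N.factorial : ℝ≥0∞))⁻¹ * cint ν v m N ≤ Xi ν v m :=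
  ENNReal.le_tsum N

/-- U1: bound of one term of the block partition function -/
theorem block_term_le (hK : Pre C K) (hAC : 2 * C ≤ A) (hC : 0 ≤ C) {l : ℝ} (hl : 0 < l)
    {θ : ℝ} (hθ0 : 0 ≤ θ) (hθ1 : θ ≤ 1) (b m ν : ℝ) (N : ℕ) :
    ((N.factorial : ℝ≥0∞))⁻¹ * cint (volume.restrict (box l)) (ublock A K θ b) m N ≤
      ENNReal.ofReal (Real.exp (b * (N : ℝ) ^ 2 + (m - ν) * N + (l + 1) ^ 3 * pr A K ν
        + θ * (Real.exp ν * l ^ 3))) := by
  have hCA : C ≤ A := by linarith
  have hK2 := pre_two_mul hK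
  have h1 : cint (volume.restrict (box l)) (ublock A K θ b) m N =
      ENNReal.ofReal (Real.exp (b * (N : ℝ) ^ 2 + (m - ν) * N)) *
        cint (volume.restrict (box l)) (fun p q => (1 - θ) * vpot A K p q
          + θ * vpot A (fun x y => 2 * K x y) p q) ν N := by
    refine cint_shift_exponent _ _ _ _ _ _ N fun x => ?_
    rw [dsum_ublock]
    ring
  have h2 := cint_holder (volume.restrict (box l)) (vpot A K) (vpot A (fun x y => 2 * K x y))
    (measurable_vpot hK.meas) (measurable_vpot hK2.meas) ν θ hθ0 hθ1 N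
  have h3 : ((N.factorial : ℝ≥0∞))⁻¹ * cint (volume.restrict (box l))
      (fun p q => (1 - θ) * vpot A K p q + θ * vpot A (fun x y => 2 * K x y) p q) ν N ≤
      (Xi (volume.restrict (box l)) (vpot A K) ν) ^ (1 - θ) *
        (Xi (volume.restrict (box l)) (vpot A (fun x y => 2 * K x y)) ν) ^ θ := by
    calc ((N.factorial : ℝ≥0∞))⁻¹ * cint (volume.restrict (box l))
          (fun p q => (1 - θ) * vpot A K p q + θ * vpot A (fun x y => 2 * K x y) p q) ν N
        ≤ ((N.factorial : ℝ≥0∞))⁻¹ * ((cint (volume.restrict (box l)) (vpot A K) ν N) ^ (1 - θ)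
          * (cint (volume.restrict (box l)) (vpot A (fun x y => 2 * K x y)) ν N) ^ θ) := by
          gcongr
      _ = (((N.factorial : ℝ≥0∞))⁻¹ * cint (volume.restrict (box l)) (vpot A K) ν N) ^ (1 - θ)
          * (((N.factorial : ℝ≥0∞))⁻¹ *
            cint (volume.restrict (box l)) (vpot A (fun x y => 2 * K x y)) ν N) ^ θ :=
          factor_mix _ _ _ (factorial_inv_ne_zero N) (factorial_inv_ne_top N) θ hθ0 hθ1
      _ ≤ _ :=
          mul_le_mul' (ENNReal.rpow_le_rpow (term_le_Xi _ _ _ _) (by linarith))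
            (ENNReal.rpow_le_rpow (term_le_Xi _ _ _ _) hθ0)
  have h4 : (Xi (volume.restrict (box l)) (vpot A K) ν) ^ (1 - θ) ≤
      ENNReal.ofReal (Real.exp ((l + 1) ^ 3 * pr A K ν)) := by
    rw [← exp_lpf hK hCA ν hl.le, ENNReal.ofReal_rpow_of_pos (Real.exp_pos _), ← Real.exp_mul]
    refine ENNReal.ofReal_le_ofReal (Real.exp_le_exp.2 ?_)
    have h5 := lpf_nonneg hK hCA ν hl.le
    have h6 := lpf_le_pr hK hCA ν hl
    nlinarith
  have h5 : (Xi (volume.restrict (box l)) (vpot A (fun x y => 2 * K x y)) ν) ^ θ ≤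
      ENNReal.ofReal (Real.exp (θ * (Real.exp ν * l ^ 3))) := by
    have h6 := Xi_box_le hK2 hAC ν hl.le
    calc (Xi (volume.restrict (box l)) (vpot A (fun x y => 2 * K x y)) ν) ^ θ
        ≤ (ENNReal.ofReal (Real.exp (Real.exp ν * l ^ 3))) ^ θ := by gcongr
      _ = _ := by
        rw [ENNReal.ofReal_rpow_of_pos (Real.exp_pos _), ← Real.exp_mul]
        congr 2
        ring
  rw [h1, mul_left_comm]
  calc ENNReal.ofReal (Real.exp (b * (N : ℝ) ^ 2 + (m - ν) * N)) *
        (((N.factorial : ℝ≥0∞))⁻¹ * cint (volume.restrict (box l))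
          (fun p q => (1 - θ) * vpot A K p q + θ * vpot A (fun x y => 2 * K x y) p q) ν N)
      ≤ ENNReal.ofReal (Real.exp (b * (N : ℝ) ^ 2 + (m - ν) * N)) *
        (ENNReal.ofReal (Real.exp ((l + 1) ^ 3 * pr A K ν)) *
          ENNReal.ofReal (Real.exp (θ * (Real.exp ν * l ^ 3)))) := by
        exact mul_le_mul' le_rfl (h3.trans (mul_le_mul' h4 h5))
    _ = _ := by
        rw [← ENNReal.ofReal_mul (Real.exp_pos _).le, ← ENNReal.ofReal_mul (Real.exp_pos _).le,
          ← Real.exp_add, ← Real.exp_add]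
        congr 2
        ring

/-- U1': bound of the terms with large N -/
theorem block_term_large (hK : Pre C K) {ε : ℝ} (hε : 0 ≤ ε) (hC : 0 ≤ C)
    (hA : 2 * C + 54 * (ε + 1) ≤ A) {l : ℝ} (hl : 1 ≤ l) {θ : ℝ} (hθ0 : 0 ≤ θ) (hθ1 : θ ≤ 1)
    {b : ℝ} (hb : b ≤ ε / l ^ 3) (m ρ : ℝ) (N : ℕ) (hN : ρ * l ^ 3 ≤ N) :
    ((N.factorial : ℝ≥0∞))⁻¹ * cint (volume.restrict (box l)) (ublock A K θ b) m N ≤
      ((N.factorial : ℝ≥0∞))⁻¹ * ENNReal.ofReal (Real.exp (m - ρ) * l ^ 3) ^ N := by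
  have hl0 : 0 < l := by linarith
  have hl3 : 0 < l ^ 3 := by positivity
  gcongr
  have h := cint_restrict_le (volume : Measure E) (ublock A K θ b) m ((m - ρ) * N) (box l)
    (measurableSet_box l) N (fun x hx => by
      have hd : dsum (ublock A K θ b) x =
          -(A / 2) * dsum near x + (1 + θ) / 2 * dsum K x + b * (N : ℝ) ^ 2 := by
        have e : ublock A K θ b = fun p q => (-(A / 2) * near p q + (1 + θ) / 2 * K p q) + b := by
          funext p q; unfold ublock; ring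
        rw [e, dsum_add (fun p q => -(A / 2) * near p q + (1 + θ) / 2 * K p q) (fun _ _ => b),
          dsum_add, dsum_const_mul, dsum_const_mul]
        congr 1
        simp [dsum]
        ring
      have h1 := hK.bound N x
      have h2 := near_super l hl N x hx
      have h3 : 0 ≤ dsum near x := le_trans (Nat.cast_nonneg N) (near_diag N x)
      have h4 : (1 + θ) / 2 * dsum K x ≤ C * dsum near x := by
        calc (1 + θ) / 2 * dsum K x ≤ (1 + θ) / 2 * (C * dsum near x) := by gcongr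
          _ ≤ 1 * (C * dsum near x) := by
            have : 0 ≤ C * dsum near x := mul_nonneg hC h3
            apply mul_le_mul_of_nonneg_right _ this
            linarith
          _ = _ := one_mul _
      have h5 : b * (N : ℝ) ^ 2 ≤ ε / l ^ 3 * (N : ℝ) ^ 2 := by gcongr
      have h6 : -(A / 2) * dsum near x + C * dsum near x ≤
          -(27 * (ε + 1)) * dsum near x := by
        have : (-(A / 2) + C) ≤ -(27 * (ε + 1)) := by linarith
        calc -(A / 2) * dsum near x + C * dsum near x = (-(A / 2) + C) * dsum near x := by ring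
          _ ≤ _ := mul_le_mul_of_nonneg_right this h3
      have h7 : (N : ℝ) ^ 2 / l ^ 3 * (ε + 1) ≤ 27 * (ε + 1) * dsum near x := by
        have := mul_le_mul_of_nonneg_left h2 (by linarith : (0:ℝ) ≤ 27 * (ε + 1))
        calc (N : ℝ) ^ 2 / l ^ 3 * (ε + 1) = 27 * (ε + 1) * ((N : ℝ) ^ 2 / (27 * l ^ 3)) := by
              field_simp
          _ ≤ _ := this
      have h8 : ρ * N ≤ (N : ℝ) ^ 2 / l ^ 3 := by
        rw [le_div_iff₀ hl3]
        nlinarith [Nat.cast_nonneg (α := ℝ) N]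
      rw [hd]
      have e1 : (N : ℝ) ^ 2 / l ^ 3 * (ε + 1) = ε / l ^ 3 * (N : ℝ) ^ 2 + (N : ℝ) ^ 2 / l ^ 3 := by
        ring
      linarith)
  refine h.trans (le_of_eq ?_)
  rw [volume_box l hl0.le, ENNReal.ofReal_mul (Real.exp_pos _).le, mul_pow, mul_comm (m - ρ),
    Real.exp_nat_mul, ENNReal.ofReal_pow (Real.exp_pos _).le]

/-- U2: the block partition function -/
theorem block_le (hK : Pre C K) {ε : ℝ} (hε : 0 < ε) (hC : 0 ≤ C)
    (hA : 2 * C + 54 * (ε + 1) ≤ A) {l : ℝ} (hl : 1 ≤ l) {θ : ℝ} (hθ0 : 0 ≤ θ) (hθ1 : θ ≤ 1)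
    {b c : ℝ} (hb : b ≤ ε / l ^ 3) (hc1 : 1 ≤ c) (hbc : b ≤ ε / 2 * c / l ^ 3) {m ρ q g : ℝ}
    (hρ : 0 ≤ ρ) (hq : ∀ ν, pr A K ν - (ν - m) ^ 2 / (2 * ε) ≤ q)
    (hg1 : ε / 2 * (c - 1) * ρ ^ 2 + ((l + 1) ^ 3 / l ^ 3 - 1) * pr A K (m + ε * ρ)
      + θ * Real.exp (m + ε * ρ) ≤ g)
    (hg2 : Real.exp (m - ρ) ≤ g) :
    Xi (volume.restrict (box l)) (ublock A K θ b) m ≤
      ENNReal.ofReal ((ρ * l ^ 3 + 2) * Real.exp (l ^ 3 * (q + g))) := by
  have hl0 : 0 < l := by linarith
  have hl3 : 0 < l ^ 3 := by positivity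
  have hCA : C ≤ A := by linarith
  have h2CA : 2 * C ≤ A := by linarith
  have hq0 : 0 ≤ q := by
    have h1 := hq m
    have h2 := pr_nonneg hK hCA m
    have h3 : (m - m) ^ 2 / (2 * ε) = 0 := by simp
    linarith
  set n0 := ⌊ρ * l ^ 3⌋₊ with hn0
  have hterm : ∀ N : ℕ, ((N.factorial : ℝ≥0∞))⁻¹ *
      cint (volume.restrict (box l)) (ublock A K θ b) m N ≤
      (if N ∈ Finset.range (n0 + 1) then ENNReal.ofReal (Real.exp (l ^ 3 * (q + g))) else 0) +
        ((N.factorial : ℝ≥0∞))⁻¹ * ENNReal.ofReal (Real.exp (m - ρ) * l ^ 3) ^ N := by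
    intro N
    by_cases hN : (N : ℝ) ≤ ρ * l ^ 3
    · have hmem : N ∈ Finset.range (n0 + 1) := by
        rw [Finset.mem_range, Nat.lt_succ_iff]
        exact Nat.le_floor hN
      rw [if_pos hmem]
      refine le_trans ?_ le_self_add
      set r : ℝ := N / l ^ 3 with hr
      have hNr : (N : ℝ) = r * l ^ 3 := by rw [hr]; field_simp
      have hr0 : 0 ≤ r := by positivity
      have hrρ : r ≤ ρ := by
        rw [hr, div_le_iff₀ hl3]
        exact hN
      refine (block_term_le hK h2CA hC hl0 hθ0 hθ1 b m (m + ε * r) N).trans ?_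
      refine ENNReal.ofReal_le_ofReal (Real.exp_le_exp.2 ?_)
      have h1 : b * (N : ℝ) ^ 2 ≤ ε / 2 * c * r ^ 2 * l ^ 3 := by
        calc b * (N : ℝ) ^ 2 ≤ ε / 2 * c / l ^ 3 * (N : ℝ) ^ 2 := by gcongr
          _ = _ := by rw [hNr]; field_simp
      have h2 : (m - (m + ε * r)) * N = -(ε * r ^ 2 * l ^ 3) := by rw [hNr]; ring
      have h3 : pr A K (m + ε * r) ≤ q + ε / 2 * r ^ 2 := by
        have := hq (m + ε * r)
        have e : (m + ε * r - m) ^ 2 / (2 * ε) = ε / 2 * r ^ 2 := by field_simp; ring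
        rw [e] at this
        linarith
      have hmr : m + ε * r ≤ m + ε * ρ := by
        have := mul_le_mul_of_nonneg_left hrρ hε.le
        linarith
      have h4 : pr A K (m + ε * r) ≤ pr A K (m + ε * ρ) := pr_mono hK hCA hmr
      have h5 : Real.exp (m + ε * r) ≤ Real.exp (m + ε * ρ) := Real.exp_le_exp.2 hmr
      have h6 : (l + 1) ^ 3 * pr A K (m + ε * r) ≤
          l ^ 3 * (q + ε / 2 * r ^ 2) + ((l + 1) ^ 3 - l ^ 3) * pr A K (m + ε * ρ) := by
        have e : (l + 1) ^ 3 * pr A K (m + ε * r) = l ^ 3 * pr A K (m + ε * r)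
          + ((l + 1) ^ 3 - l ^ 3) * pr A K (m + ε * r) := by ring
        rw [e]
        have hpos : 0 ≤ (l + 1) ^ 3 - l ^ 3 := by
          have := pow_le_pow_left₀ hl0.le (by linarith : l ≤ l + 1) 3
          linarith
        exact add_le_add (mul_le_mul_of_nonneg_left h3 hl3.le)
          (mul_le_mul_of_nonneg_left h4 hpos)
      have h7 : θ * (Real.exp (m + ε * r) * l ^ 3) ≤ θ * Real.exp (m + ε * ρ) * l ^ 3 := by
        have : θ * Real.exp (m + ε * r) ≤ θ * Real.exp (m + ε * ρ) :=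
          mul_le_mul_of_nonneg_left h5 hθ0
        rw [← mul_assoc]
        exact mul_le_mul_of_nonneg_right this hl3.le
      have h8 : ((l + 1) ^ 3 - l ^ 3) * pr A K (m + ε * ρ) =
          l ^ 3 * (((l + 1) ^ 3 / l ^ 3 - 1) * pr A K (m + ε * ρ)) := by
        field_simp
      have h9 : r ^ 2 ≤ ρ ^ 2 := by gcongr
      have h10 : ε / 2 * (c - 1) * r ^ 2 ≤ ε / 2 * (c - 1) * ρ ^ 2 := by
        have : 0 ≤ ε / 2 * (c - 1) := by
          have : 0 ≤ c - 1 := by linarith
          positivity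
        exact mul_le_mul_of_nonneg_left h9 this
      rw [h8] at h6
      generalize ((l + 1) ^ 3 / l ^ 3 - 1) * pr A K (m + ε * ρ) = X at h6 hg1
      generalize (l + 1) ^ 3 * pr A K (m + ε * r) = Y at h6 ⊢
      generalize θ * (Real.exp (m + ε * r) * l ^ 3) = Z at h7 ⊢
      generalize θ * Real.exp (m + ε * ρ) = W at h7 hg1
      have h11 : l ^ 3 * (ε / 2 * (c - 1) * r ^ 2 + X + W) ≤ l ^ 3 * g :=
        mul_le_mul_of_nonneg_left (by linarith) hl3.le
      have h12 : ε / 2 * c * r ^ 2 * l ^ 3 + -(ε * r ^ 2 * l ^ 3) +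
          (l ^ 3 * (q + ε / 2 * r ^ 2) + l ^ 3 * X) + W * l ^ 3 =
          l ^ 3 * q + l ^ 3 * (ε / 2 * (c - 1) * r ^ 2 + X + W) := by ring
      rw [h2, mul_add]
      linarith
    · push Not at hN
      refine le_trans ?_ le_add_self
      exact block_term_large hK hε.le hC hA hl hθ0 hθ1 hb m ρ N hN.le
  unfold Xi
  refine (ENNReal.tsum_le_tsum hterm).trans ?_
  rw [ENNReal.tsum_add, tsum_exp _ (by positivity)]
  have h1 : ∑' N : ℕ, (if N ∈ Finset.range (n0 + 1) then
      ENNReal.ofReal (Real.exp (l ^ 3 * (q + g))) else 0) ≤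
      ENNReal.ofReal ((ρ * l ^ 3 + 1) * Real.exp (l ^ 3 * (q + g))) := by
    rw [tsum_eq_sum (s := Finset.range (n0 + 1)) (fun N hN => if_neg hN)]
    rw [Finset.sum_congr rfl (fun N hN => if_pos hN), Finset.sum_const, Finset.card_range,
      nsmul_eq_mul, ENNReal.ofReal_mul (by positivity)]
    gcongr
    rw [← ENNReal.ofReal_natCast]
    refine ENNReal.ofReal_le_ofReal ?_
    push_cast
    have := Nat.floor_le (a := ρ * l ^ 3) (by positivity)
    linarith
  have h2 : ENNReal.ofReal (Real.exp (Real.exp (m - ρ) * l ^ 3)) ≤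
      ENNReal.ofReal (Real.exp (l ^ 3 * (q + g))) := by
    refine ENNReal.ofReal_le_ofReal (Real.exp_le_exp.2 ?_)
    rw [mul_comm]
    exact mul_le_mul_of_nonneg_left (by linarith) hl3.le
  refine (add_le_add h1 h2).trans (le_of_eq ?_)
  rw [← ENNReal.ofReal_add (by positivity) (by positivity)]
  congr 1
  ring

end gas

end Vale.Agent.P171
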